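import Mathlib

open scoped ENNReal NNReal
open MeasureTheory

namespace Vale.Agent.P074

/-- The uniform probability measure on `K`. -/
noncomputable def unif {E : Type*} [MeasureSpace E] (K : Set E) : Measure E :=
  (volume K)⁻¹ • volume.restrict K

/-- `T` is an optimal transport map for the quadratic cost from `ρ` to `μ`: a Borel map pushing
`ρ` to `μ` which minimizes `∫ |x - T x|² dρ` among all Borel maps pushing `ρ` to `μ`. -/
def IsOptimalMap {E : Type*} [MeasurableSpace E] [EDist E] (ρ μ : Measure E) (T : E → E) : Prop :=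
  Measurable T ∧ ρ.map T = μ ∧
    ∀ S : E → E, Measurable S → ρ.map S = μ →
      ∫⁻ x, edist x (T x) ^ 2 ∂ρ ≤ ∫⁻ x, edist x (S x) ^ 2 ∂ρ

/-- The quadratic Wasserstein distance. -/
noncomputable def W2 {E : Type*} [MeasurableSpace E] [EDist E] (μ ν : Measure E) : ℝ≥0∞ :=
  (⨅ π : {π : Measure (E × E) // π.map Prod.fst = μ ∧ π.map Prod.snd = ν},
    ∫⁻ p, edist p.1 p.2 ^ 2 ∂π.1) ^ (1 / 2 : ℝ)

/-- The `L²(ρ)` distance between two maps. -/
noncomputable def L2dist {E : Type*} [MeasurableSpace E] [EDist E] (ρ : Measure E)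
    (T S : E → E) : ℝ≥0∞ :=
  (∫⁻ x, edist (T x) (S x) ^ 2 ∂ρ) ^ (1 / 2 : ℝ)

/-- For the uniform source on `K` and targets supported in `Y`, optimal transport maps satisfy
`‖T_μ - T_ν‖_{L²(ρ)} ≤ C W₂(μ, ν) ^ α` with one finite constant `C`. -/
def StabilityBound {E : Type*} [MeasureSpace E] [EDist E] (K Y : Set E) (α : ℝ) : Prop :=
  ∃ C : ℝ≥0, ∀ μ ν : Measure E,
    IsProbabilityMeasure μ → IsProbabilityMeasure ν → μ Yᶜ = 0 → ν Yᶜ = 0 →
    ∀ T S : E → E, IsOptimalMap (unif K) μ T → IsOptimalMap (unif K) ν S →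
      L2dist (unif K) T S ≤ C * W2 μ ν ^ α

/-- The exponent `α ∈ (0, 1]` is admissible in dimension `d`. -/
def Admissible (d : ℕ) (α : ℝ) : Prop :=
  0 < α ∧ α ≤ 1 ∧ ∀ K Y : Set (EuclideanSpace ℝ (Fin d)),
    Convex ℝ K → IsCompact K → (interior K).Nonempty → IsCompact Y → Y.Nonempty →
    StabilityBound K Y α

/-- The unit cube centred at the origin. -/
def cube (d : ℕ) : Set (EuclideanSpace ℝ (Fin d)) := {x | ∀ i, |x i| ≤ 1 / 2}

end Vale.Agent.P074
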