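import Vale.Agent.P074.PL2

open scoped ENNReal NNReal
open MeasureTheory Set

namespace Vale.Agent.P074

/-- Gaussian weight. -/
noncomputable def th {d : ℕ} (ε : ℝ) (x : EuclideanSpace ℝ (Fin d)) : ℝ := Real.exp (-(ε * ‖x‖ ^ 2 / 2))

variable {d : ℕ}

theorem th_pos (ε : ℝ) (x : EuclideanSpace ℝ (Fin d)) : 0 < th ε x := Real.exp_pos _

theorem th_cont (ε : ℝ) : Continuous (th (d := d) ε) := by unfold th; fun_prop

theorem intOn {K A : Set (EuclideanSpace ℝ (Fin d))} (hK : IsCompact K) (hA : A ⊆ K)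
    {F : EuclideanSpace ℝ (Fin d) → ℝ} (hF : Continuous F) : IntegrableOn F A :=
  (hF.continuousOn.integrableOn_compact hK).mono_set hA

/-- Weighted Jensen inequality for the exponential. -/
theorem jensen {K A : Set (EuclideanSpace ℝ (Fin d))} (hK : IsCompact K) (hA : A ⊆ K)
    {θ u : EuclideanSpace ℝ (Fin d) → ℝ} (hθ : Continuous θ)
    (hu : Continuous u) (hθ0 : ∀ x, 0 < θ x) (ha : 0 < ∫ x in A, θ x) :
    (∫ x in A, θ x) * Real.exp ((∫ x in A, θ x * u x) / (∫ x in A, θ x)) ≤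
      ∫ x in A, θ x * Real.exp (u x) := by
  set a := ∫ x in A, θ x with ha'
  set m := (∫ x in A, θ x * u x) / a with hm
  have h1 : ∀ x, θ x * (Real.exp m * (1 + u x - m)) ≤ θ x * Real.exp (u x) := by
    intro x
    apply mul_le_mul_of_nonneg_left _ (hθ0 x).le
    have := Real.add_one_le_exp (u x - m)
    calc Real.exp m * (1 + u x - m) ≤ Real.exp m * Real.exp (u x - m) := by
          apply mul_le_mul_of_nonneg_left _ (Real.exp_pos _).le
          linarith
      _ = Real.exp (u x) := by rw [← Real.exp_add]; congr 1; ring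
  have h2 : ∫ x in A, θ x * (Real.exp m * (1 + u x - m)) ≤ ∫ x in A, θ x * Real.exp (u x) :=
    setIntegral_mono (intOn hK hA (by fun_prop)) (intOn hK hA (by fun_prop)) h1
  have h3 : ∫ x in A, θ x * (Real.exp m * (1 + u x - m)) = a * Real.exp m := by
    have e : ∀ x, θ x * (Real.exp m * (1 + u x - m)) =
        (Real.exp m * (1 - m)) * θ x + Real.exp m * (θ x * u x) := by intro x; ring
    simp_rw [e]
    rw [integral_add, integral_const_mul, integral_const_mul]
    · have : (∫ x in A, θ x * u x) = m * a := by rw [hm]; field_simp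
      rw [this, ← ha']; ring
    · exact (intOn hK hA hθ).const_mul _
    · exact (intOn hK hA (hθ.mul hu)).const_mul _
  rw [h3] at h2
  exact h2

/-- Parallelogram computation for the Gaussian weight. -/
theorem th_mid (ε : ℝ) (x z : EuclideanSpace ℝ (Fin d)) {s : ℝ} (hs : s ≤ (ε / 4) * ‖x - z‖ ^ 2) :
    th ε x * th ε z * Real.exp s ≤ th ε ((1/2 : ℝ) • (x + z)) ^ 2 := by
  unfold th
  rw [← Real.exp_add, ← Real.exp_add, ← Real.exp_nat_mul]
  apply Real.exp_le_exp.2
  have h1 : ‖(1/2 : ℝ) • (x + z)‖ ^ 2 = (1/2) * (‖x‖ ^ 2 + ‖z‖ ^ 2) - (1/4) * ‖x - z‖ ^ 2 := by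
    rw [norm_smul, mul_pow, norm_add_sq_real, norm_sub_sq_real]
    norm_num
    ring
  rw [h1]
  push_cast
  nlinarith

/-- Prekopa-Leindler on a triple of sets, in real form. -/
theorem pl_sets {K A B C : Set (EuclideanSpace ℝ (Fin d))} (hK : IsCompact K)
    (hA : A ⊆ K) (hB : B ⊆ K) (hC : C ⊆ K) (mA : MeasurableSet A) (mB : MeasurableSet B)
    (mC : MeasurableSet C) (hmid : ∀ x ∈ A, ∀ z ∈ B, (1/2 : ℝ) • (x + z) ∈ C) (ε : ℝ)
    {α β : EuclideanSpace ℝ (Fin d) → ℝ} (hα : Continuous α) (hβ : Continuous β)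
    (hαβ : ∀ x ∈ A, ∀ z ∈ B, α x + β z ≤ (ε / 2) * ‖x - z‖ ^ 2) :
    (∫ x in A, th ε x * Real.exp (α x / 2)) * (∫ x in B, th ε x * Real.exp (β x / 2)) ≤
      (∫ x in C, th ε x) ^ 2 := by
  have hcθ := th_cont (d := d) ε
  have conv : ∀ (S : Set (EuclideanSpace ℝ (Fin d))) (hS : S ⊆ K) (mS : MeasurableSet S)
      (F : EuclideanSpace ℝ (Fin d) → ℝ) (hF : Continuous F) (hF0 : ∀ x, 0 ≤ F x),
      ∫⁻ x, S.indicator (fun x => ENNReal.ofReal (F x)) x = ENNReal.ofReal (∫ x in S, F x) := by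
    intro S hS mS F hF hF0
    rw [lintegral_indicator mS, ofReal_integral_eq_lintegral_ofReal (intOn hK hS hF)
      (Filter.Eventually.of_forall hF0)]
  have key := pl_euclidean d
    (A.indicator (fun x => ENNReal.ofReal (th ε x * Real.exp (α x / 2))))
    (B.indicator (fun x => ENNReal.ofReal (th ε x * Real.exp (β x / 2))))
    (C.indicator (fun x => ENNReal.ofReal (th ε x)))
    (Measurable.indicator (by fun_prop) mA) (Measurable.indicator (by fun_prop) mB)
    (Measurable.indicator (by fun_prop) mC) (by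
      intro x z
      by_cases hx : x ∈ A
      · by_cases hz : z ∈ B
        · rw [indicator_of_mem hx, indicator_of_mem hz, indicator_of_mem (hmid x hx z hz),
            ← ENNReal.ofReal_mul (by have := th_pos ε x; positivity),
            ← ENNReal.ofReal_pow (th_pos _ _).le]
          apply ENNReal.ofReal_le_ofReal
          have h := th_mid ε x z (s := α x / 2 + β z / 2) (by linarith [hαβ x hx z hz])
          rw [Real.exp_add] at h
          calc _ = th ε x * th ε z * (Real.exp (α x / 2) * Real.exp (β z / 2)) := by ring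
            _ ≤ _ := h
        · rw [indicator_of_notMem hz]; simp
      · rw [indicator_of_notMem hx]; simp)
  rw [conv A hA mA _ (by fun_prop) (fun x => by have := th_pos ε x; positivity),
    conv B hB mB _ (by fun_prop) (fun x => by have := th_pos ε x; positivity),
    conv C hC mC _ (by fun_prop) (fun x => (th_pos ε x).le)] at key
  have p1 : 0 ≤ ∫ x in A, th ε x * Real.exp (α x / 2) :=
    integral_nonneg fun x => by have := th_pos ε x; positivity
  have p3 : 0 ≤ ∫ x in C, th ε x := integral_nonneg fun x => (th_pos ε x).le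
  rw [← ENNReal.ofReal_mul p1, ← ENNReal.ofReal_pow p3, ENNReal.ofReal_le_ofReal_iff (by positivity)] at key
  exact key

/-- The basic inequality on one triple of cells. -/
theorem cell_ineq {K A B C : Set (EuclideanSpace ℝ (Fin d))} (hK : IsCompact K)
    (hA : A ⊆ K) (hB : B ⊆ K) (hC : C ⊆ K) (mA : MeasurableSet A) (mB : MeasurableSet B)
    (mC : MeasurableSet C) (hmid : ∀ x ∈ A, ∀ z ∈ B, (1/2 : ℝ) • (x + z) ∈ C) {ε : ℝ} (hε : 0 < ε)
    {g : EuclideanSpace ℝ (Fin d) → ℝ} (hg : Continuous g) {G : ℝ} (hG : 0 < G)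
    (hgG : ∀ x ∈ K, ∀ z ∈ K, |g x - g z| ≤ G * ‖x - z‖)
    (ha : 0 < ∫ x in A, th ε x) (hc : 0 < ∫ x in B, th ε x) :
    Real.sqrt ((∫ x in A, th ε x) * (∫ x in B, th ε x)) *
      (1 + ε * ((∫ x in A, th ε x * g x) / (∫ x in A, th ε x) -
        (∫ x in B, th ε x * g x) / (∫ x in B, th ε x)) ^ 2 / (8 * G ^ 2)) ≤ ∫ x in C, th ε x := by
  have hcθ := th_cont (d := d) ε
  set a := ∫ x in A, th ε x with ha'
  set c := ∫ x in B, th ε x with hc'
  set Δ := (∫ x in A, th ε x * g x) / a - (∫ x in B, th ε x * g x) / c with hΔ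
  set lam := Δ / G ^ 2 with hlam
  have hpl := pl_sets hK hA hB hC mA mB mC hmid ε
    (α := fun x => ε * lam * g x) (β := fun z => -(ε * lam * g z) - (ε / 2) * lam ^ 2 * G ^ 2)
    (by fun_prop) (by fun_prop) (by
      intro x hx z hz
      have h1 := hgG x (hA hx) z (hB hz)
      have h2 : lam * (g x - g z) ≤ |lam| * (G * ‖x - z‖) := by
        calc lam * (g x - g z) ≤ |lam * (g x - g z)| := le_abs_self _
          _ = |lam| * |g x - g z| := abs_mul _ _
          _ ≤ _ := mul_le_mul_of_nonneg_left h1 (abs_nonneg _)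
      have h3 : |lam| * (G * ‖x - z‖) ≤ (1/2) * ‖x - z‖ ^ 2 + (1/2) * lam ^ 2 * G ^ 2 := by
        have := sq_nonneg (|lam| * G - ‖x - z‖)
        have e : (|lam| * G) ^ 2 = lam ^ 2 * G ^ 2 := by rw [mul_pow, sq_abs]
        nlinarith
      have h4 : ε * (lam * (g x - g z)) ≤
          ε * ((1/2) * ‖x - z‖ ^ 2 + (1/2) * lam ^ 2 * G ^ 2) :=
        mul_le_mul_of_nonneg_left (h2.trans h3) hε.le
      calc ε * lam * g x + (-(ε * lam * g z) - (ε / 2) * lam ^ 2 * G ^ 2)
          = ε * (lam * (g x - g z)) - (ε / 2) * lam ^ 2 * G ^ 2 := by ring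
        _ ≤ ε * ((1/2) * ‖x - z‖ ^ 2 + (1/2) * lam ^ 2 * G ^ 2) - (ε / 2) * lam ^ 2 * G ^ 2 := by
            linarith
        _ = _ := by ring)
  have j1 := jensen hK hA (θ := th ε) (u := fun x => ε * lam * g x / 2) hcθ (by fun_prop)
    (th_pos ε) ha
  have j2 := jensen hK hB (θ := th ε)
    (u := fun z => (-(ε * lam * g z) - (ε / 2) * lam ^ 2 * G ^ 2) / 2) hcθ (by fun_prop)
    (th_pos ε) hc
  rw [← ha'] at j1
  rw [← hc'] at j2
  have i1 : ∫ x in A, th ε x * (ε * lam * g x / 2) = (ε * lam / 2) * ∫ x in A, th ε x * g x := by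
    rw [← integral_const_mul]; congr 1; funext x; ring
  have i2 : ∫ x in B, th ε x * ((-(ε * lam * g x) - (ε / 2) * lam ^ 2 * G ^ 2) / 2) =
      -(ε * lam / 2) * (∫ x in B, th ε x * g x) - (ε / 4) * lam ^ 2 * G ^ 2 * c := by
    have e : ∀ x, th ε x * ((-(ε * lam * g x) - (ε / 2) * lam ^ 2 * G ^ 2) / 2) =
        (-(ε * lam / 2)) * (th ε x * g x) - ((ε / 4) * lam ^ 2 * G ^ 2) * th ε x := by
      intro x; ring
    simp_rw [e]
    rw [integral_sub, integral_const_mul, integral_const_mul, ← hc']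
    · exact (intOn hK hB (hcθ.mul hg)).const_mul _
    · exact (intOn hK hB hcθ).const_mul _
  rw [i1] at j1
  rw [i2] at j2
  set IA := ∫ x in A, th ε x * g x
  set IB := ∫ x in B, th ε x * g x
  have hprod : a * c * Real.exp (ε * Δ ^ 2 / (4 * G ^ 2)) ≤ (∫ x in C, th ε x) ^ 2 := by
    refine le_trans ?_ hpl
    have hmul := mul_le_mul j1 j2 (by positivity)
      (le_trans (by positivity) j1)
    refine le_trans (le_of_eq ?_) hmul
    rw [show a * Real.exp (ε * lam / 2 * IA / a) *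
        (c * Real.exp ((-(ε * lam / 2) * IB - ε / 4 * lam ^ 2 * G ^ 2 * c) / c)) =
        a * c * (Real.exp (ε * lam / 2 * IA / a) *
          Real.exp ((-(ε * lam / 2) * IB - ε / 4 * lam ^ 2 * G ^ 2 * c) / c)) by ring,
      ← Real.exp_add]
    congr 2
    have e1 : ε * lam / 2 * IA / a + (-(ε * lam / 2) * IB - ε / 4 * lam ^ 2 * G ^ 2 * c) / c =
        ε * lam / 2 * Δ - ε / 4 * lam ^ 2 * G ^ 2 := by
      rw [hΔ]; field_simp; ring
    rw [e1, hlam]
    field_simp
    ring
  have hC0 : 0 ≤ ∫ x in C, th ε x := integral_nonneg fun x => (th_pos ε x).le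
  have hac : 0 < a * c := mul_pos ha hc
  have h5 : Real.sqrt (a * c) * Real.exp (ε * Δ ^ 2 / (8 * G ^ 2)) ≤ ∫ x in C, th ε x := by
    refine (pow_le_pow_iff_left₀ (by positivity) hC0 two_ne_zero).1 ?_
    calc (Real.sqrt (a * c) * Real.exp (ε * Δ ^ 2 / (8 * G ^ 2))) ^ 2
        = a * c * Real.exp (ε * Δ ^ 2 / (4 * G ^ 2)) := by
          rw [mul_pow, Real.sq_sqrt hac.le, ← Real.exp_nat_mul]
          congr 2; push_cast; field_simp; ring
      _ ≤ _ := hprod
  refine le_trans ?_ h5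
  apply mul_le_mul_of_nonneg_left _ (Real.sqrt_nonneg _)
  have := Real.add_one_le_exp (ε * Δ ^ 2 / (8 * G ^ 2))
  linarith

end Vale.Agent.P074
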