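import Vale.Agent.P074.LA

open scoped ENNReal NNReal
open MeasureTheory Set

namespace Vale.Agent.P074

variable {d : ℕ} {ι : Type} [Fintype ι]

/-- Laguerre cell. -/
def cell (K : Set (EuclideanSpace ℝ (Fin d))) (y : ι → EuclideanSpace ℝ (Fin d)) (a : ι → ℝ)
    (k : ι) : Set (EuclideanSpace ℝ (Fin d)) :=
  {x | x ∈ K ∧ ∀ j, inner ℝ x (y j) - a j ≤ inner ℝ x (y k) - a k}

theorem cell_sub (K : Set (EuclideanSpace ℝ (Fin d))) (y : ι → EuclideanSpace ℝ (Fin d))
    (a : ι → ℝ) (k : ι) : cell K y a k ⊆ K := fun _ hx => hx.1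

theorem cell_meas {K : Set (EuclideanSpace ℝ (Fin d))} (hK : MeasurableSet K)
    (y : ι → EuclideanSpace ℝ (Fin d)) (a : ι → ℝ) (k : ι) : MeasurableSet (cell K y a k) := by
  have : cell K y a k = K ∩ ⋂ j, {x | inner ℝ x (y j) - a j ≤ inner ℝ x (y k) - a k} := by
    ext x; simp [cell]
  rw [this]
  refine hK.inter (MeasurableSet.iInter fun j => ?_)
  exact measurableSet_le (by fun_prop) (by fun_prop)

theorem cell_mid {K : Set (EuclideanSpace ℝ (Fin d))} (hK : Convex ℝ K)
    (y : ι → EuclideanSpace ℝ (Fin d)) (a b : ι → ℝ) (k : ι) {x z : EuclideanSpace ℝ (Fin d)}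
    (hx : x ∈ cell K y a k) (hz : z ∈ cell K y b k) :
    (1/2 : ℝ) • (x + z) ∈ cell K y (fun j => (a j + b j) / 2) k := by
  refine ⟨?_, fun j => ?_⟩
  · rw [smul_add]
    exact hK hx.1 hz.1 (by norm_num) (by norm_num) (by norm_num)
  · have h1 := hx.2 j
    have h2 := hz.2 j
    rw [inner_smul_left, inner_smul_left, inner_add_left, inner_add_left]
    simp only [conj_trivial]
    linarith

theorem cell_overlap {K : Set (EuclideanSpace ℝ (Fin d))}
    {y : ι → EuclideanSpace ℝ (Fin d)} (hy : Function.Injective y) (a : ι → ℝ) {j k : ι}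
    (hjk : j ≠ k) : volume (cell K y a j ∩ cell K y a k) = 0 := by
  have h1 : cell K y a j ∩ cell K y a k ⊆
      {x | (innerₛₗ ℝ (y j - y k)) x = a j - a k} := by
    rintro x ⟨h1, h2⟩
    have e1 := h1.2 k
    have e2 := h2.2 j
    simp only [mem_ofPred_eq, innerₛₗ_apply_apply, inner_sub_left]
    rw [real_inner_comm x (y j), real_inner_comm x (y k)] at *
    linarith
  refine measure_mono_null h1 ?_
  have hne : y j - y k ≠ 0 := sub_ne_zero.2 (hy.ne hjk)
  -- level set of a nonzero functional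
  set f : EuclideanSpace ℝ (Fin d) →ₗ[ℝ] ℝ := innerₛₗ ℝ (y j - y k) with hf
  set c := a j - a k
  have hfv : f (y j - y k) ≠ 0 := by
    simp only [hf, innerₛₗ_apply_apply]
    simpa using hne
  set v := y j - y k
  set p := (c / f v) • v with hp
  have hfp : f p = c := by simp [hp, hfv]
  have h2 : {x : EuclideanSpace ℝ (Fin d) | f x = c} =
      (fun x => x + (-p)) ⁻¹' (LinearMap.ker f : Set _) := by
    ext x
    simp only [mem_ofPred_eq, mem_preimage, SetLike.mem_coe, LinearMap.mem_ker, map_add, map_neg,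
      hfp]
    constructor
    · intro h; rw [h]; ring
    · intro h; linarith
  rw [h2, measure_preimage_add_right]
  apply Measure.addHaar_submodule
  intro h
  rw [LinearMap.ker_eq_top] at h
  apply hfv
  rw [h]; simp

theorem cell_cover [Nonempty ι] (K : Set (EuclideanSpace ℝ (Fin d)))
    (y : ι → EuclideanSpace ℝ (Fin d)) (a : ι → ℝ) : ⋃ k, cell K y a k = K := by
  apply subset_antisymm (iUnion_subset fun k => cell_sub K y a k)
  intro x hx
  obtain ⟨k, -, hk⟩ := Finset.exists_max_image Finset.univ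
    (fun j => inner ℝ x (y j) - a j) Finset.univ_nonempty
  exact mem_iUnion.2 ⟨k, hx, fun j => hk j (Finset.mem_univ _)⟩

theorem sum_cells [Nonempty ι] {K : Set (EuclideanSpace ℝ (Fin d))} (hK : IsCompact K)
    {y : ι → EuclideanSpace ℝ (Fin d)} (hy : Function.Injective y) (a : ι → ℝ)
    {F : EuclideanSpace ℝ (Fin d) → ℝ} (hF : Continuous F) :
    ∑ k, ∫ x in cell K y a k, F x = ∫ x in K, F x := by
  have h := integral_iUnion_ae (μ := volume) (s := fun k => cell K y a k) (f := F)
    (fun k => (cell_meas hK.measurableSet y a k).nullMeasurableSet)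
    (fun j k hjk => cell_overlap hy a hjk)
    (by rw [cell_cover]; exact intOn hK subset_rfl hF)
  rw [cell_cover, tsum_fintype] at h
  exact h.symm

end Vale.Agent.P074
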