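import Vale.Agent.P074.LB

open scoped ENNReal NNReal
open MeasureTheory Set

namespace Vale.Agent.P074

variable {d : ℕ} {ι : Type} [Fintype ι]

theorem star_ineq [Nonempty ι] {K : Set (EuclideanSpace ℝ (Fin d))} (hK : IsCompact K)
    (hKc : Convex ℝ K) {y : ι → EuclideanSpace ℝ (Fin d)} (hy : Function.Injective y) (a b : ι → ℝ)
    {ε : ℝ} (hε : 0 < ε) {g : EuclideanSpace ℝ (Fin d) → ℝ} (hg : Continuous g) {G : ℝ}
    (hG : 0 < G) (hgG : ∀ x ∈ K, ∀ z ∈ K, |g x - g z| ≤ G * ‖x - z‖)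
    (ha : ∀ k, 0 < ∫ x in cell K y a k, th ε x) (hc : ∀ k, 0 < ∫ x in cell K y b k, th ε x) :
    ∑ k, Real.sqrt ((∫ x in cell K y a k, th ε x) * (∫ x in cell K y b k, th ε x)) *
      ((∫ x in cell K y a k, th ε x * g x) / (∫ x in cell K y a k, th ε x) -
        (∫ x in cell K y b k, th ε x * g x) / (∫ x in cell K y b k, th ε x)) ^ 2 ≤
    (4 * G ^ 2 / ε) * ∑ k, (Real.sqrt (∫ x in cell K y a k, th ε x) -
      Real.sqrt (∫ x in cell K y b k, th ε x)) ^ 2 := by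
  set A : ι → ℝ := fun k => ∫ x in cell K y a k, th ε x with hA
  set B : ι → ℝ := fun k => ∫ x in cell K y b k, th ε x with hB
  set D : ι → ℝ := fun k => (∫ x in cell K y a k, th ε x * g x) / A k -
        (∫ x in cell K y b k, th ε x * g x) / B k with hD
  change ∑ k, Real.sqrt (A k * B k) * D k ^ 2 ≤ (4 * G ^ 2 / ε) *
    ∑ k, (Real.sqrt (A k) - Real.sqrt (B k)) ^ 2
  have h1 : ∀ k, Real.sqrt (A k * B k) * (1 + ε * D k ^ 2 / (8 * G ^ 2)) ≤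
      ∫ x in cell K y (fun j => (a j + b j) / 2) k, th ε x := fun k =>
    cell_ineq hK (cell_sub _ _ _ _) (cell_sub _ _ _ _) (cell_sub _ _ _ _)
      (cell_meas hK.measurableSet _ _ _) (cell_meas hK.measurableSet _ _ _)
      (cell_meas hK.measurableSet _ _ _) (fun x hx z hz => cell_mid hKc y a b k hx hz) hε hg hG hgG
      (ha k) (hc k)
  have h2 := Finset.sum_le_sum (s := Finset.univ) fun k _ => h1 k
  rw [sum_cells hK hy _ (th_cont ε)] at h2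
  have sA : ∑ k, A k = ∫ x in K, th ε x := sum_cells hK hy _ (th_cont ε)
  have sB : ∑ k, B k = ∫ x in K, th ε x := sum_cells hK hy _ (th_cont ε)
  have h3 : ∑ k, (Real.sqrt (A k) - Real.sqrt (B k)) ^ 2 =
      2 * (∫ x in K, th ε x) - 2 * ∑ k, Real.sqrt (A k * B k) := by
    have : ∀ k, (Real.sqrt (A k) - Real.sqrt (B k)) ^ 2 = A k + B k - 2 * Real.sqrt (A k * B k) := by
      intro k
      rw [Real.sqrt_mul (ha k).le, sub_sq, Real.sq_sqrt (ha k).le, Real.sq_sqrt (hc k).le]; ring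
    simp_rw [this]
    rw [Finset.sum_sub_distrib, Finset.sum_add_distrib, sA, sB, ← Finset.mul_sum]; ring
  have h4 : ∑ k, Real.sqrt (A k * B k) * (1 + ε * D k ^ 2 / (8 * G ^ 2)) =
      ∑ k, Real.sqrt (A k * B k) + (ε / (8 * G ^ 2)) * ∑ k, Real.sqrt (A k * B k) * D k ^ 2 := by
    rw [Finset.mul_sum, ← Finset.sum_add_distrib]
    apply Finset.sum_congr rfl; intro k _; ring
  rw [h4] at h2
  rw [h3]
  have h5 : (ε / (8 * G ^ 2)) * ∑ k, Real.sqrt (A k * B k) * D k ^ 2 ≤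
      (∫ x in K, th ε x) - ∑ k, Real.sqrt (A k * B k) := by linarith
  calc ∑ k, Real.sqrt (A k * B k) * D k ^ 2
      = (8 * G ^ 2 / ε) * ((ε / (8 * G ^ 2)) * ∑ k, Real.sqrt (A k * B k) * D k ^ 2) := by
        field_simp
    _ ≤ (8 * G ^ 2 / ε) * ((∫ x in K, th ε x) - ∑ k, Real.sqrt (A k * B k)) := by gcongr
    _ = _ := by ring

theorem num1 {A B a c Δ : ℝ} (hA : 0 < A) (hB : 0 < B) (h1 : a ≤ A) (h2 : A / 2 ≤ a)
    (h3 : c ≤ B) (h4 : B / 2 ≤ c) (h5 : B ≤ 2 * A) (hΔ : Δ = A / a - B / c) :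
    (Real.sqrt a - Real.sqrt c) ^ 2 ≤ 4 * (Real.sqrt (a * c) * Δ ^ 2) + 4 * ((A - B) ^ 2 / A) := by
  have ha : 0 < a := by linarith
  have hc : 0 < c := by linarith
  set p := Real.sqrt a with hp
  set q := Real.sqrt c with hq
  have hp0 : 0 < p := Real.sqrt_pos.2 ha
  have hq0 : 0 < q := Real.sqrt_pos.2 hc
  have hpa : p ^ 2 = a := Real.sq_sqrt ha.le
  have hqc : q ^ 2 = c := Real.sq_sqrt hc.le
  have hpq : Real.sqrt (a * c) = p * q := Real.sqrt_mul ha.le c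
  rw [hpq]
  have hD : A * (c - a) = a * c * Δ - (A - B) * a := by
    rw [hΔ]; field_simp; ring
  have hD2 : (c - a) ^ 2 ≤ 2 * c ^ 2 * Δ ^ 2 + 2 * (A - B) ^ 2 := by
    have e : c - a = (a / A) * (c * Δ - (A - B)) := by
      field_simp; linarith
    have r1 : a / A ≤ 1 := by rw [div_le_one hA]; exact h1
    have r0 : 0 ≤ a / A := by positivity
    rw [e, mul_pow]
    have r2 : (a / A) ^ 2 ≤ 1 := pow_le_one₀ r0 r1
    calc (a / A) ^ 2 * (c * Δ - (A - B)) ^ 2 ≤ 1 * (c * Δ - (A - B)) ^ 2 := by gcongr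
      _ ≤ _ := by nlinarith [sq_nonneg (c * Δ + (A - B))]
  have hqp : q ≤ 2 * p := by
    refine (pow_le_pow_iff_left₀ hq0.le (by positivity) two_ne_zero).1 ?_
    rw [mul_pow, hpa, hqc]; linarith
  have hmain : (p - q) ^ 2 * (a + c) ≤ (a + c) * (4 * (p * q * Δ ^ 2) + 4 * ((A - B) ^ 2 / A)) := by
    have e1 : (p - q) ^ 2 * (a + c) ≤ (c - a) ^ 2 := by
      have : (c - a) ^ 2 = (p - q) ^ 2 * (p + q) ^ 2 := by rw [← hpa, ← hqc]; ring
      rw [this]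
      apply mul_le_mul_of_nonneg_left _ (sq_nonneg _)
      rw [← hpa, ← hqc]; nlinarith [mul_pos hp0 hq0]
    have e2 : c ^ 2 ≤ (a + c) * (2 * (p * q)) := by
      have : c ≤ 2 * (p * q) := by rw [← hqc]; nlinarith
      nlinarith [mul_pos hp0 hq0]
    have e3 : 2 * c ^ 2 * Δ ^ 2 ≤ (a + c) * (4 * (p * q * Δ ^ 2)) := by
      nlinarith [mul_le_mul_of_nonneg_right e2 (sq_nonneg Δ)]
    have e4 : 2 * (A - B) ^ 2 ≤ (a + c) * (4 * ((A - B) ^ 2 / A)) := by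
      have : A / 2 ≤ a + c := by linarith
      calc 2 * (A - B) ^ 2 = (A / 2) * (4 * ((A - B) ^ 2 / A)) := by field_simp; ring
        _ ≤ _ := by gcongr
    linarith
  have hfin : (a + c) * (p - q) ^ 2 ≤ (a + c) * (4 * (p * q * Δ ^ 2) + 4 * ((A - B) ^ 2 / A)) := by
    linarith [hmain, mul_comm ((p - q) ^ 2) (a + c)]
  exact le_of_mul_le_mul_left hfin (by linarith)

theorem num2 {A B a c Δ X Y R : ℝ} (hA : 0 < A) (hB : 0 < B) (h1 : a ≤ A) (h2 : A / 2 ≤ a)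
    (h3 : c ≤ B) (h4 : B / 2 ≤ c) (h5 : B ≤ 2 * A) (h6 : A ≤ 2 * B) (hR : 0 ≤ R)
    (hY : |Y| ≤ R * B) (hΔ : Δ = X / a - Y / c) :
    (X - Y) ^ 2 / A ≤ 4 * (Real.sqrt (a * c) * Δ ^ 2) +
      48 * R ^ 2 * (Real.sqrt a - Real.sqrt c) ^ 2 := by
  have ha : 0 < a := by linarith
  have hc : 0 < c := by linarith
  set p := Real.sqrt a with hp
  set q := Real.sqrt c with hq
  have hp0 : 0 < p := Real.sqrt_pos.2 ha
  have hq0 : 0 < q := Real.sqrt_pos.2 hc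
  have hpa : p ^ 2 = a := Real.sq_sqrt ha.le
  have hqc : q ^ 2 = c := Real.sq_sqrt hc.le
  have hpq : Real.sqrt (a * c) = p * q := Real.sqrt_mul ha.le c
  rw [hpq]
  have hXY : X - Y = a * Δ + (a - c) * (Y / c) := by rw [hΔ]; field_simp; ring
  have hYc : |Y / c| ≤ 2 * R := by
    rw [abs_div, abs_of_pos hc, div_le_iff₀ hc]
    nlinarith
  have hYc2 : (Y / c) ^ 2 ≤ 4 * R ^ 2 := by
    rw [← sq_abs]; nlinarith [abs_nonneg (Y / c)]
  have g1 : (X - Y) ^ 2 ≤ 2 * a ^ 2 * Δ ^ 2 + 8 * R ^ 2 * (a - c) ^ 2 := by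
    rw [hXY]
    have t1 := mul_le_mul_of_nonneg_left hYc2 (sq_nonneg (a - c))
    have t2 := sq_nonneg (a * Δ - (a - c) * (Y / c))
    have t3 : (a * Δ + (a - c) * (Y / c)) ^ 2 + (a * Δ - (a - c) * (Y / c)) ^ 2 =
        2 * a ^ 2 * Δ ^ 2 + 2 * ((a - c) ^ 2 * (Y / c) ^ 2) := by ring
    have t4 : (a - c) ^ 2 * (4 * R ^ 2) = 4 * (R ^ 2 * (a - c) ^ 2) := by ring
    have t5 : 8 * R ^ 2 * (a - c) ^ 2 = 8 * (R ^ 2 * (a - c) ^ 2) := by ring
    linarith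
  have hpq2 : p ≤ 2 * q := by
    refine (pow_le_pow_iff_left₀ hp0.le (by positivity) two_ne_zero).1 ?_
    rw [mul_pow, hpa, hqc]; linarith
  have g2 : 2 * a ^ 2 * Δ ^ 2 ≤ A * (4 * (p * q * Δ ^ 2)) := by
    have : a ≤ 2 * (p * q) := by rw [← hpa]; nlinarith
    have t1 : a ^ 2 ≤ A * (2 * (p * q)) := by
      calc a ^ 2 = a * a := sq a
        _ ≤ A * (2 * (p * q)) := mul_le_mul h1 this ha.le hA.le
    have t2 := mul_le_mul_of_nonneg_right t1 (sq_nonneg Δ)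
    calc 2 * a ^ 2 * Δ ^ 2 = 2 * (a ^ 2 * Δ ^ 2) := by ring
      _ ≤ 2 * (A * (2 * (p * q)) * Δ ^ 2) := by linarith
      _ = _ := by ring
  have g3 : (a - c) ^ 2 ≤ A * (6 * (p - q) ^ 2) := by
    have : (a - c) ^ 2 = (p - q) ^ 2 * (p + q) ^ 2 := by rw [← hpa, ← hqc]; ring
    rw [this]
    have t : (p + q) ^ 2 ≤ 6 * A := by
      have e : (p + q) ^ 2 + (p - q) ^ 2 = 2 * (a + c) := by rw [← hpa, ← hqc]; ring
      have := sq_nonneg (p - q)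
      linarith
    have t2 := mul_le_mul_of_nonneg_left t (sq_nonneg (p - q))
    calc (p - q) ^ 2 * (p + q) ^ 2 ≤ (p - q) ^ 2 * (6 * A) := t2
      _ = _ := by ring
  rw [div_le_iff₀ hA]
  have g4 := mul_le_mul_of_nonneg_left g3 (show 0 ≤ 8 * R ^ 2 by positivity)
  calc (X - Y) ^ 2 ≤ 2 * a ^ 2 * Δ ^ 2 + 8 * R ^ 2 * (a - c) ^ 2 := g1
    _ ≤ A * (4 * (p * q * Δ ^ 2)) + 8 * R ^ 2 * (A * (6 * (p - q) ^ 2)) := add_le_add g2 g4
    _ = _ := by ring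

end Vale.Agent.P074
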