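import Vale.Agent.P074.LC

open scoped ENNReal NNReal
open MeasureTheory Set

namespace Vale.Agent.P074

variable {d : ℕ} {ι : Type} [Fintype ι]

/-- Inverse weight. -/
noncomputable def ith {d : ℕ} (ε : ℝ) (x : EuclideanSpace ℝ (Fin d)) : ℝ := Real.exp (ε * ‖x‖ ^ 2 / 2)

theorem th_ith (ε : ℝ) (x : EuclideanSpace ℝ (Fin d)) : th ε x * ith ε x = 1 := by
  unfold th ith; rw [← Real.exp_add]; simp

theorem ith_cont (ε : ℝ) : Continuous (ith (d := d) ε) := by unfold ith; fun_prop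

theorem ith_pos (ε : ℝ) (x : EuclideanSpace ℝ (Fin d)) : 0 < ith ε x := Real.exp_pos _

section
variable {R : ℝ} (hR : 0 < R)
include hR

theorem arg_small {x : EuclideanSpace ℝ (Fin d)} (hx : ‖x‖ ≤ R) :
    1 / (128 * R ^ 2) * ‖x‖ ^ 2 / 2 ≤ 1 / 256 := by
  have h : ‖x‖ ^ 2 ≤ R ^ 2 := by gcongr
  rw [div_mul_eq_mul_div, div_div, one_mul, div_le_div_iff₀ (by positivity) (by norm_num)]
  nlinarith

theorem th_ge {x : EuclideanSpace ℝ (Fin d)} (hx : ‖x‖ ≤ R) : 1 / 2 ≤ th (1 / (128 * R ^ 2)) x := by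
  unfold th
  have h1 := arg_small hR hx
  have h2 := Real.add_one_le_exp (-(1 / (128 * R ^ 2) * ‖x‖ ^ 2 / 2))
  linarith

theorem th_le (x : EuclideanSpace ℝ (Fin d)) : th (1 / (128 * R ^ 2)) x ≤ 1 := by
  unfold th
  rw [Real.exp_le_one_iff]
  have : 0 ≤ 1 / (128 * R ^ 2) * ‖x‖ ^ 2 / 2 := by positivity
  linarith

theorem ith_le {x : EuclideanSpace ℝ (Fin d)} (hx : ‖x‖ ≤ R) : ith (1 / (128 * R ^ 2)) x ≤ 2 := by
  have h1 := th_ge hR hx
  have h2 := th_ith (1 / (128 * R ^ 2)) x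
  have h3 := ith_pos (1 / (128 * R ^ 2)) x
  nlinarith

theorem ith_lip {x z : EuclideanSpace ℝ (Fin d)} (hx : ‖x‖ ≤ R) (hz : ‖z‖ ≤ R) :
    |ith (1 / (128 * R ^ 2)) x - ith (1 / (128 * R ^ 2)) z| ≤
      (2 * (1 / (128 * R ^ 2)) * R) * ‖x - z‖ := by
  set ε := 1 / (128 * R ^ 2) with hε
  have hε0 : 0 < ε := by positivity
  have key : ∀ u v : EuclideanSpace ℝ (Fin d), ‖u‖ ≤ R → ‖v‖ ≤ R →
      ith ε u - ith ε v ≤ (2 * ε * R) * ‖u - v‖ := by
    intro u v hu hv
    set s := ε * ‖u‖ ^ 2 / 2 with hs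
    set t := ε * ‖v‖ ^ 2 / 2 with ht
    have h1 : ith ε u - ith ε v ≤ ith ε u * (s - t) := by
      have e1 := Real.add_one_le_exp (t - s)
      have e2 : ith ε v = ith ε u * Real.exp (t - s) := by
        unfold ith; rw [← Real.exp_add]; congr 1; rw [hs, ht]; ring
      rw [e2]
      nlinarith [ith_pos ε u]
    have h2 : s - t ≤ ε * R * ‖u - v‖ := by
      have e3 : s - t = (ε / 2) * ((‖u‖ - ‖v‖) * (‖u‖ + ‖v‖)) := by rw [hs, ht]; ring
      have e4 : ‖u‖ - ‖v‖ ≤ ‖u - v‖ := norm_sub_norm_le u v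
      have e5 : (‖u‖ - ‖v‖) * (‖u‖ + ‖v‖) ≤ ‖u - v‖ * (2 * R) := by
        have p1 := norm_nonneg u
        have p2 := norm_nonneg v
        calc (‖u‖ - ‖v‖) * (‖u‖ + ‖v‖) ≤ ‖u - v‖ * (‖u‖ + ‖v‖) := by gcongr
          _ ≤ _ := by gcongr; linarith
      rw [e3]
      calc (ε / 2) * ((‖u‖ - ‖v‖) * (‖u‖ + ‖v‖)) ≤ (ε / 2) * (‖u - v‖ * (2 * R)) := by gcongr
        _ = _ := by ring
    have h3 := ith_le hR hu
    rw [← hε] at h3
    calc ith ε u - ith ε v ≤ ith ε u * (s - t) := h1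
      _ ≤ ith ε u * (ε * R * ‖u - v‖) := mul_le_mul_of_nonneg_left h2 (ith_pos ε u).le
      _ ≤ 2 * (ε * R * ‖u - v‖) := by gcongr
      _ = _ := by ring
  rw [abs_le]
  constructor
  · have := key z x hz hx
    rw [norm_sub_rev] at this
    linarith
  · exact key x z hx hz

theorem cells_stab [Nonempty ι] {K : Set (EuclideanSpace ℝ (Fin d))} (hK : IsCompact K)
    (hKc : Convex ℝ K) (hKR : ∀ x ∈ K, ‖x‖ ≤ R)
    {y : ι → EuclideanSpace ℝ (Fin d)} (hy : Function.Injective y) (a b : ι → ℝ)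
    (hA : ∀ k, 0 < ∫ x in cell K y a k, (1 : ℝ)) (hB : ∀ k, 0 < ∫ x in cell K y b k, (1 : ℝ))
    (h5 : ∀ k, ∫ x in cell K y b k, (1 : ℝ) ≤ 2 * ∫ x in cell K y a k, (1 : ℝ))
    (h6 : ∀ k, ∫ x in cell K y a k, (1 : ℝ) ≤ 2 * ∫ x in cell K y b k, (1 : ℝ)) (i : Fin d) :
    ∑ k, ((∫ x in cell K y a k, x i) - (∫ x in cell K y b k, x i)) ^ 2 /
        (∫ x in cell K y a k, (1 : ℝ)) ≤
      147840 * R ^ 2 * ∑ k, ((∫ x in cell K y a k, (1 : ℝ)) - (∫ x in cell K y b k, (1 : ℝ))) ^ 2 /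
        (∫ x in cell K y a k, (1 : ℝ)) := by
  set ε := 1 / (128 * R ^ 2) with hε
  have hε0 : 0 < ε := by positivity
  have hth := th_cont (d := d) ε
  have hith := ith_cont (d := d) ε
  have bounds : ∀ (c : ι → ℝ) (k : ι), (∫ x in cell K y c k, th ε x) ≤ (∫ x in cell K y c k, (1 : ℝ)) ∧
      (∫ x in cell K y c k, (1 : ℝ)) / 2 ≤ (∫ x in cell K y c k, th ε x) := by
    intro c k
    constructor
    · exact setIntegral_mono (intOn hK (cell_sub _ _ _ _) hth)
        (intOn hK (cell_sub _ _ _ _) continuous_const) (fun x => th_le hR x)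
    · have : (∫ x in cell K y c k, (1 : ℝ)) / 2 = ∫ x in cell K y c k, (1/2 : ℝ) := by
        rw [div_eq_inv_mul, ← integral_const_mul]; norm_num
      rw [this]
      exact setIntegral_mono_on (intOn hK (cell_sub _ _ _ _) continuous_const)
        (intOn hK (cell_sub _ _ _ _) hth) (cell_meas hK.measurableSet _ _ _)
        (fun x hx => th_ge hR (hKR x hx.1))
  set vA : ι → ℝ := fun k => ∫ x in cell K y a k, (1 : ℝ) with hvA
  set vB : ι → ℝ := fun k => ∫ x in cell K y b k, (1 : ℝ) with hvB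
  set tA : ι → ℝ := fun k => ∫ x in cell K y a k, th ε x with htA
  set tB : ι → ℝ := fun k => ∫ x in cell K y b k, th ε x with htB
  have ptA : ∀ k, 0 < tA k := fun k => by have := (bounds a k).2; have := hA k; simp only [htA]; linarith
  have ptB : ∀ k, 0 < tB k := fun k => by have := (bounds b k).2; have := hB k; simp only [htB]; linarith
  set DD := ∑ k, (Real.sqrt (tA k) - Real.sqrt (tB k)) ^ 2 with hDD
  set EE := ∑ k, (vA k - vB k) ^ 2 / vA k with hEE
  -- first use: g = 1/θ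
  have s1 := star_ineq hK hKc hy a b hε0 hith (G := 2 * ε * R) (by positivity)
    (fun x hx z hz => ith_lip hR (hKR x hx) (hKR z hz)) ptA ptB
  simp only [th_ith] at s1
  have c1 : 4 * (2 * ε * R) ^ 2 / ε = 1 / 8 := by rw [hε]; field_simp; norm_num
  rw [c1] at s1
  have n1 : ∀ k, (Real.sqrt (tA k) - Real.sqrt (tB k)) ^ 2 ≤
      4 * (Real.sqrt (tA k * tB k) * (vA k / tA k - vB k / tB k) ^ 2) +
        4 * ((vA k - vB k) ^ 2 / vA k) := fun k =>
    num1 (hA k) (hB k) (bounds a k).1 (bounds a k).2 (bounds b k).1 (bounds b k).2 (h5 k) rfl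
  have n1' := Finset.sum_le_sum (s := Finset.univ) fun k _ => n1 k
  rw [Finset.sum_add_distrib, ← Finset.mul_sum, ← Finset.mul_sum] at n1'
  have hD : DD ≤ 8 * EE := by
    have : DD ≤ 4 * (1 / 8 * DD) + 4 * EE := n1'.trans (by
      apply add_le_add _ le_rfl
      exact mul_le_mul_of_nonneg_left s1 (by norm_num))
    linarith
  -- second use: g = x_i/θ
  have hgc : Continuous (fun x : EuclideanSpace ℝ (Fin d) => x i * ith ε x) := by fun_prop
  have s2 := star_ineq hK hKc hy a b hε0 hgc (G := 3) (by norm_num) (by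
    intro x hx z hz
    have hxi : |x i - z i| ≤ ‖x - z‖ := by
      have := PiLp.norm_apply_le (x - z) i
      simpa using this
    have hzi : |z i| ≤ R := by
      have := PiLp.norm_apply_le z i
      exact (by simpa using this : |z i| ≤ ‖z‖).trans (hKR z hz)
    have e : x i * ith ε x - z i * ith ε z = (x i - z i) * ith ε x + z i * (ith ε x - ith ε z) := by
      ring
    have hl := ith_lip hR (hKR x hx) (hKR z hz)
    have hle := ith_le hR (hKR x hx)
    rw [← hε] at hl hle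
    have hip := (ith_pos ε x).le
    calc |x i * ith ε x - z i * ith ε z|
        ≤ |(x i - z i) * ith ε x| + |z i * (ith ε x - ith ε z)| := by rw [e]; exact abs_add_le _ _
      _ = |x i - z i| * ith ε x + |z i| * |ith ε x - ith ε z| := by
          rw [abs_mul, abs_mul, abs_of_pos (ith_pos ε x)]
      _ ≤ ‖x - z‖ * 2 + R * (2 * ε * R * ‖x - z‖) := by
          gcongr
      _ ≤ 3 * ‖x - z‖ := by
          have : R * (2 * ε * R * ‖x - z‖) = (1/64) * ‖x - z‖ := by
            rw [hε]; field_simp; ring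
          rw [this]; nlinarith [norm_nonneg (x - z)]) ptA ptB
  have e2 : ∀ x : EuclideanSpace ℝ (Fin d), th ε x * (x i * ith ε x) = x i := by
    intro x
    calc th ε x * (x i * ith ε x) = x i * (th ε x * ith ε x) := by ring
      _ = x i := by rw [th_ith]; ring
  simp only [e2] at s2
  have c2 : 4 * (3:ℝ) ^ 2 / ε = 4608 * R ^ 2 := by rw [hε]; field_simp; norm_num
  rw [c2] at s2
  set X : ι → ℝ := fun k => ∫ x in cell K y a k, x i with hX
  set Y : ι → ℝ := fun k => ∫ x in cell K y b k, x i with hY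
  have hYb : ∀ k, |Y k| ≤ R * vB k := by
    intro k
    have h1 : |Y k| ≤ ∫ x in cell K y b k, |x i| := abs_integral_le_integral_abs
    have h2 : ∫ x in cell K y b k, |x i| ≤ ∫ x in cell K y b k, R * (1:ℝ) := by
      apply setIntegral_mono_on (intOn hK (cell_sub _ _ _ _) (by fun_prop))
        (intOn hK (cell_sub _ _ _ _) continuous_const) (cell_meas hK.measurableSet _ _ _)
      intro x hx
      have := PiLp.norm_apply_le x i
      rw [mul_one]
      exact (by simpa using this : |x i| ≤ ‖x‖).trans (hKR x hx.1)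
    rw [integral_const_mul] at h2
    exact h1.trans h2
  have n2 : ∀ k, (X k - Y k) ^ 2 / vA k ≤
      4 * (Real.sqrt (tA k * tB k) * (X k / tA k - Y k / tB k) ^ 2) +
        48 * R ^ 2 * (Real.sqrt (tA k) - Real.sqrt (tB k)) ^ 2 := fun k =>
    num2 (hA k) (hB k) (bounds a k).1 (bounds a k).2 (bounds b k).1 (bounds b k).2 (h5 k) (h6 k)
      hR.le (hYb k) rfl
  have n2' := Finset.sum_le_sum (s := Finset.univ) fun k _ => n2 k
  rw [Finset.sum_add_distrib, ← Finset.mul_sum, ← Finset.mul_sum] at n2'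
  calc ∑ k, (X k - Y k) ^ 2 / vA k
      ≤ 4 * ∑ k, Real.sqrt (tA k * tB k) * (X k / tA k - Y k / tB k) ^ 2 + 48 * R ^ 2 * DD := n2'
    _ ≤ 4 * (4608 * R ^ 2 * DD) + 48 * R ^ 2 * DD := by gcongr
    _ = 18480 * R ^ 2 * DD := by ring
    _ ≤ 18480 * R ^ 2 * (8 * EE) := by gcongr
    _ = 147840 * R ^ 2 * EE := by ring

end

end Vale.Agent.P074
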