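import Vale.Agent.P074.LD

open scoped ENNReal NNReal
open MeasureTheory Set Filter Topology

namespace Vale.Agent.P074

variable {d : ℕ} {ι : Type} [Fintype ι] [Nonempty ι]

/-- The convex potential attached to sites `y` and heights `a`. -/
noncomputable def phi (y : ι → EuclideanSpace ℝ (Fin d)) (a : ι → ℝ)
    (x : EuclideanSpace ℝ (Fin d)) : ℝ :=
  Finset.univ.sup' Finset.univ_nonempty (fun k => inner ℝ x (y k) - a k)

theorem le_phi (y : ι → EuclideanSpace ℝ (Fin d)) (a : ι → ℝ) (x : EuclideanSpace ℝ (Fin d))
    (k : ι) : inner ℝ x (y k) - a k ≤ phi y a x :=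
  Finset.le_sup' (fun k => inner ℝ x (y k) - a k) (Finset.mem_univ k)

theorem phi_le {y : ι → EuclideanSpace ℝ (Fin d)} {a : ι → ℝ} {x : EuclideanSpace ℝ (Fin d)}
    {c : ℝ} (h : ∀ k, inner ℝ x (y k) - a k ≤ c) : phi y a x ≤ c :=
  Finset.sup'_le _ _ fun k _ => h k

theorem phi_on_cell {K : Set (EuclideanSpace ℝ (Fin d))} {y : ι → EuclideanSpace ℝ (Fin d)}
    {a : ι → ℝ} {x : EuclideanSpace ℝ (Fin d)} {k : ι} (hx : x ∈ cell K y a k) :
    phi y a x = inner ℝ x (y k) - a k :=
  le_antisymm (phi_le hx.2) (le_phi y a x k)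

theorem phi_cont (y : ι → EuclideanSpace ℝ (Fin d)) (a : ι → ℝ) : Continuous (phi y a) := by
  unfold phi
  have h : Continuous (Finset.univ.sup' Finset.univ_nonempty
      (fun k => (fun x : EuclideanSpace ℝ (Fin d) => inner ℝ x (y k) - a k))) :=
    Continuous.finset_sup' _ fun k _ => by fun_prop
  convert h using 1
  funext x
  rw [Finset.sup'_apply]

theorem phi_lip_a (y : ι → EuclideanSpace ℝ (Fin d)) (a b : ι → ℝ)
    (x : EuclideanSpace ℝ (Fin d)) : |phi y a x - phi y b x| ≤ dist a b := by
  have key : ∀ a b : ι → ℝ, phi y a x ≤ phi y b x + dist a b := by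
    intro a b
    apply phi_le
    intro k
    have h1 := le_phi y b x k
    have h2 : |a k - b k| ≤ dist a b := by
      rw [← Real.dist_eq]; exact dist_le_pi_dist a b k
    have := (abs_le.1 h2).1
    linarith
  rw [abs_le]
  constructor
  · have := key b a; rw [dist_comm] at this; linarith
  · linarith [key a b]

/-- The dual functional. -/
noncomputable def Jf (K : Set (EuclideanSpace ℝ (Fin d))) (g : EuclideanSpace ℝ (Fin d) → ℝ)
    (y : ι → EuclideanSpace ℝ (Fin d)) (w : ι → ℝ) (a : ι → ℝ) : ℝ :=
  (∫ x in K, phi y a x * g x) + ∑ k, w k * a k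

section
variable {K : Set (EuclideanSpace ℝ (Fin d))} (hK : IsCompact K)
  {g : EuclideanSpace ℝ (Fin d) → ℝ} (hg : Continuous g) (hg0 : ∀ x ∈ K, 0 ≤ g x)
  (y : ι → EuclideanSpace ℝ (Fin d)) (w : ι → ℝ)
include hK hg hg0

theorem Jf_cont : Continuous (Jf K g y w) := by
  unfold Jf
  apply Continuous.add _ (by fun_prop)
  rw [Metric.continuous_iff]
  intro a ε hε
  set Z := ∫ x in K, g x with hZ
  have hZ0 : 0 ≤ Z := setIntegral_nonneg hK.measurableSet hg0
  refine ⟨ε / (Z + 1), by positivity, fun b hb => ?_⟩
  rw [Real.dist_eq, ← integral_sub]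
  · calc |∫ x in K, (phi y b x * g x - phi y a x * g x)|
        ≤ ∫ x in K, |phi y b x * g x - phi y a x * g x| := abs_integral_le_integral_abs
      _ ≤ ∫ x in K, dist b a * g x := by
          have c1 := phi_cont y b
          have c2 := phi_cont y a
          apply setIntegral_mono_on (intOn hK subset_rfl (by fun_prop))
            (intOn hK subset_rfl (by fun_prop)) hK.measurableSet
          intro x hx
          rw [← sub_mul, abs_mul, abs_of_nonneg (hg0 x hx)]
          exact mul_le_mul_of_nonneg_right (phi_lip_a y b a x) (hg0 x hx)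
      _ = dist b a * Z := by rw [integral_const_mul]
      _ ≤ dist b a * (Z + 1) := by gcongr; linarith
      _ < ε := by rwa [lt_div_iff₀ (by positivity)] at hb
  · have c1 := phi_cont y b
    exact intOn hK subset_rfl (by fun_prop)
  · have c1 := phi_cont y a
    exact intOn hK subset_rfl (by fun_prop)

theorem Jf_shift (hw : ∑ k, w k = ∫ x in K, g x) (a : ι → ℝ) (m : ℝ) :
    Jf K g y w (fun k => a k - m) = Jf K g y w a := by
  unfold Jf
  have h1 : ∀ x, phi y (fun k => a k - m) x = phi y a x + m := by
    intro x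
    apply le_antisymm
    · apply phi_le; intro k; linarith [le_phi y a x k]
    · have : phi y a x ≤ phi y (fun k => a k - m) x - m := by
        apply phi_le; intro k; linarith [le_phi y (fun k => a k - m) x k]
      linarith
  simp_rw [h1, add_mul, mul_sub]
  have c1 := phi_cont y a
  rw [integral_add (intOn hK subset_rfl (by fun_prop)) (intOn hK subset_rfl (by fun_prop)),
    integral_const_mul, Finset.sum_sub_distrib, ← Finset.sum_mul, hw]
  ring

theorem exists_min {R RY : ℝ} (hR : 0 ≤ R) (hRY : 0 ≤ RY) (hKR : ∀ x ∈ K, ‖x‖ ≤ R)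
    (hy : ∀ k, ‖y k‖ ≤ RY) (hw0 : ∀ k, 0 < w k) (hw : ∑ k, w k = ∫ x in K, g x) :
    ∃ a, ∀ b, Jf K g y w a ≤ Jf K g y w b := by
  set Z := ∫ x in K, g x with hZ
  have hZ0 : 0 ≤ Z := setIntegral_nonneg hK.measurableSet hg0
  obtain ⟨k0, -, hk0⟩ := Finset.exists_min_image Finset.univ w Finset.univ_nonempty
  set L := 2 * R * RY * Z / w k0 + 1 with hL
  have hL0 : 0 ≤ L := by have := hw0 k0; positivity
  have hin : ∀ x ∈ K, ∀ k, |inner ℝ x (y k)| ≤ R * RY := by
    intro x hx k
    calc |inner ℝ x (y k)| ≤ ‖x‖ * ‖y k‖ := abs_real_inner_le_norm _ _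
      _ ≤ R * RY := mul_le_mul (hKR x hx) (hy k) (norm_nonneg _) hR
  obtain ⟨a, haB, ha⟩ := (isCompact_Icc (a := (fun _ : ι => (0:ℝ))) (b := fun _ => L)).exists_isMinOn
    ⟨fun _ => 0, by simp [Pi.le_def, hL0]⟩ (Jf_cont hK hg hg0 y w).continuousOn
  refine ⟨a, fun b => ?_⟩
  obtain ⟨k1, -, hk1⟩ := Finset.exists_min_image Finset.univ b Finset.univ_nonempty
  rw [← Jf_shift hK hg hg0 y w hw b (b k1)]
  set b' : ι → ℝ := fun k => b k - b k1 with hb'
  have hb0 : ∀ k, 0 ≤ b' k := fun k => by
    have := hk1 k (Finset.mem_univ _); simp only [hb']; linarith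
  have hb1 : b' k1 = 0 := by simp [hb']
  by_cases hcase : ∀ k, b' k ≤ L
  · exact ha (show b' ∈ Icc _ _ from ⟨hb0, hcase⟩)
  · push Not at hcase
    obtain ⟨k2, hk2⟩ := hcase
    have h0 : Jf K g y w a ≤ Jf K g y w (fun _ => 0) := ha (show _ ∈ Icc _ _ from ⟨le_rfl, fun _ => hL0⟩)
    have h1 : Jf K g y w (fun _ => 0) ≤ R * RY * Z := by
      unfold Jf
      simp only [mul_zero, Finset.sum_const_zero, add_zero]
      rw [hZ, ← integral_const_mul]
      have c1 := phi_cont y (fun _ => 0)
      apply setIntegral_mono_on (intOn hK subset_rfl (by fun_prop))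
        (intOn hK subset_rfl (by fun_prop)) hK.measurableSet
      intro x hx
      apply mul_le_mul_of_nonneg_right _ (hg0 x hx)
      apply phi_le
      intro k
      have := (abs_le.1 (hin x hx k)).2
      linarith
    have h2 : -(R * RY * Z) + w k2 * b' k2 ≤ Jf K g y w b' := by
      unfold Jf
      apply add_le_add
      · rw [hZ, ← integral_const_mul, ← integral_neg]
        have c1 := phi_cont y b'
        apply setIntegral_mono_on (intOn hK subset_rfl (by fun_prop))
          (intOn hK subset_rfl (by fun_prop)) hK.measurableSet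
        intro x hx
        have e1 := le_phi y b' x k1
        have e2 := (abs_le.1 (hin x hx k1)).1
        have e3 : -(R * RY) ≤ phi y b' x := by rw [hb1] at e1; linarith
        have := mul_le_mul_of_nonneg_right e3 (hg0 x hx)
        linarith
      · exact Finset.single_le_sum (f := fun k => w k * b' k)
          (fun k _ => mul_nonneg (hw0 k).le (hb0 k)) (Finset.mem_univ k2)
    have h3 : 2 * R * RY * Z ≤ w k2 * b' k2 := by
      have e1 : w k0 ≤ w k2 := hk0 k2 (Finset.mem_univ _)
      have e2 : 2 * R * RY * Z / w k0 ≤ b' k2 := by linarith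
      calc 2 * R * RY * Z = w k0 * (2 * R * RY * Z / w k0) := by
            have := (hw0 k0).ne'; field_simp
        _ ≤ w k2 * b' k2 := by
            apply mul_le_mul e1 e2 _ (hw0 k2).le
            have := hw0 k0; positivity
    linarith

theorem exists_heights (hyinj : Function.Injective y) {R RY : ℝ} (hR : 0 ≤ R) (hRY : 0 ≤ RY)
    (hKR : ∀ x ∈ K, ‖x‖ ≤ R)
    (hy : ∀ k, ‖y k‖ ≤ RY) (hw0 : ∀ k, 0 < w k) (hw : ∑ k, w k = ∫ x in K, g x) :
    ∃ a, ∀ k, ∫ x in cell K y a k, g x = w k := by
  classical
  obtain ⟨a, ha⟩ := exists_min hK hg hg0 y w hR hRY hKR hy hw0 hw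
  refine ⟨a, ?_⟩
  have hcell : ∀ k, ∫ x in cell K y a k, g x ≤ w k := by
    intro k
    set U : ℕ → Set (EuclideanSpace ℝ (Fin d)) := fun n =>
      {x | x ∈ K ∧ ∀ j, j ≠ k → inner ℝ x (y j) - a j + 1 / ((n:ℝ) + 1) ≤ inner ℝ x (y k) - a k}
      with hU
    have hUm : ∀ n, MeasurableSet (U n) := by
      intro n
      have : U n = K ∩ ⋂ j, ⋂ (_ : j ≠ k),
          {x | inner ℝ x (y j) - a j + 1 / ((n:ℝ) + 1) ≤ inner ℝ x (y k) - a k} := by
        ext x; simp [hU]
      rw [this]
      refine hK.measurableSet.inter (MeasurableSet.iInter fun j => MeasurableSet.iInter fun _ => ?_)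
      exact measurableSet_le (by fun_prop) (by fun_prop)
    have hUmono : Monotone U := by
      intro n m hnm x hx
      refine ⟨hx.1, fun j hj => ?_⟩
      have h1 := hx.2 j hj
      have h2 : 1 / ((m:ℝ) + 1) ≤ 1 / ((n:ℝ) + 1) := by
        apply one_div_le_one_div_of_le (by positivity)
        have : (n:ℝ) ≤ m := by exact_mod_cast hnm
        linarith
      linarith
    have hUK : ∀ n, U n ⊆ K := fun n x hx => hx.1
    -- each U n has mass at most w k
    have hmass : ∀ n, ∫ x in U n, g x ≤ w k := by
      intro n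
      set e : ℝ := 1 / ((n:ℝ) + 1) with he
      have he0 : 0 < e := by positivity
      set b : ι → ℝ := fun j => if j = k then a j + e else a j with hb
      have hJ := ha b
      unfold Jf at hJ
      have hsum : ∑ j, w j * b j = ∑ j, w j * a j + w k * e := by
        have : ∀ j, w j * b j = w j * a j + (if j = k then w k * e else 0) := by
          intro j
          by_cases hj : j = k
          · subst hj; simp [hb]; ring
          · simp [hb, hj]
        simp_rw [this]
        rw [Finset.sum_add_distrib]
        simp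
      have hphi : ∀ x ∈ K, phi y b x * g x ≤ phi y a x * g x - (U n).indicator (fun x => e * g x) x := by
        intro x hx
        have hle : phi y b x ≤ phi y a x := by
          apply phi_le; intro j
          have := le_phi y a x j
          simp only [hb]; split_ifs <;> linarith
        by_cases hxU : x ∈ U n
        · rw [indicator_of_mem hxU]
          have : phi y b x ≤ phi y a x - e := by
            apply phi_le
            intro j
            have h1 := le_phi y a x k
            by_cases hj : j = k
            · subst hj; simp only [hb, if_true]; linarith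
            · have h2 := hxU.2 j hj
              simp only [hb, hj, if_false]; linarith
          have := mul_le_mul_of_nonneg_right this (hg0 x hx)
          linarith
        · rw [indicator_of_notMem hxU, sub_zero]
          exact mul_le_mul_of_nonneg_right hle (hg0 x hx)
      have c1 := phi_cont y a
      have c2 := phi_cont y b
      have hind : IntegrableOn ((U n).indicator (fun x => e * g x)) K :=
        (intOn hK subset_rfl (by fun_prop : Continuous fun x => e * g x)).indicator (hUm n)
      have h1 : ∫ x in K, phi y b x * g x ≤ ∫ x in K, (phi y a x * g x - (U n).indicator (fun x => e * g x) x) :=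
        setIntegral_mono_on (intOn hK subset_rfl (by fun_prop))
          ((intOn hK subset_rfl (by fun_prop : Continuous fun x => phi y a x * g x)).sub hind)
          hK.measurableSet hphi
      rw [integral_sub (intOn hK subset_rfl (by fun_prop)) hind, setIntegral_indicator (hUm n),
        inter_eq_right.2 (hUK n), integral_const_mul] at h1
      have h2 : e * ∫ x in U n, g x ≤ e * w k := by linarith
      exact le_of_mul_le_mul_left h2 he0
    have hlim : Tendsto (fun n => ∫ x in U n, g x) atTop (𝓝 (∫ x in ⋃ n, U n, g x)) :=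
      tendsto_setIntegral_of_monotone hUm hUmono (intOn hK (iUnion_subset hUK) hg)
    have hle : ∫ x in ⋃ n, U n, g x ≤ w k := le_of_tendsto' hlim hmass
    have hae : (cell K y a k : Set _) =ᵐ[volume] (⋃ n, U n : Set _) := by
      have hnull : volume (⋃ j, ⋃ (_ : j ≠ k), (cell K y a j ∩ cell K y a k)) = 0 := by
        rw [measure_iUnion_null_iff]
        intro j
        rw [measure_iUnion_null_iff]
        intro hj
        exact cell_overlap hyinj a hj
      have hnull' : ∀ᵐ x, x ∉ (⋃ j, ⋃ (_ : j ≠ k), (cell K y a j ∩ cell K y a k)) :=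
        measure_eq_zero_iff_ae_notMem.1 hnull
      filter_upwards [hnull'] with x hx
      apply propext
      constructor
      · intro hxc
        have hxc' : x ∈ cell K y a k := hxc
        have hstrict : ∀ j, j ≠ k → inner ℝ x (y j) - a j < inner ℝ x (y k) - a k := by
          intro j hj
          refine lt_of_le_of_ne (hxc'.2 j) fun heq => hx ?_
          simp only [mem_iUnion]
          refine ⟨j, hj, ⟨hxc'.1, fun i => ?_⟩, hxc'⟩
          rw [heq]; exact hxc'.2 i
        -- choose n
        have : ∃ n : ℕ, ∀ j, j ≠ k → 1 / ((n:ℝ) + 1) ≤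
            (inner ℝ x (y k) - a k) - (inner ℝ x (y j) - a j) := by
          have hj : ∀ j, ∃ n : ℕ, j ≠ k → 1 / ((n:ℝ) + 1) ≤
              (inner ℝ x (y k) - a k) - (inner ℝ x (y j) - a j) := by
            intro j
            by_cases hjk : j = k
            · exact ⟨0, fun h => absurd hjk h⟩
            · obtain ⟨n, hn⟩ := exists_nat_one_div_lt (sub_pos.2 (hstrict j hjk))
              exact ⟨n, fun _ => hn.le⟩
          choose N hN using hj
          refine ⟨Finset.univ.sup N, fun j hjk => le_trans ?_ (hN j hjk)⟩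
          apply one_div_le_one_div_of_le (by positivity)
          have : (N j : ℝ) ≤ (Finset.univ.sup N : ℕ) := by
            exact_mod_cast Finset.le_sup (f := N) (Finset.mem_univ j)
          linarith
        obtain ⟨n, hn⟩ := this
        exact mem_iUnion.2 ⟨n, hxc'.1, fun j hj => by linarith [hn j hj]⟩
      · intro hxU
        obtain ⟨n, hn⟩ := mem_iUnion.1 hxU
        refine ⟨hn.1, fun j => ?_⟩
        by_cases hj : j = k
        · subst hj; exact le_rfl
        · have := hn.2 j hj
          have h0 : (0:ℝ) ≤ 1 / ((n:ℝ) + 1) := by positivity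
          linarith
    rw [setIntegral_congr_set hae]
    exact hle
  have hsum := sum_cells hK hyinj a hg
  rw [← hw] at hsum
  intro k
  by_contra hne
  have hlt : ∫ x in cell K y a k, g x < w k := lt_of_le_of_ne (hcell k) hne
  have := Finset.sum_lt_sum (fun j _ => hcell j) ⟨k, Finset.mem_univ k, hlt⟩
  linarith

end

end Vale.Agent.P074
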