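import Vale.Agent.P074.LE

open scoped ENNReal NNReal
open MeasureTheory Set Filter Topology

namespace Vale.Agent.P074

variable {d : ℕ} {ι : Type} [Fintype ι] [Nonempty ι]

/-- A solution of the semidiscrete problem with density `g` on `K`, sites `y`, weights `w`. -/
structure IsSol (K : Set (EuclideanSpace ℝ (Fin d))) (g : EuclideanSpace ℝ (Fin d) → ℝ)
    (y : ι → EuclideanSpace ℝ (Fin d)) (w : ι → ℝ) (R : ℝ) (a : ι → ℝ)
    (β : ι → EuclideanSpace ℝ (Fin d)) (τ : EuclideanSpace ℝ (Fin d) → EuclideanSpace ℝ (Fin d)) :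
    Prop where
  dual : ∑ k, w k * inner ℝ (β k) (y k) = (∫ x in K, phi y a x * g x) + ∑ k, w k * a k
  feas : ∀ (y' : ι → EuclideanSpace ℝ (Fin d)) (a' : ι → ℝ),
    ∑ k, w k * inner ℝ (β k) (y' k) ≤ (∫ x in K, phi y' a' x * g x) + ∑ k, w k * a' k
  bnd : ∀ k, ‖β k‖ ≤ R
  mea : Measurable τ
  sel : ∀ᵐ x ∂(volume.restrict K), ∃ k, τ x = y k ∧ x ∈ cell K y a k
  law : ∀ F : EuclideanSpace ℝ (Fin d) → ℝ, Continuous F →
    ∫ x in K, F (τ x) * g x = ∑ k, w k * F (y k)

/-- Barycenter of a cell. -/
noncomputable def bary {κ : Type} (K : Set (EuclideanSpace ℝ (Fin d)))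
    (g : EuclideanSpace ℝ (Fin d) → ℝ)
    (y : κ → EuclideanSpace ℝ (Fin d)) (a : κ → ℝ) (W : κ → ℝ) (p : κ) :
    EuclideanSpace ℝ (Fin d) :=
  (W p)⁻¹ • ∫ x in cell K y a p, g x • x

theorem intOnE {K A : Set (EuclideanSpace ℝ (Fin d))} (hK : IsCompact K) (hA : A ⊆ K)
    {F : EuclideanSpace ℝ (Fin d) → EuclideanSpace ℝ (Fin d)} (hF : Continuous F) :
    IntegrableOn F A :=
  (hF.continuousOn.integrableOn_compact hK).mono_set hA

variable {κ : Type} [Fintype κ] [Nonempty κ] [DecidableEq κ]

theorem inner_bary {K : Set (EuclideanSpace ℝ (Fin d))} (hK : IsCompact K)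
    {g : EuclideanSpace ℝ (Fin d) → ℝ} (hg : Continuous g)
    (y : κ → EuclideanSpace ℝ (Fin d)) (a : κ → ℝ) (W : κ → ℝ) (p : κ) (hW : 0 < W p)
    (v : EuclideanSpace ℝ (Fin d)) :
    W p * inner ℝ (bary K g y a W p) v = ∫ x in cell K y a p, inner ℝ x v * g x := by
  unfold bary
  rw [real_inner_smul_left, ← mul_assoc, mul_inv_cancel₀ hW.ne', one_mul, real_inner_comm,
    ← integral_inner (intOnE hK (cell_sub _ _ _ _) (by fun_prop))]
  congr 1
  funext x
  rw [real_inner_smul_right, real_inner_comm, mul_comm]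

theorem norm_bary {K : Set (EuclideanSpace ℝ (Fin d))} (hK : IsCompact K)
    {g : EuclideanSpace ℝ (Fin d) → ℝ} (hg : Continuous g) (hg0 : ∀ x ∈ K, 0 ≤ g x) {R : ℝ}
    (hKR : ∀ x ∈ K, ‖x‖ ≤ R)
    (y : κ → EuclideanSpace ℝ (Fin d)) (a : κ → ℝ) (W : κ → ℝ) (p : κ) (hW : 0 < W p)
    (hmass : ∫ x in cell K y a p, g x = W p) :
    ‖bary K g y a W p‖ ≤ R := by
  unfold bary
  rw [norm_smul, norm_inv, Real.norm_of_nonneg hW.le, inv_mul_le_iff₀ hW]
  calc ‖∫ x in cell K y a p, g x • x‖ ≤ ∫ x in cell K y a p, ‖g x • x‖ :=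
        norm_integral_le_integral_norm _
    _ ≤ ∫ x in cell K y a p, g x * R := by
        apply setIntegral_mono_on (intOn hK (cell_sub _ _ _ _) (by fun_prop))
          (intOn hK (cell_sub _ _ _ _) (by fun_prop)) (cell_meas hK.measurableSet _ _ _)
        intro x hx
        rw [norm_smul, Real.norm_of_nonneg (hg0 x hx.1)]
        exact mul_le_mul_of_nonneg_left (hKR x hx.1) (hg0 x hx.1)
    _ = W p * R := by rw [integral_mul_const, hmass]

theorem cell_pull (K : Set (EuclideanSpace ℝ (Fin d))) {π : ι → κ} (hπ : Function.Surjective π)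
    (y : κ → EuclideanSpace ℝ (Fin d)) (a : κ → ℝ) (k : ι) :
    cell K (y ∘ π) (a ∘ π) k = cell K y a (π k) := by
  ext x
  simp only [cell, mem_ofPred_eq, Function.comp]
  constructor
  · rintro ⟨h1, h2⟩
    refine ⟨h1, fun p => ?_⟩
    obtain ⟨j, rfl⟩ := hπ p
    exact h2 j
  · rintro ⟨h1, h2⟩
    exact ⟨h1, fun j => h2 (π j)⟩

theorem phi_pull {π : ι → κ} (hπ : Function.Surjective π)
    (y : κ → EuclideanSpace ℝ (Fin d)) (a : κ → ℝ) (x : EuclideanSpace ℝ (Fin d)) :
    phi (y ∘ π) (a ∘ π) x = phi y a x := by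
  apply le_antisymm
  · exact phi_le fun k => le_phi y a x (π k)
  · apply phi_le
    intro p
    obtain ⟨j, rfl⟩ := hπ p
    exact le_phi (y ∘ π) (a ∘ π) x j

open scoped Classical in
/-- Measurable selection of the site. -/
noncomputable def tmap (K : Set (EuclideanSpace ℝ (Fin d))) (y : κ → EuclideanSpace ℝ (Fin d))
    (a : κ → ℝ) (x : EuclideanSpace ℝ (Fin d)) : EuclideanSpace ℝ (Fin d) :=
  ∑ p, (cell K y a p).indicator (fun _ => y p) x

theorem tmap_meas {K : Set (EuclideanSpace ℝ (Fin d))} (hK : MeasurableSet K)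
    (y : κ → EuclideanSpace ℝ (Fin d)) (a : κ → ℝ) : Measurable (tmap K y a) := by
  unfold tmap
  exact Finset.measurable_sum _ fun p _ => measurable_const.indicator (cell_meas hK y a p)

theorem tmap_sel {K : Set (EuclideanSpace ℝ (Fin d))} (hK : MeasurableSet K)
    {y : κ → EuclideanSpace ℝ (Fin d)} (hy : Function.Injective y) (a : κ → ℝ) :
    ∀ᵐ x ∂(volume.restrict K), ∃ p, tmap K y a x = y p ∧ x ∈ cell K y a p ∧
      ∀ q, x ∈ cell K y a q → q = p := by
  have hnull : ∀ᵐ x ∂(volume.restrict K), ∀ p q, p ≠ q → x ∉ cell K y a p ∩ cell K y a q := by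
    rw [ae_all_iff]; intro p
    rw [ae_all_iff]; intro q
    by_cases hpq : p = q
    · exact Filter.Eventually.of_forall fun x h => absurd hpq h
    · have := ae_restrict_of_ae (s := K) (measure_eq_zero_iff_ae_notMem.1 (cell_overlap (K := K) hy a hpq))
      filter_upwards [this] with x hx _ using hx
  filter_upwards [hnull, ae_restrict_mem hK] with x hx hxK
  have : x ∈ ⋃ p, cell K y a p := by rw [cell_cover]; exact hxK
  obtain ⟨p, hp⟩ := mem_iUnion.1 this
  have huniq : ∀ q, x ∈ cell K y a q → q = p := by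
    intro q hq
    by_contra hne
    exact hx q p hne ⟨hq, hp⟩
  refine ⟨p, ?_, hp, huniq⟩
  unfold tmap
  rw [Finset.sum_eq_single p]
  · rw [indicator_of_mem hp]
  · intro q _ hq
    rw [indicator_of_notMem (fun h => hq (huniq q h))]
  · intro h; exact absurd (Finset.mem_univ p) h

theorem tmap_law {K : Set (EuclideanSpace ℝ (Fin d))} (hK : IsCompact K)
    {y : κ → EuclideanSpace ℝ (Fin d)} (hy : Function.Injective y) (a : κ → ℝ)
    {g : EuclideanSpace ℝ (Fin d) → ℝ} (hg : Continuous g)
    (F : EuclideanSpace ℝ (Fin d) → ℝ) :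
    ∫ x in K, F (tmap K y a x) * g x = ∑ p, F (y p) * ∫ x in cell K y a p, g x := by
  have h1 : ∫ x in K, F (tmap K y a x) * g x =
      ∫ x in K, ∑ p, (cell K y a p).indicator (fun x => F (y p) * g x) x := by
    apply integral_congr_ae
    filter_upwards [tmap_sel hK.measurableSet hy a] with x hx
    obtain ⟨p, hp, hpc, huniq⟩ := hx
    rw [hp, Finset.sum_eq_single p]
    · rw [indicator_of_mem hpc]
    · intro q _ hq
      rw [indicator_of_notMem (fun h => hq (huniq q h))]
    · intro h; exact absurd (Finset.mem_univ p) h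
  rw [h1, integral_finset_sum]
  · apply Finset.sum_congr rfl
    intro p _
    rw [setIntegral_indicator (cell_meas hK.measurableSet y a p),
      inter_eq_right.2 (cell_sub K y a p), integral_const_mul]
  · intro p _
    exact ((intOn hK subset_rfl (by fun_prop : Continuous fun x => F (y p) * g x))).indicator
      (cell_meas hK.measurableSet y a p)

theorem sol_of_heights {K : Set (EuclideanSpace ℝ (Fin d))} (hK : IsCompact K)
    {g : EuclideanSpace ℝ (Fin d) → ℝ} (hg : Continuous g) (hg0 : ∀ x ∈ K, 0 ≤ g x) {R : ℝ}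
    (hKR : ∀ x ∈ K, ‖x‖ ≤ R) {π : ι → κ} (hπ : Function.Surjective π)
    {y : κ → EuclideanSpace ℝ (Fin d)} (hy : Function.Injective y) (a : κ → ℝ) (w : ι → ℝ)
    (hw0 : ∀ k, 0 < w k)
    (hmass : ∀ p, ∫ x in cell K y a p, g x = ∑ k with π k = p, w k) :
    IsSol K g (y ∘ π) w R (a ∘ π)
      ((bary K g y a (fun p => ∑ k with π k = p, w k)) ∘ π) (tmap K y a) := by
  classical
  set W : κ → ℝ := fun p => ∑ k with π k = p, w k with hW
  have hW0 : ∀ p, 0 < W p := by
    intro p
    obtain ⟨k, hk⟩ := hπ p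
    apply Finset.sum_pos (fun k _ => hw0 k)
    exact ⟨k, by simp [hk]⟩
  have hfeas : ∀ (y' : ι → EuclideanSpace ℝ (Fin d)) (a' : ι → ℝ),
    ∑ k, w k * inner ℝ (bary K g y a W (π k)) (y' k) ≤
      (∫ x in K, phi y' a' x * g x) + ∑ k, w k * a' k := by
    intro y' a'
    have hc' := phi_cont y' a'
    have h1 : ∫ x in K, phi y' a' x * g x = ∑ p, ∫ x in cell K y a p, phi y' a' x * g x :=
      (sum_cells hK hy a (by fun_prop)).symm
    have h2 : ∑ k, w k * inner ℝ (bary K g y a W (π k)) (y' k) - ∑ k, w k * a' k =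
        ∑ p, ∑ k with π k = p, (w k * inner ℝ (bary K g y a W p) (y' k) - w k * a' k) := by
      rw [← Finset.sum_sub_distrib, ← Finset.sum_fiberwise Finset.univ π]
      apply Finset.sum_congr rfl
      intro p _
      apply Finset.sum_congr rfl
      intro k hk
      have : π k = p := by simpa using hk
      rw [this]
    have h3 : ∀ p, ∑ k with π k = p, (w k * inner ℝ (bary K g y a W p) (y' k) - w k * a' k) ≤
        ∫ x in cell K y a p, phi y' a' x * g x := by
      intro p
      have e1 : ∀ k, w k * inner ℝ (bary K g y a W p) (y' k) - w k * a' k =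
          (w k / W p) * ∫ x in cell K y a p, (inner ℝ x (y' k) - a' k) * g x := by
        intro k
        have e2 := inner_bary hK hg y a W p (hW0 p) (y' k)
        have e3 : ∫ x in cell K y a p, (inner ℝ x (y' k) - a' k) * g x =
            (∫ x in cell K y a p, inner ℝ x (y' k) * g x) - a' k * W p := by
          simp_rw [sub_mul]
          rw [integral_sub (intOn hK (cell_sub _ _ _ _) (by fun_prop))
            (intOn hK (cell_sub _ _ _ _) (by fun_prop)), integral_const_mul, hmass p]
        rw [e3, ← e2]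
        have := (hW0 p).ne'
        field_simp
      have e4 : ∀ k, (w k / W p) * ∫ x in cell K y a p, (inner ℝ x (y' k) - a' k) * g x ≤
          (w k / W p) * ∫ x in cell K y a p, phi y' a' x * g x := by
        intro k
        apply mul_le_mul_of_nonneg_left _ (div_nonneg (hw0 k).le (hW0 p).le)
        apply setIntegral_mono_on (intOn hK (cell_sub _ _ _ _) (by fun_prop))
          (intOn hK (cell_sub _ _ _ _) (by fun_prop)) (cell_meas hK.measurableSet _ _ _)
        intro x hx
        exact mul_le_mul_of_nonneg_right (le_phi y' a' x k) (hg0 x hx.1)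
      calc ∑ k with π k = p, (w k * inner ℝ (bary K g y a W p) (y' k) - w k * a' k)
          ≤ ∑ k with π k = p, (w k / W p) * ∫ x in cell K y a p, phi y' a' x * g x := by
            apply Finset.sum_le_sum
            intro k _
            rw [e1 k]; exact e4 k
        _ = (∑ k with π k = p, w k) / W p * ∫ x in cell K y a p, phi y' a' x * g x := by
            rw [← Finset.sum_mul, ← Finset.sum_div]
        _ = ∫ x in cell K y a p, phi y' a' x * g x := by
            rw [show (∑ k with π k = p, w k) = W p from rfl, div_self (hW0 p).ne', one_mul]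
    have h4 := Finset.sum_le_sum (s := Finset.univ) fun p _ => h3 p
    rw [← h2, ← h1] at h4
    linarith
  refine ⟨?_, hfeas, fun k => norm_bary hK hg hg0 hKR y a W (π k) (hW0 _) (hmass _),
    tmap_meas hK.measurableSet y a, ?_, ?_⟩
  · -- duality
    have hc := phi_cont y a
    have h1 : ∫ x in K, phi (y ∘ π) (a ∘ π) x * g x =
        ∑ p, ∫ x in cell K y a p, (inner ℝ x (y p) - a p) * g x := by
      simp_rw [phi_pull hπ]
      rw [← sum_cells hK hy a (by fun_prop)]
      apply Finset.sum_congr rfl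
      intro p _
      apply setIntegral_congr_fun (cell_meas hK.measurableSet _ _ _)
      intro x hx
      simp only
      rw [phi_on_cell hx]
    rw [h1]
    have h2 : ∀ p, ∫ x in cell K y a p, (inner ℝ x (y p) - a p) * g x =
        W p * inner ℝ (bary K g y a W p) (y p) - W p * a p := by
      intro p
      simp_rw [sub_mul]
      rw [integral_sub (intOn hK (cell_sub _ _ _ _) (by fun_prop))
            (intOn hK (cell_sub _ _ _ _) (by fun_prop)), integral_const_mul, hmass p,
            inner_bary hK hg y a W p (hW0 p)]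
      ring
    simp_rw [h2]
    have h3 : ∀ G : κ → ℝ, ∑ k, w k * G (π k) = ∑ p, W p * G p := by
      intro G
      rw [← Finset.sum_fiberwise Finset.univ π]
      apply Finset.sum_congr rfl
      intro p _
      rw [hW, Finset.sum_mul]
      apply Finset.sum_congr rfl
      intro k hk
      have : π k = p := by simpa using hk
      rw [this]
    have h4 := h3 (fun p => inner ℝ (bary K g y a W p) (y p))
    have h5 := h3 a
    simp only [Function.comp]
    rw [h4, h5, Finset.sum_sub_distrib]
    ring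
  · filter_upwards [tmap_sel hK.measurableSet hy a] with x hx
    obtain ⟨p, hp, hpc, -⟩ := hx
    obtain ⟨k, rfl⟩ := hπ p
    exact ⟨k, hp, by rw [cell_pull K hπ]; exact hpc⟩
  · intro F hF
    rw [tmap_law hK hy a hg F, ← Finset.sum_fiberwise Finset.univ π]
    apply Finset.sum_congr rfl
    intro p _
    rw [hmass p, Finset.mul_sum]
    apply Finset.sum_congr rfl
    intro k hk
    have : π k = p := by simpa using hk
    simp only [Function.comp, this]
    ring

end Vale.Agent.P074
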