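import Vale.Agent.P074.LF

open scoped ENNReal NNReal
open MeasureTheory Set Filter Topology

namespace Vale.Agent.P074

variable {d : ℕ}

theorem cs_int {K B : Set (EuclideanSpace ℝ (Fin d))} (hK : IsCompact K) (hB : B ⊆ K)
    {f : EuclideanSpace ℝ (Fin d) → ℝ} (hf : Continuous f) (hv : 0 < ∫ x in B, (1 : ℝ)) :
    (∫ x in B, f x) ^ 2 ≤ (∫ x in B, (1 : ℝ)) * ∫ x in B, f x ^ 2 := by
  set V := ∫ x in B, (1 : ℝ) with hV
  set m := (∫ x in B, f x) / V with hm
  have h1 : 0 ≤ ∫ x in B, (f x - m) ^ 2 := integral_nonneg fun x => sq_nonneg _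
  have h2 : ∫ x in B, (f x - m) ^ 2 = (∫ x in B, f x ^ 2) - 2 * m * (∫ x in B, f x) + m ^ 2 * V := by
    have e : ∀ x, (f x - m) ^ 2 = f x ^ 2 - 2 * m * f x + m ^ 2 * 1 := by intro x; ring
    simp_rw [e]
    rw [integral_add, integral_sub, integral_const_mul, integral_const_mul]
    · exact intOn hK hB (by fun_prop)
    · exact intOn hK hB (by fun_prop)
    · exact (intOn hK hB (by fun_prop : Continuous fun x => f x ^ 2 - 2 * m * f x))
    · exact intOn hK hB continuous_const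
  have h3 : (∫ x in B, f x) = m * V := by rw [hm]; field_simp
  rw [h2, h3] at h1
  rw [h3]
  have : 0 ≤ (∫ x in B, f x ^ 2) - m ^ 2 * V := by nlinarith
  nlinarith [mul_nonneg hv.le this]

theorem coord_int {K B : Set (EuclideanSpace ℝ (Fin d))} (hK : IsCompact K) (hB : B ⊆ K)
    {F : EuclideanSpace ℝ (Fin d) → EuclideanSpace ℝ (Fin d)} (hF : Continuous F) (i : Fin d) :
    (∫ x in B, F x) i = ∫ x in B, F x i := by
  have := (EuclideanSpace.proj (𝕜 := ℝ) i : EuclideanSpace ℝ (Fin d) →L[ℝ] ℝ).integral_comp_comm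
    (intOnE hK hB hF)
  simpa using this.symm

theorem pair_est {κ : Type} [Fintype κ] [Nonempty κ] {K : Set (EuclideanSpace ℝ (Fin d))}
    (hK : IsCompact K) (hKc : Convex ℝ K) {R : ℝ} (hR : 0 < R) (hKR : ∀ x ∈ K, ‖x‖ ≤ R)
    {y : κ → EuclideanSpace ℝ (Fin d)} (hy : Function.Injective y) (a0 a1 : κ → ℝ)
    {ζ : EuclideanSpace ℝ (Fin d) → ℝ} (hζ : Continuous ζ) (s : ℝ)
    (hs : ∀ x ∈ K, |s * ζ x| ≤ 1 / 2) (W : κ → ℝ) (hW : ∀ p, 0 < W p)
    (h0 : ∀ p, ∫ x in cell K y a0 p, (1 : ℝ) = W p)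
    (h1 : ∀ p, ∫ x in cell K y a1 p, (1 + s * ζ x) = W p) :
    ∑ p, W p * ‖bary K (fun x => 1 + s * ζ x) y a1 W p - bary K (fun _ => 1) y a0 W p‖ ^ 2 ≤
      (d * 591364) * R ^ 2 * s ^ 2 * ∫ x in K, ζ x ^ 2 := by
  have hm : ∀ (a : κ → ℝ) p, MeasurableSet (cell K y a p) := fun a p =>
    cell_meas hK.measurableSet y a p
  have hsub : ∀ (a : κ → ℝ) p, cell K y a p ⊆ K := fun a p => cell_sub K y a p
  set vB : κ → ℝ := fun p => ∫ x in cell K y a1 p, (1 : ℝ) with hvB
  set zB : κ → ℝ := fun p => ∫ x in cell K y a1 p, ζ x with hzB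
  set qB : κ → ℝ := fun p => ∫ x in cell K y a1 p, ζ x ^ 2 with hqB
  have hWv : ∀ p, W p = vB p + s * zB p := by
    intro p
    rw [← h1 p, integral_add (intOn hK (hsub _ _) continuous_const)
      (intOn hK (hsub _ _) (by fun_prop)), integral_const_mul]
  have hvB0 : ∀ p, 0 ≤ vB p := fun p => integral_nonneg fun x => zero_le_one
  have hWup : ∀ p, |W p - vB p| ≤ vB p / 2 := by
    intro p
    have e : W p - vB p = ∫ x in cell K y a1 p, s * ζ x := by
      rw [hWv p, integral_const_mul]; ring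
    rw [e]
    calc |∫ x in cell K y a1 p, s * ζ x| ≤ ∫ x in cell K y a1 p, |s * ζ x| :=
          abs_integral_le_integral_abs
      _ ≤ ∫ x in cell K y a1 p, (1/2) * (1:ℝ) := by
          apply setIntegral_mono_on (intOn hK (hsub _ _) (by fun_prop))
            (intOn hK (hsub _ _) continuous_const) (hm _ _)
          intro x hx
          have := hs x hx.1
          linarith
      _ = vB p / 2 := by rw [integral_const_mul]; ring
  have hvBpos : ∀ p, 0 < vB p := by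
    intro p
    have h2 := abs_le.1 (hWup p)
    have h3 := hW p
    by_contra hc
    have : vB p = 0 := le_antisymm (not_lt.1 hc) (hvB0 p)
    rw [this] at h2
    linarith [h2.2]
  have hv1 : ∀ p, vB p ≤ 2 * W p := fun p => by have := (abs_le.1 (hWup p)).1; linarith
  have hv2 : ∀ p, W p ≤ 2 * vB p := fun p => by
    have := (abs_le.1 (hWup p)).2; have := hvB0 p; linarith
  have hz2 : ∀ p, (s * zB p) ^ 2 / W p ≤ 2 * s ^ 2 * qB p := by
    intro p
    have c := cs_int hK (hsub a1 p) hζ (hvBpos p)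
    rw [div_le_iff₀ (hW p)]
    have q0 : 0 ≤ qB p := integral_nonneg fun x => sq_nonneg _
    calc (s * zB p) ^ 2 = s ^ 2 * zB p ^ 2 := by ring
      _ ≤ s ^ 2 * (vB p * qB p) := by gcongr
      _ ≤ s ^ 2 * (2 * W p * qB p) := by gcongr; exact hv1 p
      _ = _ := by ring
  have hsumq : ∑ p, qB p = ∫ x in K, ζ x ^ 2 := sum_cells hK hy a1 (by fun_prop)
  have key : ∀ i : Fin d, ∑ p, W p *
      ((bary K (fun x => 1 + s * ζ x) y a1 W p - bary K (fun _ => 1) y a0 W p) i) ^ 2 ≤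
      591364 * R ^ 2 * s ^ 2 * ∫ x in K, ζ x ^ 2 := by
    intro i
    have st := cells_stab hR hK hKc hKR hy a0 a1 (fun p => by rw [h0 p]; exact hW p) hvBpos
      (fun p => by rw [h0 p]; exact hv1 p) (fun p => by rw [h0 p]; exact hv2 p) i
    simp_rw [h0] at st
    have st2 : ∑ p, (W p - vB p) ^ 2 / W p ≤ 2 * s ^ 2 * ∫ x in K, ζ x ^ 2 := by
      rw [← hsumq, Finset.mul_sum]
      apply Finset.sum_le_sum
      intro p _
      have : W p - vB p = s * zB p := by rw [hWv p]; ring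
      rw [this]; exact hz2 p
    set X : κ → ℝ := fun p => ∫ x in cell K y a0 p, x i with hX
    set Y : κ → ℝ := fun p => ∫ x in cell K y a1 p, x i with hY
    set Z : κ → ℝ := fun p => ∫ x in cell K y a1 p, ζ x * x i with hZ
    have e : ∀ p, (bary K (fun x => 1 + s * ζ x) y a1 W p - bary K (fun _ => 1) y a0 W p) i =
        (W p)⁻¹ * (Y p + s * Z p - X p) := by
      intro p
      unfold bary
      rw [PiLp.sub_apply, PiLp.smul_apply, PiLp.smul_apply, coord_int hK (hsub _ _) (by fun_prop),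
        coord_int hK (hsub _ _) (by fun_prop)]
      have e1 : ∫ x in cell K y a1 p, ((1 + s * ζ x) • x) i = Y p + s * Z p := by
        have : ∀ x : EuclideanSpace ℝ (Fin d), ((1 + s * ζ x) • x) i = x i + s * (ζ x * x i) := by
          intro x; simp; ring
        simp_rw [this]
        rw [integral_add (intOn hK (hsub _ _) (by fun_prop)) (intOn hK (hsub _ _) (by fun_prop)),
          integral_const_mul]
      have e2 : ∫ x in cell K y a0 p, ((1 : ℝ) • x) i = X p := by simp [hX]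
      rw [e1, e2]
      simp only [smul_eq_mul]
      ring
    have hZ2 : ∀ p, (s * Z p) ^ 2 / W p ≤ 2 * R ^ 2 * s ^ 2 * qB p := by
      intro p
      have c := cs_int hK (hsub a1 p) (by fun_prop : Continuous fun x : EuclideanSpace ℝ (Fin d) =>
        ζ x * x i) (hvBpos p)
      have c2 : ∫ x in cell K y a1 p, (ζ x * x i) ^ 2 ≤ R ^ 2 * qB p := by
        rw [← integral_const_mul]
        apply setIntegral_mono_on (intOn hK (hsub _ _) (by fun_prop))
          (intOn hK (hsub _ _) (by fun_prop)) (hm _ _)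
        intro x hx
        have hxi : |x i| ≤ R := by
          have := PiLp.norm_apply_le x i
          exact (by simpa using this : |x i| ≤ ‖x‖).trans (hKR x hx.1)
        have : x i ^ 2 ≤ R ^ 2 := by rw [← sq_abs]; gcongr
        rw [mul_pow, mul_comm]
        exact mul_le_mul_of_nonneg_right this (sq_nonneg _)
      have q0 : 0 ≤ qB p := integral_nonneg fun x => sq_nonneg _
      have hvp := hvB0 p
      rw [div_le_iff₀ (hW p)]
      calc (s * Z p) ^ 2 = s ^ 2 * Z p ^ 2 := by ring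
        _ ≤ s ^ 2 * (vB p * (R ^ 2 * qB p)) := by
            gcongr
            exact c.trans (mul_le_mul_of_nonneg_left c2 hvp)
        _ ≤ s ^ 2 * (2 * W p * (R ^ 2 * qB p)) := by gcongr; exact hv1 p
        _ = _ := by ring
    have e3 : ∀ p, W p * ((bary K (fun x => 1 + s * ζ x) y a1 W p -
        bary K (fun _ => 1) y a0 W p) i) ^ 2 ≤
        2 * ((X p - Y p) ^ 2 / W p) + 2 * (2 * R ^ 2 * s ^ 2 * qB p) := by
      intro p
      rw [e p]
      have hWp := hW p
      have t1 : W p * ((W p)⁻¹ * (Y p + s * Z p - X p)) ^ 2 = (Y p + s * Z p - X p) ^ 2 / W p := by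
        field_simp
      have t2 : (Y p + s * Z p - X p) ^ 2 ≤ 2 * (X p - Y p) ^ 2 + 2 * (s * Z p) ^ 2 := by
        nlinarith [sq_nonneg (Y p - X p - s * Z p)]
      rw [t1]
      calc (Y p + s * Z p - X p) ^ 2 / W p ≤ (2 * (X p - Y p) ^ 2 + 2 * (s * Z p) ^ 2) / W p := by
            gcongr
        _ = 2 * ((X p - Y p) ^ 2 / W p) + 2 * ((s * Z p) ^ 2 / W p) := by ring
        _ ≤ _ := by have := hZ2 p; linarith
    calc ∑ p, W p * ((bary K (fun x => 1 + s * ζ x) y a1 W p - bary K (fun _ => 1) y a0 W p) i) ^ 2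
        ≤ ∑ p, (2 * ((X p - Y p) ^ 2 / W p) + 2 * (2 * R ^ 2 * s ^ 2 * qB p)) :=
          Finset.sum_le_sum fun p _ => e3 p
      _ = 2 * ∑ p, (X p - Y p) ^ 2 / W p + 4 * R ^ 2 * s ^ 2 * ∫ x in K, ζ x ^ 2 := by
          rw [Finset.sum_add_distrib, ← Finset.mul_sum, ← Finset.mul_sum, ← Finset.mul_sum, hsumq]
          ring
      _ ≤ 2 * (147840 * R ^ 2 * (2 * s ^ 2 * ∫ x in K, ζ x ^ 2)) +
          4 * R ^ 2 * s ^ 2 * ∫ x in K, ζ x ^ 2 := by
          gcongr
          exact st.trans (mul_le_mul_of_nonneg_left st2 (by positivity))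
      _ = _ := by ring
  have e4 : ∀ p, W p * ‖bary K (fun x => 1 + s * ζ x) y a1 W p - bary K (fun _ => 1) y a0 W p‖ ^ 2 =
      ∑ i, W p * ((bary K (fun x => 1 + s * ζ x) y a1 W p - bary K (fun _ => 1) y a0 W p) i) ^ 2 := by
    intro p
    rw [EuclideanSpace.real_norm_sq_eq, Finset.mul_sum]
  simp_rw [e4]
  rw [Finset.sum_comm]
  calc _ ≤ ∑ i : Fin d, 591364 * R ^ 2 * s ^ 2 * ∫ x in K, ζ x ^ 2 :=
        Finset.sum_le_sum fun i _ => key i
    _ = _ := by rw [Finset.sum_const, Finset.card_univ, Fintype.card_fin, nsmul_eq_mul]; ring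

theorem exists_pair {ι : Type} [Fintype ι] [Nonempty ι] {K : Set (EuclideanSpace ℝ (Fin d))}
    (hK : IsCompact K) (hKc : Convex ℝ K) {R : ℝ} (hR : 0 < R) (hKR : ∀ x ∈ K, ‖x‖ ≤ R)
    {RY : ℝ} (hRY : 0 ≤ RY)
    (y : ι → EuclideanSpace ℝ (Fin d)) (hyR : ∀ k, ‖y k‖ ≤ RY) (w : ι → ℝ) (hw0 : ∀ k, 0 < w k)
    (hw : ∑ k, w k = ∫ x in K, (1 : ℝ))
    {ζ : EuclideanSpace ℝ (Fin d) → ℝ} (hζ : Continuous ζ) (hζ0 : ∫ x in K, ζ x = 0) (s : ℝ)
    (hs : ∀ x ∈ K, |s * ζ x| ≤ 1 / 2) :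
    ∃ (a0 a1 : ι → ℝ) (β0 β1 : ι → EuclideanSpace ℝ (Fin d))
      (τ0 τ1 : EuclideanSpace ℝ (Fin d) → EuclideanSpace ℝ (Fin d)),
      IsSol K (fun _ => 1) y w R a0 β0 τ0 ∧ IsSol K (fun x => 1 + s * ζ x) y w R a1 β1 τ1 ∧
      ∑ k, w k * ‖β1 k - β0 k‖ ^ 2 ≤ (d * 591364) * R ^ 2 * s ^ 2 * ∫ x in K, ζ x ^ 2 := by
  classical
  set P := Finset.univ.image y with hP
  have hmem : ∀ k, y k ∈ P := fun k => Finset.mem_image_of_mem y (Finset.mem_univ k)
  set π : ι → ↥P := fun k => ⟨y k, hmem k⟩ with hπdef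
  have hπ : Function.Surjective π := by
    rintro ⟨p, hp⟩
    obtain ⟨k, -, hk⟩ := Finset.mem_image.1 hp
    exact ⟨k, Subtype.ext hk⟩
  haveI : Nonempty ↥P := ⟨π (Classical.arbitrary ι)⟩
  set y' : ↥P → EuclideanSpace ℝ (Fin d) := Subtype.val with hy'
  have hyinj : Function.Injective y' := Subtype.val_injective
  have hyy : y = y' ∘ π := rfl
  set W : ↥P → ℝ := fun p => ∑ k with π k = p, w k with hW
  have hW0 : ∀ p, 0 < W p := by
    intro p
    obtain ⟨k, hk⟩ := hπ p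
    apply Finset.sum_pos (fun k _ => hw0 k)
    exact ⟨k, by simp [hk]⟩
  have hWsum : ∑ p, W p = ∫ x in K, (1:ℝ) := by
    rw [← hw, ← Finset.sum_fiberwise Finset.univ π]
  have hy'R : ∀ p, ‖y' p‖ ≤ RY := by
    intro p
    obtain ⟨k, rfl⟩ := hπ p
    exact hyR k
  have hg1 : ∀ x ∈ K, 0 ≤ 1 + s * ζ x := fun x hx => by
    have := (abs_le.1 (hs x hx)).1; linarith
  have hWsum1 : ∑ p, W p = ∫ x in K, (1 + s * ζ x) := by
    rw [hWsum, integral_add (intOn hK subset_rfl continuous_const)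
      (intOn hK subset_rfl (by fun_prop)), integral_const_mul, hζ0]; ring
  obtain ⟨b0, hb0⟩ := exists_heights hK (g := fun _ => (1:ℝ)) continuous_const
    (fun _ _ => zero_le_one) y' W hyinj hR.le hRY hKR hy'R hW0 hWsum
  obtain ⟨b1, hb1⟩ := exists_heights hK (g := fun x => 1 + s * ζ x) (by fun_prop)
    hg1 y' W hyinj hR.le hRY hKR hy'R hW0 hWsum1
  refine ⟨b0 ∘ π, b1 ∘ π, _, _, _, _,
    sol_of_heights hK continuous_const (fun _ _ => zero_le_one) hKR hπ hyinj b0 w hw0 hb0,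
    sol_of_heights hK (by fun_prop) hg1 hKR hπ hyinj b1 w hw0 hb1, ?_⟩
  have h := pair_est hK hKc hR hKR hyinj b0 b1 hζ s hs W hW0 hb0 hb1
  refine le_trans (le_of_eq ?_) h
  rw [← Finset.sum_fiberwise Finset.univ π]
  apply Finset.sum_congr rfl
  intro p _
  rw [hW, Finset.sum_mul]
  apply Finset.sum_congr rfl
  intro k hk
  have : π k = p := by simpa using hk
  simp only [Function.comp, this]

end Vale.Agent.P074
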