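import Vale.Agent.P074.LG

open scoped ENNReal NNReal
open MeasureTheory Set Filter Topology

namespace Vale.Agent.P074

variable {d : ℕ} {ι : Type} [Fintype ι] [Nonempty ι]

theorem IsSol.value_le {K : Set (EuclideanSpace ℝ (Fin d))} {g : EuclideanSpace ℝ (Fin d) → ℝ}
    {y : ι → EuclideanSpace ℝ (Fin d)} {w : ι → ℝ} {R : ℝ} {a a' : ι → ℝ}
    {β β' : ι → EuclideanSpace ℝ (Fin d)}
    {τ τ' : EuclideanSpace ℝ (Fin d) → EuclideanSpace ℝ (Fin d)}
    (h : IsSol K g y w R a β τ) (h' : IsSol K g y w R a' β' τ') :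
    ∑ k, w k * inner ℝ (β k) (y k) ≤ ∑ k, w k * inner ℝ (β' k) (y k) := by
  have := h.feas y a'
  rw [← h'.dual] at this
  exact this

theorem wcs (w : ι → ℝ) (hw : ∀ k, 0 < w k) (u v : ι → EuclideanSpace ℝ (Fin d)) {E : ℝ}
    (hE : ∑ k, w k * ‖u k‖ ^ 2 ≤ E) :
    -(Real.sqrt E * Real.sqrt (∑ k, w k * ‖v k‖ ^ 2)) ≤ ∑ k, w k * inner ℝ (u k) (v k) := by
  have h1 : ∑ k, -(w k * (‖u k‖ * ‖v k‖)) ≤ ∑ k, w k * inner ℝ (u k) (v k) := by
    apply Finset.sum_le_sum
    intro k _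
    have := (abs_le.1 (abs_real_inner_le_norm (u k) (v k))).1
    nlinarith [hw k]
  refine le_trans ?_ h1
  rw [Finset.sum_neg_distrib]
  apply neg_le_neg
  have h2 : (∑ k, w k * (‖u k‖ * ‖v k‖)) ^ 2 ≤ (∑ k, w k * ‖u k‖ ^ 2) * (∑ k, w k * ‖v k‖ ^ 2) := by
    have := Finset.sum_mul_sq_le_sq_mul_sq Finset.univ (fun k => Real.sqrt (w k) * ‖u k‖)
      (fun k => Real.sqrt (w k) * ‖v k‖)
    have e1 : ∀ k, Real.sqrt (w k) * ‖u k‖ * (Real.sqrt (w k) * ‖v k‖) = w k * (‖u k‖ * ‖v k‖) := by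
      intro k
      calc _ = (Real.sqrt (w k) * Real.sqrt (w k)) * (‖u k‖ * ‖v k‖) := by ring
        _ = _ := by rw [Real.mul_self_sqrt (hw k).le]
    have e2 : ∀ (u : ι → EuclideanSpace ℝ (Fin d)) k, (Real.sqrt (w k) * ‖u k‖) ^ 2 = w k * ‖u k‖ ^ 2 := by
      intro u k
      rw [mul_pow, Real.sq_sqrt (hw k).le]
    simp_rw [e1, e2] at this
    exact this
  have h0 : 0 ≤ ∑ k, w k * ‖v k‖ ^ 2 := Finset.sum_nonneg fun k _ => by have := hw k; positivity
  have hu0 : 0 ≤ ∑ k, w k * ‖u k‖ ^ 2 := Finset.sum_nonneg fun k _ => by have := hw k; positivity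
  have hE0 : 0 ≤ E := hu0.trans hE
  rw [← Real.sqrt_mul hE0]
  apply Real.le_sqrt_of_sq_le
  exact h2.trans (mul_le_mul_of_nonneg_right hE h0)

theorem potential_est {K : Set (EuclideanSpace ℝ (Fin d))}
    (hK : IsCompact K) (hKc : Convex ℝ K) {R : ℝ} (hR : 0 < R) (hKR : ∀ x ∈ K, ‖x‖ ≤ R)
    (y z : ι → EuclideanSpace ℝ (Fin d)) (w : ι → ℝ) (hw0 : ∀ k, 0 < w k)
    (hw : ∑ k, w k = ∫ x in K, (1 : ℝ))
    {ζ : EuclideanSpace ℝ (Fin d) → ℝ} (hζ : Continuous ζ) (hζ0 : ∫ x in K, ζ x = 0) {s : ℝ}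
    (hs0 : 0 < s) (hs : ∀ x ∈ K, |s * ζ x| ≤ 1 / 2)
    {a0 a1 : ι → ℝ} {β0 β1 : ι → EuclideanSpace ℝ (Fin d)}
    {τ0 τ1 : EuclideanSpace ℝ (Fin d) → EuclideanSpace ℝ (Fin d)}
    (h1 : IsSol K (fun x => 1 + s * ζ x) y w R a1 β1 τ1)
    (h0 : IsSol K (fun _ => 1) z w R a0 β0 τ0) :
    ∫ x in K, phi y a1 x * ζ x ≤ (∫ x in K, phi z a0 x * ζ x) +
      Real.sqrt (d * 591364) * R * Real.sqrt (∫ x in K, ζ x ^ 2) *
        Real.sqrt (∑ k, w k * ‖z k - y k‖ ^ 2) := by
  set Q := ∫ x in K, ζ x ^ 2 with hQ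
  have hQ0 : 0 ≤ Q := integral_nonneg fun x => sq_nonneg _
  set E := (d * 591364) * R ^ 2 * s ^ 2 * Q with hE
  have hsqE : Real.sqrt E = s * (Real.sqrt (d * 591364) * R * Real.sqrt Q) := by
    have e : E = (s * (Real.sqrt (d * 591364) * R * Real.sqrt Q)) ^ 2 := by
      rw [mul_pow, mul_pow, mul_pow, Real.sq_sqrt (by positivity), Real.sq_sqrt hQ0, hE]; ring
    rw [e, Real.sqrt_sq (by positivity)]
  set D := Real.sqrt (∑ k, w k * ‖z k - y k‖ ^ 2) with hD
  set M := ∑ k, w k * ‖z k - y k‖ with hM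
  have hM0 : 0 ≤ M := Finset.sum_nonneg fun k _ => by have := hw0 k; positivity
  -- grid argument
  have grid : ∀ n : ℕ, 0 < n → s * (∫ x in K, phi y a1 x * ζ x) ≤
      s * (∫ x in K, phi z a0 x * ζ x) + Real.sqrt E * D + (2 * R * M) / n := by
    intro n hn
    have hn' : (0:ℝ) < n := by exact_mod_cast hn
    set Y : ℕ → ι → EuclideanSpace ℝ (Fin d) := fun i k => y k + ((i:ℝ) / n) • (z k - y k) with hY
    have hex : ∀ i : ℕ, ∃ (a0 a1 : ι → ℝ) (β0 β1 : ι → EuclideanSpace ℝ (Fin d))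
      (τ0 τ1 : EuclideanSpace ℝ (Fin d) → EuclideanSpace ℝ (Fin d)),
      IsSol K (fun _ => 1) (Y i) w R a0 β0 τ0 ∧ IsSol K (fun x => 1 + s * ζ x) (Y i) w R a1 β1 τ1 ∧
      ∑ k, w k * ‖β1 k - β0 k‖ ^ 2 ≤ (d * 591364) * R ^ 2 * s ^ 2 * ∫ x in K, ζ x ^ 2 := by
      intro i
      exact exists_pair hK hKc hR hKR (RY := ∑ k, ‖Y i k‖)
        (Finset.sum_nonneg fun _ _ => norm_nonneg _) (Y i)
        (fun k => Finset.single_le_sum (f := fun k => ‖Y i k‖) (fun _ _ => norm_nonneg _)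
          (Finset.mem_univ k)) w hw0 hw hζ hζ0 s hs
    choose A0 A1 B0 B1 T0 T1 H0 H1 HE using hex
    set v0 : ℕ → ℝ := fun i => ∑ k, w k * inner ℝ (B0 i k) (Y i k) with hv0
    set v1 : ℕ → ℝ := fun i => ∑ k, w k * inner ℝ (B1 i k) (Y i k) with hv1
    have hstep : ∀ i k, Y (i+1) k = Y i k + ((1:ℝ) / n) • (z k - y k) := by
      intro i k
      simp only [hY]
      rw [add_assoc, ← add_smul]
      congr 2
      push_cast; ring
    have e1 : ∀ i, (1/n : ℝ) * ∑ k, w k * inner ℝ (B1 i k) (z k - y k) ≤ v1 (i+1) - v1 i := by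
      intro i
      have hf := (H1 i).feas (Y (i+1)) (A1 (i+1))
      rw [← (H1 (i+1)).dual] at hf
      have : ∑ k, w k * inner ℝ (B1 i k) (Y (i+1) k) =
          v1 i + (1/n : ℝ) * ∑ k, w k * inner ℝ (B1 i k) (z k - y k) := by
        rw [Finset.mul_sum, ← Finset.sum_add_distrib]
        apply Finset.sum_congr rfl
        intro k _
        rw [hstep, inner_add_right, real_inner_smul_right]; ring
      rw [this] at hf
      simp only [hv1] at hf ⊢
      linarith
    have e0 : ∀ i, v0 (i+1) - v0 i ≤ (1/n : ℝ) * ∑ k, w k * inner ℝ (B0 (i+1) k) (z k - y k) := by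
      intro i
      have hf := (H0 (i+1)).feas (Y i) (A0 i)
      rw [← (H0 i).dual] at hf
      have : ∑ k, w k * inner ℝ (B0 (i+1) k) (Y i k) =
          v0 (i+1) - (1/n : ℝ) * ∑ k, w k * inner ℝ (B0 (i+1) k) (z k - y k) := by
        rw [Finset.mul_sum, ← Finset.sum_sub_distrib]
        apply Finset.sum_congr rfl
        intro k _
        rw [hstep i k, inner_add_right (B0 (i+1) k) (Y i k) _, real_inner_smul_right]; ring
      rw [this] at hf
      simp only [hv0] at hf ⊢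
      linarith
    set b0 : ℕ → ℝ := fun i => ∑ k, w k * inner ℝ (B0 i k) (z k - y k) with hb0
    set b1 : ℕ → ℝ := fun i => ∑ k, w k * inner ℝ (B1 i k) (z k - y k) with hb1
    have hb : ∀ i, -(Real.sqrt E * D) ≤ b1 i - b0 i := by
      intro i
      have := wcs w hw0 (fun k => B1 i k - B0 i k) (fun k => z k - y k) (HE i)
      have e : ∑ k, w k * inner ℝ (B1 i k - B0 i k) (z k - y k) = b1 i - b0 i := by
        simp only [hb0, hb1]
        rw [← Finset.sum_sub_distrib]
        apply Finset.sum_congr rfl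
        intro k _
        rw [inner_sub_left]; ring
      rw [e] at this
      exact this
    have hb0bd : ∀ i, |b0 i| ≤ R * M := by
      intro i
      calc |b0 i| ≤ ∑ k, |w k * inner ℝ (B0 i k) (z k - y k)| := Finset.abs_sum_le_sum_abs _ _
        _ ≤ ∑ k, R * (w k * ‖z k - y k‖) := by
            apply Finset.sum_le_sum
            intro k _
            rw [abs_mul, abs_of_pos (hw0 k)]
            have := abs_real_inner_le_norm (B0 i k) (z k - y k)
            have h2 := (H0 i).bnd k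
            have hwk := hw0 k
            calc w k * |inner ℝ (B0 i k) (z k - y k)| ≤ w k * (‖B0 i k‖ * ‖z k - y k‖) := by gcongr
              _ ≤ w k * (R * ‖z k - y k‖) := by gcongr
              _ = _ := by ring
        _ = R * M := by rw [← Finset.mul_sum]
    have s1 : (1/n : ℝ) * ∑ i ∈ Finset.range n, b1 i ≤ v1 n - v1 0 := by
      rw [← Finset.sum_range_sub v1 n, Finset.mul_sum]
      exact Finset.sum_le_sum fun i _ => e1 i
    have s0 : v0 n - v0 0 ≤ (1/n : ℝ) * ∑ i ∈ Finset.range n, b0 (i+1) := by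
      rw [← Finset.sum_range_sub v0 n, Finset.mul_sum]
      exact Finset.sum_le_sum fun i _ => e0 i
    have s2 : ∑ i ∈ Finset.range n, b0 (i+1) = ∑ i ∈ Finset.range n, b0 i + (b0 n - b0 0) := by
      rw [← Finset.sum_range_sub b0 n, ← Finset.sum_add_distrib]
      apply Finset.sum_congr rfl; intro i _; ring
    have s3 : -(n * (Real.sqrt E * D)) ≤ ∑ i ∈ Finset.range n, b1 i - ∑ i ∈ Finset.range n, b0 i := by
      rw [← Finset.sum_sub_distrib]
      calc -(n * (Real.sqrt E * D)) = ∑ i ∈ Finset.range n, -(Real.sqrt E * D) := by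
            rw [Finset.sum_const, Finset.card_range, nsmul_eq_mul]; ring
        _ ≤ _ := Finset.sum_le_sum fun i _ => hb i
    have s4 : b0 n - b0 0 ≤ 2 * (R * M) := by
      have g1 := (abs_le.1 (hb0bd n)).2
      have g2 := (abs_le.1 (hb0bd 0)).1
      linarith
    have s5 : -(Real.sqrt E * D) - (2 * R * M) / n ≤ (v1 n - v1 0) - (v0 n - v0 0) := by
      have t1 : (1/n : ℝ) * (∑ i ∈ Finset.range n, b1 i - ∑ i ∈ Finset.range n, b0 (i+1)) ≤
          (v1 n - v1 0) - (v0 n - v0 0) := by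
        rw [mul_sub]; linarith
      refine le_trans ?_ t1
      rw [s2]
      have t2 : -(n * (Real.sqrt E * D)) - 2 * (R * M) ≤
          ∑ i ∈ Finset.range n, b1 i - (∑ i ∈ Finset.range n, b0 i + (b0 n - b0 0)) := by linarith
      calc -(Real.sqrt E * D) - (2 * R * M) / n
          = (1/n : ℝ) * (-(n * (Real.sqrt E * D)) - 2 * (R * M)) := by field_simp
        _ ≤ _ := mul_le_mul_of_nonneg_left t2 (by positivity)
    -- endpoints
    have Yn : Y n = z := by
      funext k; simp only [hY]; rw [div_self hn'.ne', one_smul]; abel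
    have Y0 : Y 0 = y := by
      funext k; simp [hY]
    have hcy := phi_cont y a1
    have hcz := phi_cont z a0
    have u1 : v1 n - v0 n ≤ s * ∫ x in K, phi z a0 x * ζ x := by
      have f1 := (H1 n).feas z a0
      have f0 : v0 n = (∫ x in K, phi z a0 x * 1) + ∑ k, w k * a0 k := by
        have g1 := (H0 n)
        rw [Yn] at g1
        have : v0 n = ∑ k, w k * inner ℝ (B0 n k) (z k) := by simp only [hv0, Yn]
        rw [this, ← h0.dual]
        exact le_antisymm (g1.value_le h0) (h0.value_le g1)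
      have f2 : v1 n = ∑ k, w k * inner ℝ (B1 n k) (z k) := by simp only [hv1, Yn]
      have f3 : ∫ x in K, phi z a0 x * (1 + s * ζ x) =
          (∫ x in K, phi z a0 x * 1) + s * ∫ x in K, phi z a0 x * ζ x := by
        rw [← integral_const_mul, ← integral_add (intOn hK subset_rfl (by fun_prop))
          (intOn hK subset_rfl (by fun_prop))]
        congr 1; funext x; ring
      rw [f3] at f1
      rw [f0, f2]
      linarith
    have u0 : s * (∫ x in K, phi y a1 x * ζ x) ≤ v1 0 - v0 0 := by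
      have f1 := (H0 0).feas y a1
      have f0 : v1 0 = (∫ x in K, phi y a1 x * (1 + s * ζ x)) + ∑ k, w k * a1 k := by
        have g1 := (H1 0)
        rw [Y0] at g1
        have : v1 0 = ∑ k, w k * inner ℝ (B1 0 k) (y k) := by simp only [hv1, Y0]
        rw [this, ← h1.dual]
        exact le_antisymm (g1.value_le h1) (h1.value_le g1)
      have f2 : v0 0 = ∑ k, w k * inner ℝ (B0 0 k) (y k) := by simp only [hv0, Y0]
      have f3 : ∫ x in K, phi y a1 x * (1 + s * ζ x) =
          (∫ x in K, phi y a1 x * 1) + s * ∫ x in K, phi y a1 x * ζ x := by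
        rw [← integral_const_mul, ← integral_add (intOn hK subset_rfl (by fun_prop))
          (intOn hK subset_rfl (by fun_prop))]
        congr 1; funext x; ring
      rw [f3] at f0
      rw [f0, f2]
      linarith
    linarith
  have lim : s * (∫ x in K, phi y a1 x * ζ x) ≤ s * (∫ x in K, phi z a0 x * ζ x) + Real.sqrt E * D := by
    have ht : Tendsto (fun n : ℕ => s * (∫ x in K, phi z a0 x * ζ x) + Real.sqrt E * D +
        (2 * R * M) / n) atTop (𝓝 (s * (∫ x in K, phi z a0 x * ζ x) + Real.sqrt E * D + 0)) :=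
      tendsto_const_nhds.add (tendsto_const_div_atTop_nhds_zero_nat _)
    rw [add_zero] at ht
    apply ge_of_tendsto ht
    filter_upwards [eventually_gt_atTop 0] with n hn
    exact grid n hn
  rw [hsqE] at lim
  have : s * (∫ x in K, phi y a1 x * ζ x) ≤ s * ((∫ x in K, phi z a0 x * ζ x) +
      Real.sqrt (d * 591364) * R * Real.sqrt Q * D) := by
    calc _ ≤ _ := lim
      _ = _ := by ring
  exact le_of_mul_le_mul_left this hs0

end Vale.Agent.P074
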