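import Mathlib

open scoped ENNReal NNReal
open MeasureTheory Set Filter Topology

namespace Vale.Agent.P074

variable {d : ℕ}

/-- Pointwise compactness of normalized equi-Lipschitz sequences. -/
theorem lip_compact {L : ℝ} (hL : 0 ≤ L) {Φ : ℕ → EuclideanSpace ℝ (Fin d) → ℝ}
    (hΦ : ∀ n x y, |Φ n x - Φ n y| ≤ L * ‖x - y‖) (h0 : ∀ n, Φ n 0 = 0) :
    ∃ σ : ℕ → ℕ, StrictMono σ ∧ ∃ Ψ : EuclideanSpace ℝ (Fin d) → ℝ,
      (∀ x y, |Ψ x - Ψ y| ≤ L * ‖x - y‖) ∧ ∀ x, Tendsto (fun n => Φ (σ n) x) atTop (𝓝 (Ψ x)) := by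
  set e := TopologicalSpace.denseSeq (EuclideanSpace ℝ (Fin d)) with he
  have hcpt : IsCompact (Set.pi univ fun j => Icc (-(L * ‖e j‖)) (L * ‖e j‖)) :=
    isCompact_univ_pi fun j => isCompact_Icc
  have hmem : ∀ n, (fun j => Φ n (e j)) ∈ Set.pi univ fun j => Icc (-(L * ‖e j‖)) (L * ‖e j‖) := by
    intro n j _
    have := hΦ n (e j) 0
    rw [h0, sub_zero, sub_zero] at this
    exact abs_le.1 this
  obtain ⟨a, -, σ, hσ, ha⟩ := hcpt.tendsto_subseq hmem
  rw [tendsto_pi_nhds] at ha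
  have hlim : ∀ x, ∃ l, Tendsto (fun n => Φ (σ n) x) atTop (𝓝 l) := by
    intro x
    apply cauchySeq_tendsto_of_complete
    rw [Metric.cauchySeq_iff]
    intro ε hε
    obtain ⟨j, hj⟩ : ∃ j, dist (e j) x < ε / (3 * (L + 1)) := by
      obtain ⟨j, hj⟩ := (TopologicalSpace.denseRange_denseSeq (EuclideanSpace ℝ (Fin d))).exists_dist_lt
        x (show 0 < ε / (3 * (L + 1)) by positivity)
      exact ⟨j, by rw [dist_comm]; exact hj⟩
    have hc : CauchySeq (fun n => Φ (σ n) (e j)) := (ha j).cauchySeq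
    rw [Metric.cauchySeq_iff] at hc
    obtain ⟨N, hN⟩ := hc (ε / 3) (by positivity)
    refine ⟨N, fun m hm n hn => ?_⟩
    have h1 := hN m hm n hn
    rw [Real.dist_eq] at h1 ⊢
    have h2 : ∀ n, |Φ n x - Φ n (e j)| < ε / 3 := by
      intro n
      have h3 := hΦ n x (e j)
      rw [dist_eq_norm, norm_sub_rev, lt_div_iff₀ (by positivity)] at hj
      have h4 : L * ‖x - e j‖ < ε / 3 ∨ L * ‖x - e j‖ ≤ 0 := by
        left
        nlinarith [norm_nonneg (x - e j)]
      rcases h4 with h4 | h4 <;> linarith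
    have h3 := abs_lt.1 (h2 (σ m))
    have h4 := abs_lt.1 (h2 (σ n))
    have h5 := abs_lt.1 h1
    rw [abs_lt]
    constructor <;> linarith
  choose Ψ hΨ using hlim
  refine ⟨σ, hσ, Ψ, fun x y => ?_, hΨ⟩
  exact le_of_tendsto (((hΨ x).sub (hΨ y)).abs) (Eventually.of_forall fun n => hΦ _ x y)

/-- Convergence of subgradients at differentiability points. -/
theorem subgrad_tendsto {Φ : ℕ → EuclideanSpace ℝ (Fin d) → ℝ} {Ψ : EuclideanSpace ℝ (Fin d) → ℝ}
    (hlim : ∀ x, Tendsto (fun n => Φ n x) atTop (𝓝 (Ψ x))) {x : EuclideanSpace ℝ (Fin d)}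
    (hd : DifferentiableAt ℝ Ψ x) {v : ℕ → EuclideanSpace ℝ (Fin d)}
    (hv : ∀ n x', Φ n x + inner ℝ (v n) (x' - x) ≤ Φ n x') :
    ∃ l, Tendsto v atTop (𝓝 l) := by
  have key : ∀ u : EuclideanSpace ℝ (Fin d),
      Tendsto (fun n => inner ℝ (v n) u) atTop (𝓝 (fderiv ℝ Ψ x u)) := by
    intro u
    set D := fderiv ℝ Ψ x u with hD
    rw [Metric.tendsto_atTop]
    intro ε hε
    have hder : HasDerivAt (fun t : ℝ => Ψ (x + t • u)) D 0 := by
      have h1 : HasFDerivAt Ψ (fderiv ℝ Ψ x) (x + (0:ℝ) • u) := by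
        simpa using hd.hasFDerivAt
      have h2 : HasDerivAt (fun t : ℝ => x + t • u) u 0 := by
        simpa using ((hasDerivAt_id (0:ℝ)).smul_const u).const_add x
      exact h1.comp_hasDerivAt (0:ℝ) h2
    rw [hasDerivAt_iff_tendsto_slope] at hder
    have hev := (Metric.tendsto_nhds.1 hder) (ε / 2) (by positivity)
    rw [eventually_nhdsWithin_iff, Metric.eventually_nhds_iff] at hev
    obtain ⟨r, hr, hev⟩ := hev
    set t := r / 2 with ht
    have ht0 : 0 < t := by positivity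
    have e1 := hev (y := t) (by rw [dist_zero_right, Real.norm_of_nonneg ht0.le]; linarith) ht0.ne'
    have e2 := hev (y := -t) (by rw [dist_zero_right, norm_neg, Real.norm_of_nonneg ht0.le]; linarith)
      (by simpa using ht0.ne')
    simp only [slope_def_field, zero_smul, add_zero, sub_zero, Real.dist_eq] at e1 e2
    have l1 : Tendsto (fun n => (Φ n (x + t • u) - Φ n x) / t) atTop
        (𝓝 ((Ψ (x + t • u) - Ψ x) / t)) := ((hlim _).sub (hlim _)).div_const t
    have l2 : Tendsto (fun n => (Φ n (x + (-t) • u) - Φ n x) / (-t)) atTop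
        (𝓝 ((Ψ (x + (-t) • u) - Ψ x) / (-t))) := ((hlim _).sub (hlim _)).div_const (-t)
    obtain ⟨N1, hN1⟩ := (Metric.tendsto_atTop.1 l1) (ε / 2) (by positivity)
    obtain ⟨N2, hN2⟩ := (Metric.tendsto_atTop.1 l2) (ε / 2) (by positivity)
    refine ⟨max N1 N2, fun n hn => ?_⟩
    have g1 := hN1 n (le_trans (le_max_left _ _) hn)
    have g2 := hN2 n (le_trans (le_max_right _ _) hn)
    rw [Real.dist_eq] at g1 g2 ⊢
    have u1 : inner ℝ (v n) u ≤ (Φ n (x + t • u) - Φ n x) / t := by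
      have := hv n (x + t • u)
      rw [add_sub_cancel_left, real_inner_smul_right] at this
      rw [le_div_iff₀ ht0]; linarith
    have u2 : (Φ n (x + (-t) • u) - Φ n x) / (-t) ≤ inner ℝ (v n) u := by
      have := hv n (x + (-t) • u)
      rw [add_sub_cancel_left, real_inner_smul_right] at this
      rw [div_neg, neg_le, ← sub_nonneg]
      have e : (Φ n (x + (-t) • u) - Φ n x) / t - -inner ℝ (v n) u =
          (Φ n (x + (-t) • u) - Φ n x + t * inner ℝ (v n) u) / t := by field_simp; ring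
      rw [e]
      apply div_nonneg _ ht0.le
      linarith
    have a1 := abs_lt.1 e1
    have a2 := abs_lt.1 e2
    have b1 := abs_lt.1 g1
    have b2 := abs_lt.1 g2
    rw [abs_lt]
    constructor <;> linarith
  set b := EuclideanSpace.basisFun (Fin d) ℝ with hb
  refine ⟨∑ i, (fderiv ℝ Ψ x (b i)) • b i, ?_⟩
  have hrep : ∀ n, v n = ∑ i, (inner ℝ (v n) (b i)) • b i := by
    intro n
    conv_lhs => rw [← b.sum_repr' (v n)]
    apply Finset.sum_congr rfl
    intro i _
    rw [real_inner_comm]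
  have : v = fun n => ∑ i, (inner ℝ (v n) (b i)) • b i := funext hrep
  rw [this]
  exact tendsto_finsetSum _ fun i _ => (key (b i)).smul_const (b i)

end Vale.Agent.P074
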