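import Vale.Agent.P074.Defs
import Vale.Agent.P074.LI

open scoped ENNReal NNReal
open MeasureTheory Set Filter Topology

namespace Vale.Agent.P074

variable {d : ℕ}

theorem volReal (K : Set (EuclideanSpace ℝ (Fin d))) : ∫ x in K, (1 : ℝ) = (volume K).toReal := by
  rw [setIntegral_const]; simp [Measure.real]

theorem integral_unif {K : Set (EuclideanSpace ℝ (Fin d))} (F : EuclideanSpace ℝ (Fin d) → ℝ) :
    ∫ x, F x ∂(unif K) = (∫ x in K, (1 : ℝ))⁻¹ * ∫ x in K, F x := by
  unfold unif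
  rw [integral_smul_measure, volReal, ENNReal.toReal_inv, smul_eq_mul]

theorem law_of_map {K : Set (EuclideanSpace ℝ (Fin d))} (hV : 0 < ∫ x in K, (1 : ℝ))
    {μ : Measure (EuclideanSpace ℝ (Fin d))}
    {U : EuclideanSpace ℝ (Fin d) → EuclideanSpace ℝ (Fin d)} (hU : Measurable U)
    (hmap : (unif K).map U = μ) {F : EuclideanSpace ℝ (Fin d) → ℝ} (hF : Continuous F) :
    ∫ x in K, F (U x) = (∫ x in K, (1 : ℝ)) * ∫ y, F y ∂μ := by
  rw [← hmap, integral_map hU.aemeasurable hF.aestronglyMeasurable, integral_unif, ← mul_assoc,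
    mul_inv_cancel₀ hV.ne', one_mul]

theorem bdd_int {K : Set (EuclideanSpace ℝ (Fin d))} (hK : IsCompact K)
    {F : EuclideanSpace ℝ (Fin d) → ℝ} (hF : AEStronglyMeasurable F (volume.restrict K)) {M : ℝ}
    (hb : ∀ᵐ x ∂(volume.restrict K), |F x| ≤ M) : IntegrableOn F K := by
  have : IsFiniteMeasure (volume.restrict K) := ⟨by simpa using hK.measure_lt_top⟩
  exact Integrable.of_bound hF M (by simpa using hb)

theorem cost_compare {K : Set (EuclideanSpace ℝ (Fin d))} (hK : IsCompact K)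
    {R RY : ℝ} (hKR : ∀ x ∈ K, ‖x‖ ≤ R) (hR : 0 ≤ R) (hRY : 0 ≤ RY)
    (hV : 0 < ∫ x in K, (1 : ℝ))
    {μ : Measure (EuclideanSpace ℝ (Fin d))}
    {T U : EuclideanSpace ℝ (Fin d) → EuclideanSpace ℝ (Fin d)}
    (hT : IsOptimalMap (unif K) μ T) (hU : Measurable U) (hmap : (unif K).map U = μ)
    (hTb : ∀ᵐ x ∂(volume.restrict K), ‖T x‖ ≤ RY)
    (hUb : ∀ᵐ x ∂(volume.restrict K), ‖U x‖ ≤ RY) :
    ∫ x in K, inner ℝ x (U x) ≤ ∫ x in K, inner ℝ x (T x) := by
  have hvK : volume K ≠ 0 := by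
    intro h; rw [volReal, h] at hV; simp at hV
  have hvK' : volume K ≠ ∞ := hK.measure_lt_top.ne
  have hc := hT.2.2 U hU hmap
  unfold unif at hc
  rw [lintegral_smul_measure, lintegral_smul_measure, smul_eq_mul, smul_eq_mul,
    ENNReal.mul_le_mul_iff_right (ENNReal.inv_ne_zero.2 hvK') (ENNReal.inv_ne_top.2 hvK)] at hc
  have bound : ∀ W : EuclideanSpace ℝ (Fin d) → EuclideanSpace ℝ (Fin d), Measurable W →
      (∀ᵐ x ∂(volume.restrict K), ‖W x‖ ≤ RY) →
      IntegrableOn (fun x => inner ℝ x (W x)) K ∧ IntegrableOn (fun x => ‖W x‖ ^ 2) K ∧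
      IntegrableOn (fun x => ‖x‖ ^ 2) K ∧
      ∫⁻ x in K, edist x (W x) ^ 2 = ENNReal.ofReal (∫ x in K, ‖x - W x‖ ^ 2) ∧
      ∫ x in K, ‖x - W x‖ ^ 2 = (∫ x in K, ‖x‖ ^ 2) - 2 * (∫ x in K, inner ℝ x (W x)) +
        ∫ x in K, ‖W x‖ ^ 2 := by
    intro W hW hWb
    have hae := ae_restrict_mem (μ := volume) hK.measurableSet
    have i1 : IntegrableOn (fun x => inner ℝ x (W x)) K := by
      apply bdd_int hK (M := R * RY)
      · exact (measurable_id.inner hW).aestronglyMeasurable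
      · filter_upwards [hWb, hae] with x h1 h2
        exact (abs_real_inner_le_norm _ _).trans (mul_le_mul (hKR x h2) h1 (norm_nonneg _) hR)
    have i2 : IntegrableOn (fun x => ‖W x‖ ^ 2) K := by
      refine bdd_int hK (M := RY ^ 2) (hW.norm.pow_const 2).aestronglyMeasurable ?_
      filter_upwards [hWb] with x h1
      rw [abs_of_nonneg (by positivity)]; gcongr
    have i3 : IntegrableOn (fun x : EuclideanSpace ℝ (Fin d) => ‖x‖ ^ 2) K :=
      (by fun_prop : Continuous fun x : EuclideanSpace ℝ (Fin d) => ‖x‖ ^ 2).continuousOn.integrableOn_compact hK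
    have e : ∀ x, ‖x - W x‖ ^ 2 = ‖x‖ ^ 2 - 2 * inner ℝ x (W x) + ‖W x‖ ^ 2 := fun x =>
      norm_sub_sq_real x (W x)
    have i4 : IntegrableOn (fun x => ‖x - W x‖ ^ 2) K := by
      simp_rw [e]
      exact (i3.sub (i1.const_mul 2)).add i2
    refine ⟨i1, i2, i3, ?_, ?_⟩
    · rw [ofReal_integral_eq_lintegral_ofReal i4 (Eventually.of_forall fun x => by positivity)]
      apply lintegral_congr
      intro x
      rw [edist_dist, dist_eq_norm, ENNReal.ofReal_pow (norm_nonneg _)]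
    · simp_rw [e]
      have i5 : IntegrableOn (fun x => ‖x‖ ^ 2 - 2 * inner ℝ x (W x)) K := i3.sub (i1.const_mul 2)
      rw [integral_add i5 i2, integral_sub i3 (i1.const_mul 2), integral_const_mul]
  obtain ⟨t1, t2, t3, t4, t5⟩ := bound T hT.1 hTb
  obtain ⟨u1, u2, u3, u4, u5⟩ := bound U hU hUb
  rw [t4, u4, ENNReal.ofReal_le_ofReal_iff (integral_nonneg fun x => by positivity), t5, u5] at hc
  have l1 := law_of_map hV hT.1 hT.2.1 (F := fun y => ‖y‖ ^ 2) (by fun_prop)
  have l2 := law_of_map hV hU hmap (F := fun y => ‖y‖ ^ 2) (by fun_prop)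
  rw [l1, l2] at hc
  linarith

theorem limit_opt {K : Set (EuclideanSpace ℝ (Fin d))} (hK : IsCompact K) (hKne : K.Nonempty)
    {R RY : ℝ} (hKR : ∀ x ∈ K, ‖x‖ ≤ R) (hR : 0 ≤ R) (hRY : 0 ≤ RY)
    (hV : 0 < ∫ x in K, (1 : ℝ))
    {μ : Measure (EuclideanSpace ℝ (Fin d))} [IsProbabilityMeasure μ]
    {T : EuclideanSpace ℝ (Fin d) → EuclideanSpace ℝ (Fin d)}
    (hT : IsOptimalMap (unif K) μ T) (hTb : ∀ᵐ x ∂(volume.restrict K), ‖T x‖ ≤ RY)
    {Φ : ℕ → EuclideanSpace ℝ (Fin d) → ℝ} {Ψ : EuclideanSpace ℝ (Fin d) → ℝ}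
    (hlim : ∀ x, Tendsto (fun n => Φ n x) atTop (𝓝 (Ψ x)))
    (hlip : ∀ x y, |Ψ x - Ψ y| ≤ RY * ‖x - y‖)
    {τ : ℕ → EuclideanSpace ℝ (Fin d) → EuclideanSpace ℝ (Fin d)} (hτm : ∀ n, Measurable (τ n))
    (hτ : ∀ n, ∀ᵐ x ∂(volume.restrict K), ‖τ n x‖ ≤ RY ∧
      ∀ x', Φ n x + inner ℝ (τ n x) (x' - x) ≤ Φ n x')
    {g : ℕ → EuclideanSpace ℝ (Fin d) → ℝ} (hg : ∀ n, Continuous (g n))
    (hg1 : ∀ n, ∀ x ∈ K, |g n x - 1| ≤ 1 / 2)
    (hglim : ∀ x ∈ K, Tendsto (fun n => g n x) atTop (𝓝 1))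
    (hlaw : ∀ F : EuclideanSpace ℝ (Fin d) → ℝ, Continuous F →
      Tendsto (fun n => ∫ x in K, F (τ n x) * g n x) atTop
        (𝓝 ((∫ x in K, (1 : ℝ)) * ∫ y, F y ∂μ))) :
    ∀ᵐ x ∂(volume.restrict K), ∀ x' ∈ K, Ψ x + inner ℝ (T x) (x' - x) ≤ Ψ x' := by
  have hΨc : Continuous Ψ := by
    have : LipschitzWith (Real.toNNReal RY) Ψ := by
      apply LipschitzWith.of_dist_le_mul
      intro x y
      rw [Real.dist_eq, dist_eq_norm, Real.coe_toNNReal _ hRY]
      exact hlip x y
    exact this.continuous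
  have hdiff : ∀ᵐ x ∂(volume.restrict K), DifferentiableAt ℝ Ψ x := by
    have : LipschitzWith (Real.toNNReal RY) Ψ := by
      apply LipschitzWith.of_dist_le_mul
      intro x y
      rw [Real.dist_eq, dist_eq_norm, Real.coe_toNNReal _ hRY]
      exact hlip x y
    exact ae_restrict_of_ae this.ae_differentiableAt
  have hτall : ∀ᵐ x ∂(volume.restrict K), ∀ n, ‖τ n x‖ ≤ RY ∧
      ∀ x', Φ n x + inner ℝ (τ n x) (x' - x) ≤ Φ n x' := ae_all_iff.2 hτ
  have hexl : ∀ᵐ x ∂(volume.restrict K), ∃ l, Tendsto (fun n => τ n x) atTop (𝓝 l) := by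
    filter_upwards [hdiff, hτall] with x h1 h2
    exact subgrad_tendsto hlim h1 fun n => (h2 n).2
  obtain ⟨U, hUm, hUlim⟩ := measurable_limit_of_tendsto_metrizable_ae
    (fun n => (hτm n).aemeasurable) hexl
  have hUb : ∀ᵐ x ∂(volume.restrict K), ‖U x‖ ≤ RY := by
    filter_upwards [hUlim, hτall] with x h1 h2
    exact le_of_tendsto h1.norm (Eventually.of_forall fun n => (h2 n).1)
  have hUsub : ∀ᵐ x ∂(volume.restrict K), ∀ x', Ψ x + inner ℝ (U x) (x' - x) ≤ Ψ x' := by
    filter_upwards [hUlim, hτall] with x h1 h2 x'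
    exact le_of_tendsto_of_tendsto ((hlim x).add (h1.inner tendsto_const_nhds)) (hlim x')
      (Eventually.of_forall fun n => (h2 n).2 x')
  have hUlaw : ∀ F : EuclideanSpace ℝ (Fin d) → ℝ, Continuous F →
      ∫ x in K, F (U x) = (∫ x in K, (1 : ℝ)) * ∫ y, F y ∂μ := by
    intro F hF
    obtain ⟨M, hM⟩ := (isCompact_closedBall (0 : EuclideanSpace ℝ (Fin d)) RY).exists_bound_of_continuousOn
      hF.continuousOn
    have hM' : ∀ v : EuclideanSpace ℝ (Fin d), ‖v‖ ≤ RY → |F v| ≤ M := by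
      intro v hv
      have := hM v (by simpa using hv)
      simpa using this
    have h1 : Tendsto (fun n => ∫ x in K, F (τ n x) * g n x) atTop (𝓝 (∫ x in K, F (U x) * 1)) := by
      apply tendsto_integral_of_dominated_convergence (fun _ => M * 2)
      · intro n
        exact ((hF.measurable.comp (hτm n)).mul (hg n).measurable).aestronglyMeasurable
      · exact (continuous_const.continuousOn.integrableOn_compact hK)
      · intro n
        filter_upwards [hτall, ae_restrict_mem hK.measurableSet] with x h1 hx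
        have e1 := hM' _ (h1 n).1
        have e2 := abs_le.1 (hg1 n x hx)
        rw [Real.norm_eq_abs, abs_mul]
        apply mul_le_mul e1 _ (abs_nonneg _) ((abs_nonneg _).trans e1)
        rw [abs_le]; constructor <;> linarith
      · filter_upwards [hUlim, ae_restrict_mem hK.measurableSet] with x h1 hx
        exact ((hF.tendsto _).comp h1).mul (hglim x hx)
    have h2 := tendsto_nhds_unique h1 (hlaw F hF)
    simpa using h2
  haveI : IsProbabilityMeasure ((unif K).map T) := by rw [hT.2.1]; infer_instance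
  have hfin : IsFiniteMeasure (unif K) := by
    refine ⟨?_⟩
    unfold unif
    rw [Measure.smul_apply, Measure.restrict_apply_univ, smul_eq_mul]
    have hvK : volume K ≠ 0 := by
      intro h; rw [volReal, h] at hV; simp at hV
    exact ENNReal.mul_lt_top (ENNReal.inv_lt_top.2 (pos_iff_ne_zero.2 hvK)) hK.measure_lt_top
  have hmap : (unif K).map U = μ := by
    apply ext_of_forall_integral_eq_of_IsFiniteMeasure
    intro f
    rw [integral_map hUm.aemeasurable f.continuous.aestronglyMeasurable, integral_unif,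
      hUlaw f f.continuous, ← mul_assoc, inv_mul_cancel₀ hV.ne', one_mul]
  have hcost := cost_compare hK hKR hR hRY hV hT hUm hmap hTb hUb
  -- the conjugate
  set S : EuclideanSpace ℝ (Fin d) → ℝ := fun y => sSup ((fun x => inner ℝ x y - Ψ x) '' K) with hS
  have hSc : Continuous S :=
    hK.continuous_sSup (f := fun y x => inner ℝ x y - Ψ x) (by
      apply Continuous.sub
      · exact continuous_snd.inner continuous_fst
      · exact hΨc.comp continuous_snd)
  have hSge : ∀ y, ∀ x ∈ K, inner ℝ x y - Ψ x ≤ S y := by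
    intro y x hx
    apply le_csSup _ (mem_image_of_mem _ hx)
    exact (hK.image (by fun_prop : Continuous fun x => inner ℝ x y - Ψ x)).bddAbove
  have hSle : ∀ y c, (∀ x ∈ K, inner ℝ x y - Ψ x ≤ c) → S y ≤ c := by
    intro y c h
    apply csSup_le (hKne.image _)
    rintro _ ⟨x, hx, rfl⟩
    exact h x hx
  have lT := law_of_map hV hT.1 hT.2.1 hSc
  have lU := law_of_map hV hUm hmap hSc
  have hSb : ∃ M, ∀ v : EuclideanSpace ℝ (Fin d), ‖v‖ ≤ RY → |S v| ≤ M := by
    obtain ⟨M, hM⟩ := (isCompact_closedBall (0 : EuclideanSpace ℝ (Fin d)) RY).exists_bound_of_continuousOn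
      hSc.continuousOn
    exact ⟨M, fun v hv => by simpa using hM v (by simpa using hv)⟩
  obtain ⟨M, hM⟩ := hSb
  have iΨ : IntegrableOn Ψ K := hΨc.continuousOn.integrableOn_compact hK
  have iS : ∀ W : EuclideanSpace ℝ (Fin d) → EuclideanSpace ℝ (Fin d), Measurable W →
      (∀ᵐ x ∂(volume.restrict K), ‖W x‖ ≤ RY) → IntegrableOn (fun x => S (W x)) K := by
    intro W hW hWb
    apply bdd_int hK (M := M) (hSc.measurable.comp hW).aestronglyMeasurable
    filter_upwards [hWb] with x hx using hM _ hx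
  have iI : ∀ W : EuclideanSpace ℝ (Fin d) → EuclideanSpace ℝ (Fin d), Measurable W →
      (∀ᵐ x ∂(volume.restrict K), ‖W x‖ ≤ RY) → IntegrableOn (fun x => inner ℝ x (W x)) K := by
    intro W hW hWb
    apply bdd_int hK (M := R * RY)
    · exact (measurable_id.inner hW).aestronglyMeasurable
    · filter_upwards [hWb, ae_restrict_mem hK.measurableSet] with x h1 h2
      exact (abs_real_inner_le_norm _ _).trans (mul_le_mul (hKR x h2) h1 (norm_nonneg _) hR)
  have gapU : ∫ x in K, (Ψ x + S (U x) - inner ℝ x (U x)) ≤ 0 := by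
    apply integral_nonpos_of_ae
    filter_upwards [hUsub] with x hx
    have : S (U x) ≤ inner ℝ x (U x) - Ψ x := by
      apply hSle
      intro x' _
      have := hx x'
      rw [inner_sub_right, real_inner_comm, real_inner_comm x (U x)] at this
      linarith
    simp only [Pi.zero_apply]
    linarith
  have gapT : ∫ x in K, (Ψ x + S (T x) - inner ℝ x (T x)) ≤ 0 := by
    have jT : IntegrableOn (fun x => Ψ x + S (T x)) K := iΨ.add (iS T hT.1 hTb)
    have jU : IntegrableOn (fun x => Ψ x + S (U x)) K := iΨ.add (iS U hUm hUb)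
    rw [integral_sub jT (iI T hT.1 hTb), integral_add iΨ (iS T hT.1 hTb), lT]
    rw [integral_sub jU (iI U hUm hUb), integral_add iΨ (iS U hUm hUb), lU] at gapU
    linarith
  have hnn : 0 ≤ᵐ[volume.restrict K] fun x => Ψ x + S (T x) - inner ℝ x (T x) := by
    filter_upwards [ae_restrict_mem hK.measurableSet] with x hx
    have := hSge (T x) x hx
    simp only [Pi.zero_apply]
    linarith
  have hzero : ∫ x in K, (Ψ x + S (T x) - inner ℝ x (T x)) = 0 :=
    le_antisymm gapT (integral_nonneg_of_ae hnn)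
  rw [integral_eq_zero_iff_of_nonneg_ae hnn
    ((iΨ.add (iS T hT.1 hTb)).sub (iI T hT.1 hTb))] at hzero
  filter_upwards [hzero] with x hx x' hx'
  have h1 := hSge (T x) x' hx'
  simp only [Pi.zero_apply] at hx
  rw [inner_sub_right, real_inner_comm, real_inner_comm x (T x)]
  linarith

end Vale.Agent.P074
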