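import Vale.Agent.P074.LI

open scoped ENNReal NNReal
open MeasureTheory Set Filter Topology

namespace Vale.Agent.P074

variable {d : ℕ}

theorem pot_unique {K : Set (EuclideanSpace ℝ (Fin d))} (hK : IsCompact K) (hKc : Convex ℝ K)
    (hKi : (interior K).Nonempty) {RY : ℝ}
    {T : EuclideanSpace ℝ (Fin d) → EuclideanSpace ℝ (Fin d)}
    (hTb : ∀ᵐ x ∂(volume.restrict K), ‖T x‖ ≤ RY)
    {φ₁ φ₂ : EuclideanSpace ℝ (Fin d) → ℝ} (hc1 : Continuous φ₁) (hc2 : Continuous φ₂)
    (h1 : ∀ᵐ x ∂(volume.restrict K), ∀ x' ∈ K, φ₁ x + inner ℝ (T x) (x' - x) ≤ φ₁ x')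
    (h2 : ∀ᵐ x ∂(volume.restrict K), ∀ x' ∈ K, φ₂ x + inner ℝ (T x) (x' - x) ≤ φ₂ x') :
    ∃ c, ∀ x ∈ K, φ₁ x - φ₂ x = c := by
  set f : EuclideanSpace ℝ (Fin d) → ℝ := fun x => φ₁ x - φ₂ x with hf
  have hfc : Continuous f := hc1.sub hc2
  -- good points
  set P : EuclideanSpace ℝ (Fin d) → Prop := fun x => ‖T x‖ ≤ RY ∧
    (∀ x' ∈ K, φ₁ x + inner ℝ (T x) (x' - x) ≤ φ₁ x') ∧
    (∀ x' ∈ K, φ₂ x + inner ℝ (T x) (x' - x) ≤ φ₂ x') with hP
  have hgood : ∀ᵐ x ∂(volume : Measure (EuclideanSpace ℝ (Fin d))), x ∈ K → P x := by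
    have : ∀ᵐ x ∂(volume.restrict K), P x := by
      filter_upwards [hTb, h1, h2] with x a b c using ⟨a, b, c⟩
    exact (ae_restrict_iff' hK.measurableSet).1 this
  have hshift : ∀ v : EuclideanSpace ℝ (Fin d), ∀ᵐ x ∂(volume : Measure (EuclideanSpace ℝ (Fin d))),
      x + v ∈ K → P (x + v) := by
    intro v
    exact (measurePreserving_add_right volume v).quasiMeasurePreserving.ae hgood
  have step : ∀ x u, x ∈ K → x + u ∈ K → P x → P (x + u) →
      |f (x + u) - f x| ≤ inner ℝ (T (x + u) - T x) u := by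
    intro x u hx hxu p q
    have a1 := p.2.1 _ hxu
    have a2 := p.2.2 _ hxu
    have b1 := q.2.1 _ hx
    have b2 := q.2.2 _ hx
    have e1 : x + u - x = u := by abel
    have e2 : x - (x + u) = -u := by abel
    rw [e1] at a1 a2
    rw [e2, inner_neg_right] at b1 b2
    rw [inner_sub_left, abs_le]
    simp only [hf]
    constructor <;> linarith
  have main : ∀ v : EuclideanSpace ℝ (Fin d), ∀ᵐ x ∂(volume : Measure (EuclideanSpace ℝ (Fin d))),
      x ∈ K → x + v ∈ K → f (x + v) = f x := by
    intro v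
    have hall : ∀ᵐ x ∂(volume : Measure (EuclideanSpace ℝ (Fin d))), ∀ n j : ℕ,
        x + ((j : ℝ) / ((n : ℝ) + 1)) • v ∈ K → P (x + ((j : ℝ) / ((n : ℝ) + 1)) • v) := by
      rw [ae_all_iff]; intro n
      rw [ae_all_iff]; intro j
      exact hshift _
    filter_upwards [hall] with x hx hxK hxvK
    have hbound : ∀ n : ℕ, |f (x + v) - f x| ≤ (2 * RY * ‖v‖) / ((n : ℝ) + 1) := by
      intro n
      have hn : (0:ℝ) < (n:ℝ) + 1 := by positivity
      set p : ℕ → EuclideanSpace ℝ (Fin d) := fun j => x + ((j : ℝ) / ((n : ℝ) + 1)) • v with hp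
      set u := ((1:ℝ) / ((n : ℝ) + 1)) • v with hu
      have hpK : ∀ j, j ≤ n + 1 → p j ∈ K := by
        intro j hj
        have hj' : (j:ℝ) / ((n:ℝ) + 1) ≤ 1 := by
          rw [div_le_one hn]; exact_mod_cast hj
        have hj0 : 0 ≤ (j:ℝ) / ((n:ℝ) + 1) := by positivity
        have : p j = (1 - (j:ℝ) / ((n:ℝ) + 1)) • x + ((j:ℝ) / ((n:ℝ) + 1)) • (x + v) := by
          simp only [hp]; module
        rw [this]
        exact hKc hxK hxvK (by linarith) hj0 (by ring)
      have hps : ∀ j, p (j + 1) = p j + u := by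
        intro j
        simp only [hp, hu]
        rw [add_assoc, ← add_smul]
        congr 2
        push_cast; ring
      have hsum : ∀ m, m ≤ n + 1 → |f (p m) - f (p 0)| ≤ inner ℝ (T (p m) - T (p 0)) u := by
        intro m
        induction m with
        | zero => intro _; simp
        | succ m ih =>
          intro hm
          have i1 := ih (by omega)
          have i2 := step (p m) u (hpK m (by omega)) (by rw [← hps]; exact hpK _ hm)
            (hx n m (hpK m (by omega))) (by rw [← hps]; exact hx n (m+1) (hpK _ hm))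
          rw [← hps] at i2
          calc |f (p (m+1)) - f (p 0)| = |(f (p (m+1)) - f (p m)) + (f (p m) - f (p 0))| := by
                congr 1; ring
            _ ≤ |f (p (m+1)) - f (p m)| + |f (p m) - f (p 0)| := abs_add_le _ _
            _ ≤ inner ℝ (T (p (m+1)) - T (p m)) u + inner ℝ (T (p m) - T (p 0)) u :=
                add_le_add i2 i1
            _ = inner ℝ (T (p (m+1)) - T (p 0)) u := by
                rw [← inner_add_left]; congr 1; abel
      have hfin := hsum (n+1) le_rfl
      have hp0 : p 0 = x := by simp [hp]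
      have hp1 : p (n+1) = x + v := by
        simp only [hp]; push_cast; rw [div_self hn.ne', one_smul]
      have g0 := (hx n 0 (hpK 0 (by omega))).1
      have g1 := (hx n (n+1) (hpK _ le_rfl)).1
      change ‖T (p 0)‖ ≤ RY at g0
      change ‖T (p (n+1))‖ ≤ RY at g1
      have hinner : inner ℝ (T (p (n+1)) - T (p 0)) u ≤ (2 * RY * ‖v‖) / ((n:ℝ) + 1) := by
        calc inner ℝ (T (p (n+1)) - T (p 0)) u ≤ ‖T (p (n+1)) - T (p 0)‖ * ‖u‖ :=
              real_inner_le_norm _ _
          _ ≤ (RY + RY) * ‖u‖ := by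
              gcongr
              exact (norm_sub_le _ _).trans (add_le_add g1 g0)
          _ = (2 * RY * ‖v‖) / ((n:ℝ) + 1) := by
              rw [hu, norm_smul, Real.norm_of_nonneg (by positivity)]; ring
      rw [hp0, hp1] at hfin
      rw [hp0, hp1] at hinner
      exact hfin.trans hinner
    have hz : |f (x + v) - f x| ≤ 0 := by
      have ht : Tendsto (fun n : ℕ => (2 * RY * ‖v‖) / ((n : ℝ) + 1)) atTop (𝓝 0) := by
        have := (tendsto_const_nhds (x := 2 * RY * ‖v‖)).mul tendsto_one_div_add_atTop_nhds_zero_nat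
        simp only [mul_zero] at this
        refine this.congr fun n => ?_
        ring
      exact ge_of_tendsto' ht hbound
    have := abs_nonneg (f (x + v) - f x)
    have h0 : |f (x + v) - f x| = 0 := le_antisymm hz this
    rw [abs_eq_zero] at h0
    linarith
  obtain ⟨x₀, hx₀⟩ := hKi
  refine ⟨f x₀, ?_⟩
  have hint : ∀ x' ∈ interior K, f x' = f x₀ := by
    intro x' hx'
    set v := x' - x₀ with hv
    set U : Set (EuclideanSpace ℝ (Fin d)) := interior K ∩ (fun x => x + v) ⁻¹' (interior K) with hU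
    have hUo : IsOpen U := isOpen_interior.inter (isOpen_interior.preimage (by fun_prop))
    have hae : (fun x => f (x + v)) =ᵐ[volume.restrict U] f := by
      rw [Filter.EventuallyEq, ae_restrict_iff' hUo.measurableSet]
      filter_upwards [main v] with x hx hxU
      exact hx (interior_subset hxU.1) (interior_subset hxU.2)
    have heq := Measure.eqOn_open_of_ae_eq hae hUo (by fun_prop) hfc.continuousOn
    have hx0U : x₀ ∈ U := ⟨hx₀, by simp only [mem_preimage, hv]; rwa [add_sub_cancel]⟩
    have := heq hx0U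
    simp only [hv] at this
    rwa [add_sub_cancel] at this
  have hclosed : IsClosed {x | f x = f x₀} := isClosed_eq hfc continuous_const
  have hsub : closure (interior K) ⊆ {x | f x = f x₀} := hclosed.closure_subset_iff.2 hint
  rw [hKc.closure_interior_eq_closure_of_nonempty_interior ⟨x₀, hx₀⟩] at hsub
  intro x hx
  exact hsub (subset_closure hx)

end Vale.Agent.P074
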