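import Vale.Agent.P074.LJ

open scoped ENNReal NNReal
open MeasureTheory Set Filter Topology

namespace Vale.Agent.P074

variable {d : ℕ}

theorem shrink {K : Set (EuclideanSpace ℝ (Fin d))} (hK : IsCompact K) (hKc : Convex ℝ K)
    {x₀ : EuclideanSpace ℝ (Fin d)} {r : ℝ} (hr : 0 < r) (hball : Metric.closedBall x₀ r ⊆ K)
    {δ : ℝ} (hδ0 : 0 < δ) (hδ1 : δ < 1) :
    ∃ A : Set (EuclideanSpace ℝ (Fin d)), IsCompact A ∧ A ⊆ K ∧
      (∀ x ∈ A, ∀ u : EuclideanSpace ℝ (Fin d), ‖u‖ ≤ δ * r → x + u ∈ K) ∧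
      (∫ x in K, (1:ℝ)) - (∫ x in A, (1:ℝ)) ≤ d * δ * ∫ x in K, (1:ℝ) := by
  set V := ∫ x in K, (1 : ℝ) with hV
  have hV0 : 0 ≤ V := integral_nonneg fun _ => zero_le_one
  set A : Set (EuclideanSpace ℝ (Fin d)) := AffineMap.homothety x₀ (1 - δ) '' K with hA
  have hAc : IsCompact A := hK.image (AffineMap.homothety_continuous x₀ (1 - δ))
  have hshift : ∀ x ∈ A, ∀ u : EuclideanSpace ℝ (Fin d), ‖u‖ ≤ δ * r → x + u ∈ K := by
    rintro _ ⟨k, hk, rfl⟩ u hu
    have h1 : x₀ + (1/δ) • u ∈ K := by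
      apply hball
      rw [Metric.mem_closedBall, dist_eq_norm, add_sub_cancel_left, norm_smul,
        Real.norm_of_nonneg (by positivity), one_div, inv_mul_le_iff₀ hδ0]
      exact hu
    have := hKc hk h1 (show 0 ≤ 1 - δ by linarith) hδ0.le (by ring)
    convert this using 1
    rw [AffineMap.homothety_apply, vsub_eq_sub, vadd_eq_add, smul_add, smul_smul,
      mul_one_div_cancel hδ0.ne', one_smul]
    module
  refine ⟨A, hAc, ?_, hshift, ?_⟩
  · intro x hx
    have := hshift x hx 0 (by rw [norm_zero]; positivity)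
    simpa using this
  · have e1 : ∫ x in A, (1:ℝ) = (1 - δ) ^ d * V := by
      rw [hV, volReal, volReal, hA, Measure.addHaar_image_homothety, ENNReal.toReal_mul,
        finrank_euclideanSpace_fin, ENNReal.toReal_ofReal (abs_nonneg _), abs_of_nonneg
        (pow_nonneg (by linarith) _)]
    rw [e1]
    have e2 : 1 + (d:ℝ) * (-δ) ≤ (1 + (-δ)) ^ d := one_add_mul_le_pow (by linarith) d
    have e3 : (1 + (-δ)) = 1 - δ := by ring
    rw [e3] at e2
    nlinarith

theorem trans_le {K A : Set (EuclideanSpace ℝ (Fin d))} (hK : IsCompact K) (hA : MeasurableSet A)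
    {f : EuclideanSpace ℝ (Fin d) → ℝ} (hfc : Continuous f) (u : EuclideanSpace ℝ (Fin d))
    (hu : ∀ x ∈ A, x + u ∈ K) : ∫ x in A, f (x + u) ^ 2 ≤ ∫ x in K, f x ^ 2 := by
  have hint : Integrable (K.indicator fun x => f x ^ 2) :=
    (integrable_indicator_iff hK.measurableSet).2
      ((by fun_prop : Continuous fun x => f x ^ 2).continuousOn.integrableOn_compact hK)
  have e1 : ∫ x in A, f (x + u) ^ 2 = ∫ x in A, (K.indicator fun x => f x ^ 2) (x + u) := by
    apply setIntegral_congr_fun hA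
    intro x hx
    simp only
    rw [indicator_of_mem (hu x hx)]
  rw [e1]
  calc ∫ x in A, (K.indicator fun x => f x ^ 2) (x + u)
      ≤ ∫ x, (K.indicator fun x => f x ^ 2) (x + u) :=
        setIntegral_le_integral (hint.comp_add_right u)
          (Eventually.of_forall fun x => indicator_nonneg (fun _ _ => sq_nonneg _) _)
    _ = ∫ x, (K.indicator fun x => f x ^ 2) x :=
        integral_add_right_eq_self (fun x => (K.indicator fun x => f x ^ 2) x) u
    _ = _ := by rw [integral_indicator hK.measurableSet]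

theorem second_diff {K A : Set (EuclideanSpace ℝ (Fin d))} (hK : IsCompact K) (hAc : IsCompact A)
    (hAK : A ⊆ K) {G : EuclideanSpace ℝ (Fin d) → ℝ} (hGc : Continuous G) {M : ℝ}
    (hGb : ∀ x, |G x| ≤ M) (v : EuclideanSpace ℝ (Fin d)) (hv : ∀ x ∈ A, x + -v ∈ K) :
    ∫ x in A, (G x - G (x - v)) ≤ 2 * (M * ((∫ x in K, (1:ℝ)) - ∫ x in A, (1:ℝ))) := by
  have hAm := hAc.measurableSet
  set B : Set (EuclideanSpace ℝ (Fin d)) := (fun x => x + v) ⁻¹' A with hB
  have hBm : MeasurableSet B := (measurable_add_const _) hAm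
  have hBK : B ⊆ K := by
    intro x hx
    have := hv (x + v) hx
    simpa using this
  have e1 : ∫ x in A, G (x - v) = ∫ x in B, G x := by
    have : ∫ x in (fun x => x + v) ⁻¹' A, (fun z => G (z - v)) (x + v) =
        ∫ x in A, G (x - v) :=
      (measurePreserving_add_right volume v).setIntegral_preimage_emb
        (measurableEmbedding_addRight _) (fun z => G (z - v)) A
    rw [← this]
    simp only [add_sub_cancel_right]
    rfl
  have vB : ∫ x in B, (1:ℝ) = ∫ x in A, (1:ℝ) := by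
    rw [volReal, volReal, hB, measure_preimage_add_right]
  have e2 : ∫ x in A, (G x - G (x - v)) = (∫ x in A, G x) - ∫ x in B, G x := by
    rw [← e1]
    exact integral_sub (hGc.continuousOn.integrableOn_compact hAc)
      ((by fun_prop : Continuous fun x => G (x - v)).continuousOn.integrableOn_compact hAc)
  have iG : IntegrableOn G K := hGc.continuousOn.integrableOn_compact hK
  have i1 : IntegrableOn (fun _ => (1:ℝ)) K := continuous_const.continuousOn.integrableOn_compact hK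
  have e3 : ∫ x in K \ A, G x = (∫ x in K, G x) - ∫ x in A, G x := setIntegral_sdiff hAm iG hAK
  have e4 : ∫ x in K \ B, G x = (∫ x in K, G x) - ∫ x in B, G x := setIntegral_sdiff hBm iG hBK
  have v3 : ∫ x in K \ A, (1:ℝ) = (∫ x in K, (1:ℝ)) - ∫ x in A, (1:ℝ) := setIntegral_sdiff hAm i1 hAK
  have v4 : ∫ x in K \ B, (1:ℝ) = (∫ x in K, (1:ℝ)) - ∫ x in B, (1:ℝ) := setIntegral_sdiff hBm i1 hBK
  have b3 : ∫ x in K \ A, (-M) * (1:ℝ) ≤ ∫ x in K \ A, G x := by
    apply setIntegral_mono ((i1.mono_set sdiff_subset).const_mul _) (iG.mono_set sdiff_subset)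
    intro x
    have := (abs_le.1 (hGb x)).1
    change (-M) * 1 ≤ G x
    linarith
  have b4 : ∫ x in K \ B, G x ≤ ∫ x in K \ B, M * (1:ℝ) := by
    apply setIntegral_mono (iG.mono_set sdiff_subset) ((i1.mono_set sdiff_subset).const_mul _)
    intro x
    have := (abs_le.1 (hGb x)).2
    change G x ≤ M * 1
    linarith
  rw [integral_const_mul, v3] at b3
  rw [integral_const_mul, v4, vB] at b4
  rw [e2]
  linarith

theorem num4 {p q r s : ℝ} : (p + q + r + s) ^ 2 ≤ 4 * (p ^ 2 + q ^ 2 + r ^ 2 + s ^ 2) := by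
  nlinarith [sq_nonneg (p - q), sq_nonneg (p - r), sq_nonneg (p - s), sq_nonneg (q - r),
    sq_nonneg (q - s), sq_nonneg (r - s)]

theorem pt_bound {hD fp f0 fm S c : ℝ} (u1 : hD ≤ (fp - f0) + S) (u2 : -hD ≤ (fm - f0) + S)
    (hS0 : 0 ≤ S) (hSle : S ≤ c) :
    hD ^ 2 ≤ 4 * (fp ^ 2 + f0 ^ 2 + fm ^ 2) + 4 * c * S := by
  have habs : |hD| ≤ |fp| + |f0| + |fm| + S := by
    rw [abs_le]
    have p1 := le_abs_self fp
    have p2 := neg_abs_le f0
    have p3 := le_abs_self fm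
    have q1 := abs_nonneg fp
    have q3 := abs_nonneg fm
    constructor <;> linarith
  have hsq : hD ^ 2 ≤ (|fp| + |f0| + |fm| + S) ^ 2 := by
    rw [← sq_abs]; gcongr
  have h4 := num4 (p := |fp|) (q := |f0|) (r := |fm|) (s := S)
  rw [sq_abs, sq_abs, sq_abs] at h4
  have hS2 : S ^ 2 ≤ c * S := by nlinarith
  linarith

theorem interp_dir {K : Set (EuclideanSpace ℝ (Fin d))} (hK : IsCompact K) (hKc : Convex ℝ K)
    {x₀ : EuclideanSpace ℝ (Fin d)} {r : ℝ} (hr : 0 < r) (hball : Metric.closedBall x₀ r ⊆ K)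
    {RY : ℝ} (hRY : 0 ≤ RY)
    {φ₁ φ₂ : EuclideanSpace ℝ (Fin d) → ℝ} (hc1 : Continuous φ₁) (hc2 : Continuous φ₂)
    (hl2 : ∀ x y, |φ₂ x - φ₂ y| ≤ RY * ‖x - y‖)
    {T₁ T₂ : EuclideanSpace ℝ (Fin d) → EuclideanSpace ℝ (Fin d)}
    (hm1 : Measurable T₁) (hm2 : Measurable T₂)
    (hb1 : ∀ᵐ x ∂(volume.restrict K), ‖T₁ x‖ ≤ RY) (hb2 : ∀ᵐ x ∂(volume.restrict K), ‖T₂ x‖ ≤ RY)
    (h1 : ∀ᵐ x ∂(volume.restrict K), ∀ x' ∈ K, φ₁ x + inner ℝ (T₁ x) (x' - x) ≤ φ₁ x')
    (h2 : ∀ᵐ x ∂(volume.restrict K), ∀ x' ∈ K, φ₂ x + inner ℝ (T₂ x) (x' - x) ≤ φ₂ x')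
    (c : ℝ) {δ : ℝ} (hδ0 : 0 < δ) (hδ1 : δ < 1) (e : EuclideanSpace ℝ (Fin d)) (he : ‖e‖ = 1) :
    ∫ x in K, (inner ℝ (T₁ x - T₂ x) e) ^ 2 ≤
      12 / (δ * r) ^ 2 * (∫ x in K, (φ₁ x - φ₂ x - c) ^ 2) +
        20 * RY ^ 2 * (d * δ * ∫ x in K, (1 : ℝ)) := by
  obtain ⟨A, hAc, hAK, hshift, hVA⟩ := shrink hK hKc hr hball hδ0 hδ1
  set h := δ * r with hh
  have hh0 : 0 < h := by positivity
  have hhe : ‖h • e‖ ≤ h := by rw [norm_smul, he, mul_one, Real.norm_of_nonneg hh0.le]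
  have hhe' : ‖-(h • e)‖ ≤ h := by rw [norm_neg]; exact hhe
  set V := ∫ x in K, (1 : ℝ) with hV
  have hAm : MeasurableSet A := hAc.measurableSet
  set Q := ∫ x in K, (φ₁ x - φ₂ x - c) ^ 2 with hQ
  set f : EuclideanSpace ℝ (Fin d) → ℝ := fun x => φ₁ x - φ₂ x - c with hf
  have hfc : Continuous f := by fun_prop
  set G : EuclideanSpace ℝ (Fin d) → ℝ := fun x => φ₂ (x + h • e) - φ₂ x with hG
  have hGc : Continuous G := by fun_prop
  have hGb : ∀ x, |G x| ≤ RY * h := by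
    intro x
    have := hl2 (x + h • e) x
    rw [add_sub_cancel_left, norm_smul, he, mul_one, Real.norm_of_nonneg hh0.le] at this
    exact this
  set S : EuclideanSpace ℝ (Fin d) → ℝ := fun x => G x - G (x - h • e) with hS
  have hSc : Continuous S := by fun_prop
  have hSexp : ∀ x, S x = φ₂ (x + h • e) - 2 * φ₂ x + φ₂ (x + -(h • e)) := by
    intro x; simp only [hS, hG, sub_add_cancel, sub_eq_add_neg]
    simp only [neg_add_cancel_right]; ring
  have hSint : ∫ x in A, S x ≤ 2 * (RY * h * (d * δ * V)) := by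
    have := second_diff hK hAc hAK hGc hGb (h • e) (fun x hx => hshift x hx _ hhe')
    refine this.trans ?_
    have hRh : 0 ≤ RY * h := by positivity
    gcongr
  set D : EuclideanSpace ℝ (Fin d) → ℝ := fun x => inner ℝ (T₁ x - T₂ x) e with hD
  have hDm : Measurable D := (hm1.sub hm2).inner measurable_const
  have hDb : ∀ᵐ x ∂(volume.restrict K), D x ^ 2 ≤ 4 * RY ^ 2 := by
    filter_upwards [hb1, hb2] with x a b
    have : |D x| ≤ 2 * RY := by
      calc |D x| ≤ ‖T₁ x - T₂ x‖ * ‖e‖ := abs_real_inner_le_norm _ _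
        _ ≤ 2 * RY := by rw [he, mul_one]; linarith [norm_sub_le (T₁ x) (T₂ x)]
    rw [← sq_abs]
    calc |D x| ^ 2 ≤ (2 * RY) ^ 2 := by gcongr
      _ = _ := by ring
  have hDint : IntegrableOn (fun x => D x ^ 2) K := by
    refine bdd_int hK (M := 4 * RY ^ 2) (hDm.pow_const 2).aestronglyMeasurable ?_
    filter_upwards [hDb] with x hx
    rw [abs_of_nonneg (sq_nonneg _)]; exact hx
  have hpt : ∀ᵐ x ∂(volume.restrict A), (h * D x) ^ 2 ≤
      4 * (f (x + h • e) ^ 2 + f x ^ 2 + f (x + -(h • e)) ^ 2) + 4 * (2 * RY * h) * S x := by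
    have r1 := ae_restrict_of_ae_restrict_of_subset hAK h1
    have r2 := ae_restrict_of_ae_restrict_of_subset hAK h2
    filter_upwards [r1, r2, ae_restrict_mem hAm] with x s1 s2 hxA
    have hp : x + h • e ∈ K := hshift x hxA _ hhe
    have hn : x + -(h • e) ∈ K := hshift x hxA _ hhe'
    have a1 := s1 _ hp
    have a2 := s1 _ hn
    have c1 := s2 _ hp
    have c2 := s2 _ hn
    rw [add_sub_cancel_left, real_inner_smul_right] at a1 c1
    rw [add_sub_cancel_left, inner_neg_right, real_inner_smul_right] at a2 c2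
    have hSx := hSexp x
    have hDx : h * D x = h * inner ℝ (T₁ x) e - h * inner ℝ (T₂ x) e := by
      simp only [hD, inner_sub_left]; ring
    apply pt_bound
    · rw [hDx, hSx]; simp only [hf]; linarith
    · rw [hDx, hSx]; simp only [hf]; linarith
    · rw [hSx]; linarith
    · have g1 := (abs_le.1 (hGb x)).2
      have g2 := (abs_le.1 (hGb (x - h • e))).1
      simp only [hS]; linarith
  have hAint : h ^ 2 * ∫ x in A, D x ^ 2 ≤ 4 * (3 * Q) + 4 * (2 * RY * h) * (2 * (RY * h * (d * δ * V))) := by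
    have cont1 : IntegrableOn (fun x => f (x + h • e) ^ 2) A :=
      (by fun_prop : Continuous fun x => f (x + h • e) ^ 2).continuousOn.integrableOn_compact hAc
    have cont2 : IntegrableOn (fun x => f x ^ 2) A :=
      (by fun_prop : Continuous fun x => f x ^ 2).continuousOn.integrableOn_compact hAc
    have cont3 : IntegrableOn (fun x => f (x + -(h • e)) ^ 2) A :=
      (by fun_prop : Continuous fun x => f (x + -(h • e)) ^ 2).continuousOn.integrableOn_compact hAc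
    have cont4 : IntegrableOn S A := hSc.continuousOn.integrableOn_compact hAc
    have c12 : IntegrableOn (fun x => f (x + h • e) ^ 2 + f x ^ 2) A := cont1.add cont2
    have c123 : IntegrableOn (fun x => f (x + h • e) ^ 2 + f x ^ 2 + f (x + -(h • e)) ^ 2) A :=
      c12.add cont3
    have em : ∀ x, (h * D x) ^ 2 = h ^ 2 * D x ^ 2 := fun x => mul_pow _ _ _
    simp_rw [em] at hpt
    rw [← integral_const_mul]
    calc ∫ x in A, h ^ 2 * D x ^ 2
        ≤ ∫ x in A, (4 * (f (x + h • e) ^ 2 + f x ^ 2 + f (x + -(h • e)) ^ 2) +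
            4 * (2 * RY * h) * S x) :=
          integral_mono_ae ((hDint.mono_set hAK).const_mul _)
            ((c123.const_mul 4).add (cont4.const_mul _)) hpt
      _ = 4 * ((∫ x in A, f (x + h • e) ^ 2) + (∫ x in A, f x ^ 2) +
            ∫ x in A, f (x + -(h • e)) ^ 2) + 4 * (2 * RY * h) * ∫ x in A, S x := by
          rw [integral_add (c123.const_mul 4) (cont4.const_mul _), integral_const_mul,
            integral_const_mul, integral_add c12 cont3, integral_add cont1 cont2]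
      _ ≤ _ := by
          have t1 := trans_le hK hAm hfc (h • e) (fun x hx => hshift x hx _ hhe)
          have t2 := trans_le hK hAm hfc 0 (fun x hx => by rw [add_zero]; exact hAK hx)
          have t3 := trans_le hK hAm hfc (-(h • e)) (fun x hx => hshift x hx _ hhe')
          simp only [add_zero] at t2
          have t4 := mul_le_mul_of_nonneg_left hSint (show 0 ≤ 4 * (2 * RY * h) by positivity)
          linarith
  have hKA : ∫ x in K \ A, D x ^ 2 ≤ 4 * RY ^ 2 * (d * δ * V) := by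
    have i1 : IntegrableOn (fun _ : EuclideanSpace ℝ (Fin d) => (1:ℝ)) K :=
      continuous_const.continuousOn.integrableOn_compact hK
    have v3 : ∫ x in K \ A, (1:ℝ) = V - ∫ x in A, (1:ℝ) := setIntegral_sdiff hAm i1 hAK
    calc ∫ x in K \ A, D x ^ 2 ≤ ∫ x in K \ A, 4 * RY ^ 2 * (1:ℝ) := by
          apply integral_mono_ae (hDint.mono_set sdiff_subset)
            ((i1.mono_set sdiff_subset).const_mul _)
          have := ae_restrict_of_ae_restrict_of_subset (sdiff_subset : K \ A ⊆ K) hDb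
          filter_upwards [this] with x hx
          linarith
      _ = 4 * RY ^ 2 * (V - ∫ x in A, (1:ℝ)) := by rw [integral_const_mul, v3]
      _ ≤ _ := by gcongr
  have hsplit : ∫ x in K, D x ^ 2 = (∫ x in A, D x ^ 2) + ∫ x in K \ A, D x ^ 2 := by
    rw [setIntegral_sdiff hAm hDint hAK]; ring
  rw [hsplit]
  have hAfin : ∫ x in A, D x ^ 2 ≤ 12 / h ^ 2 * Q + 16 * RY ^ 2 * (d * δ * V) := by
    have hh2 : 0 < h ^ 2 := by positivity
    have : h ^ 2 * ∫ x in A, D x ^ 2 ≤ h ^ 2 * (12 / h ^ 2 * Q + 16 * RY ^ 2 * (d * δ * V)) := by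
      refine hAint.trans (le_of_eq ?_)
      field_simp
      ring
    exact le_of_mul_le_mul_left this hh2
  linarith

theorem interp {K : Set (EuclideanSpace ℝ (Fin d))} (hK : IsCompact K) (hKc : Convex ℝ K)
    {x₀ : EuclideanSpace ℝ (Fin d)} {r : ℝ} (hr : 0 < r) (hball : Metric.closedBall x₀ r ⊆ K)
    {RY : ℝ} (hRY : 0 ≤ RY)
    {φ₁ φ₂ : EuclideanSpace ℝ (Fin d) → ℝ} (hc1 : Continuous φ₁) (hc2 : Continuous φ₂)
    (hl2 : ∀ x y, |φ₂ x - φ₂ y| ≤ RY * ‖x - y‖)
    {T₁ T₂ : EuclideanSpace ℝ (Fin d) → EuclideanSpace ℝ (Fin d)}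
    (hm1 : Measurable T₁) (hm2 : Measurable T₂)
    (hb1 : ∀ᵐ x ∂(volume.restrict K), ‖T₁ x‖ ≤ RY) (hb2 : ∀ᵐ x ∂(volume.restrict K), ‖T₂ x‖ ≤ RY)
    (h1 : ∀ᵐ x ∂(volume.restrict K), ∀ x' ∈ K, φ₁ x + inner ℝ (T₁ x) (x' - x) ≤ φ₁ x')
    (h2 : ∀ᵐ x ∂(volume.restrict K), ∀ x' ∈ K, φ₂ x + inner ℝ (T₂ x) (x' - x) ≤ φ₂ x')
    (c : ℝ) {δ : ℝ} (hδ0 : 0 < δ) (hδ1 : δ < 1) :
    ∫ x in K, ‖T₁ x - T₂ x‖ ^ 2 ≤
      d * (12 / (δ * r) ^ 2 * (∫ x in K, (φ₁ x - φ₂ x - c) ^ 2) +
        20 * RY ^ 2 * (d * δ * ∫ x in K, (1 : ℝ))) := by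
  have e1 : ∀ x, ‖T₁ x - T₂ x‖ ^ 2 =
      ∑ i : Fin d, (inner ℝ (T₁ x - T₂ x) (EuclideanSpace.single i (1:ℝ))) ^ 2 := by
    intro x
    rw [EuclideanSpace.real_norm_sq_eq]
    apply Finset.sum_congr rfl
    intro i _
    simp [EuclideanSpace.inner_single_right]
  simp_rw [e1]
  rw [integral_finsetSum]
  · calc ∑ i : Fin d, ∫ x in K, (inner ℝ (T₁ x - T₂ x) (EuclideanSpace.single i (1:ℝ))) ^ 2
        ≤ ∑ i : Fin d, (12 / (δ * r) ^ 2 * (∫ x in K, (φ₁ x - φ₂ x - c) ^ 2) +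
        20 * RY ^ 2 * (d * δ * ∫ x in K, (1 : ℝ))) :=
          Finset.sum_le_sum fun i _ => interp_dir hK hKc hr hball hRY hc1 hc2 hl2 hm1 hm2 hb1 hb2
            h1 h2 c hδ0 hδ1 _ (by simp)
      _ = _ := by rw [Finset.sum_const, Finset.card_univ, Fintype.card_fin, nsmul_eq_mul]
  · intro i _
    refine bdd_int hK (M := (2 * RY) ^ 2) ?_ ?_
    · exact (((hm1.sub hm2).inner measurable_const).pow_const 2).aestronglyMeasurable
    · filter_upwards [hb1, hb2] with x a b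
      rw [abs_of_nonneg (sq_nonneg _), ← sq_abs]
      have : |inner ℝ (T₁ x - T₂ x) (EuclideanSpace.single i (1:ℝ))| ≤ 2 * RY := by
        calc _ ≤ ‖T₁ x - T₂ x‖ * ‖(EuclideanSpace.single i (1:ℝ) : EuclideanSpace ℝ (Fin d))‖ :=
              abs_real_inner_le_norm _ _
          _ ≤ 2 * RY := by
              simp only [PiLp.norm_single, norm_one, mul_one]
              linarith [norm_sub_le (T₁ x) (T₂ x)]
      gcongr

end Vale.Agent.P074
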