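import Vale.Agent.P074.LH

open scoped ENNReal NNReal
open MeasureTheory Set Filter Topology

namespace Vale.Agent.P074

variable {d : ℕ}

open scoped Classical in
theorem disc {α β : Type} [MeasurableSpace α] [MeasurableSpace β]
    (π : Measure α) [IsProbabilityMeasure π] (Q : SimpleFunc α β) {V : ℝ} (hV : 0 < V)
    {P : β → Prop} (hP : ∀ᵐ a ∂π, P (Q a)) :
    ∃ (ι : Type) (_ : Fintype ι) (_ : Nonempty ι) (p : ι → β) (w : ι → ℝ), (∀ k, 0 < w k) ∧
      (∀ k, P (p k)) ∧ ∀ F : β → ℝ, ∑ k, w k * F (p k) = V * ∫ a, F (Q a) ∂π := by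
  set S := Q.range.filter (fun b => 0 < π.real (Q ⁻¹' {b})) with hS
  have hint : ∀ F : β → ℝ, ∫ a, F (Q a) ∂π = ∑ b ∈ Q.range, π.real (Q ⁻¹' {b}) * F b := by
    intro F
    have h1 : ∀ a, F (Q a) = ∑ b ∈ Q.range, (Q ⁻¹' {b}).indicator (fun _ => F b) a := by
      intro a
      rw [Finset.sum_eq_single (Q a)]
      · rw [indicator_of_mem (by simp)]
      · intro b _ hb
        rw [indicator_of_notMem]
        intro h; exact hb (by simpa using h.symm)
      · intro h; exact absurd (SimpleFunc.mem_range_self Q a) h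
    simp_rw [h1]
    rw [integral_finsetSum]
    · apply Finset.sum_congr rfl
      intro b _
      rw [integral_indicator_const _ (Q.measurableSet_fiber b), smul_eq_mul]
    · intro b _
      exact (integrable_const _).indicator (Q.measurableSet_fiber b)
  have hfil : ∀ F : β → ℝ, ∑ b ∈ S, π.real (Q ⁻¹' {b}) * F b = ∫ a, F (Q a) ∂π := by
    intro F
    rw [hint F, hS, Finset.sum_filter]
    apply Finset.sum_congr rfl
    intro b _
    split_ifs with hb
    · rfl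
    · have : π.real (Q ⁻¹' {b}) = 0 := le_antisymm (not_lt.1 hb) measureReal_nonneg
      rw [this, zero_mul]
  have hne : S.Nonempty := by
    by_contra hemp
    rw [Finset.not_nonempty_iff_eq_empty] at hemp
    have := hfil (fun _ => 1)
    rw [hemp] at this
    simp at this
  refine ⟨↥S, inferInstance, hne.to_subtype, Subtype.val, fun k => V * π.real (Q ⁻¹' {k.1}), ?_, ?_, ?_⟩
  · rintro ⟨b, hb⟩
    have := (Finset.mem_filter.1 hb).2
    positivity
  · rintro ⟨b, hb⟩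
    have hpos := (Finset.mem_filter.1 hb).2
    by_contra hnP
    have hsub : Q ⁻¹' {b} ⊆ {a | ¬ P (Q a)} := by
      intro a ha
      have : Q a = b := ha
      simp only [mem_ofPred_eq, this]; exact hnP
    have h0 : π (Q ⁻¹' {b}) = 0 := measure_mono_null hsub (ae_iff.1 hP)
    rw [measureReal_def, h0] at hpos
    simp at hpos
  · intro F
    rw [← hfil F, Finset.mul_sum, ← Finset.sum_coe_sort S]
    apply Finset.sum_congr rfl
    intro k _
    ring

theorem phi_lip {ι : Type} [Fintype ι] [Nonempty ι] {y : ι → EuclideanSpace ℝ (Fin d)} {L : ℝ}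
    (hy : ∀ k, ‖y k‖ ≤ L) (a : ι → ℝ) (x x' : EuclideanSpace ℝ (Fin d)) :
    |phi y a x - phi y a x'| ≤ L * ‖x - x'‖ := by
  have key : ∀ x x', phi y a x ≤ phi y a x' + L * ‖x - x'‖ := by
    intro x x'
    apply phi_le
    intro k
    have h1 := le_phi y a x' k
    have h2 : inner ℝ x (y k) - inner ℝ x' (y k) ≤ L * ‖x - x'‖ := by
      rw [← inner_sub_left]
      calc inner ℝ (x - x') (y k) ≤ ‖x - x'‖ * ‖y k‖ := real_inner_le_norm _ _
        _ ≤ ‖x - x'‖ * L := by gcongr; exact hy k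
        _ = _ := mul_comm _ _
    linarith
  rw [abs_le]
  constructor
  · have := key x' x; rw [norm_sub_rev] at this; linarith
  · linarith [key x x']

theorem phi_sub {K : Set (EuclideanSpace ℝ (Fin d))} {ι : Type} [Fintype ι] [Nonempty ι]
    {y : ι → EuclideanSpace ℝ (Fin d)} {a : ι → ℝ}
    {x : EuclideanSpace ℝ (Fin d)} {k : ι} (hx : x ∈ cell K y a k) (x' : EuclideanSpace ℝ (Fin d)) :
    phi y a x + inner ℝ (y k) (x' - x) ≤ phi y a x' := by
  rw [phi_on_cell hx, inner_sub_right, real_inner_comm x', real_inner_comm x]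
  have := le_phi y a x' k
  linarith

/-- The approximate solution at one level of discretization, with all index types removed. -/
theorem approx {K : Set (EuclideanSpace ℝ (Fin d))}
    (hK : IsCompact K) (hKc : Convex ℝ K) {R : ℝ} (hR : 0 < R) (hKR : ∀ x ∈ K, ‖x‖ ≤ R)
    (hV : 0 < ∫ x in K, (1 : ℝ))
    {ζ : EuclideanSpace ℝ (Fin d) → ℝ} (hζ : Continuous ζ) (hζ0 : ∫ x in K, ζ x = 0) {s : ℝ}
    (hs0 : 0 < s) (hs : ∀ x ∈ K, |s * ζ x| ≤ 1 / 2)
    (π : Measure (EuclideanSpace ℝ (Fin d) × EuclideanSpace ℝ (Fin d))) [IsProbabilityMeasure π]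
    (q : SimpleFunc (EuclideanSpace ℝ (Fin d)) (EuclideanSpace ℝ (Fin d))) {L : ℝ} (hL : 0 ≤ L)
    (hb : ∀ᵐ a ∂π, ‖q a.1‖ ≤ L ∧ ‖q a.2‖ ≤ L) :
    ∃ (Φ Ψ : EuclideanSpace ℝ (Fin d) → ℝ)
      (τ τ' : EuclideanSpace ℝ (Fin d) → EuclideanSpace ℝ (Fin d)),
      (∀ x y, |Φ x - Φ y| ≤ L * ‖x - y‖) ∧ Φ 0 = 0 ∧
      (∀ x y, |Ψ x - Ψ y| ≤ L * ‖x - y‖) ∧ Ψ 0 = 0 ∧ Measurable τ ∧ Measurable τ' ∧
      (∀ᵐ x ∂(volume.restrict K), ‖τ x‖ ≤ L ∧ ∀ x', Φ x + inner ℝ (τ x) (x' - x) ≤ Φ x') ∧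
      (∀ᵐ x ∂(volume.restrict K), ‖τ' x‖ ≤ L ∧ ∀ x', Ψ x + inner ℝ (τ' x) (x' - x) ≤ Ψ x') ∧
      (∀ F : EuclideanSpace ℝ (Fin d) → ℝ, Continuous F →
        ∫ x in K, F (τ x) * (1 + s * ζ x) = (∫ x in K, (1 : ℝ)) * ∫ a, F (q a.1) ∂π) ∧
      (∀ F : EuclideanSpace ℝ (Fin d) → ℝ, Continuous F →
        ∫ x in K, F (τ' x) * 1 = (∫ x in K, (1 : ℝ)) * ∫ a, F (q a.2) ∂π) ∧
      ∫ x in K, Φ x * ζ x ≤ (∫ x in K, Ψ x * ζ x) +
        Real.sqrt (d * 591364) * R * Real.sqrt (∫ x in K, ζ x ^ 2) *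
        Real.sqrt ((∫ x in K, (1 : ℝ)) * ∫ a, ‖q a.2 - q a.1‖ ^ 2 ∂π) := by
  set Q : SimpleFunc (EuclideanSpace ℝ (Fin d) × EuclideanSpace ℝ (Fin d))
      (EuclideanSpace ℝ (Fin d) × EuclideanSpace ℝ (Fin d)) :=
    (q.comp Prod.fst measurable_fst).pair (q.comp Prod.snd measurable_snd) with hQ
  obtain ⟨ι, hι, hne, p, w, hw0, hpb, hlaw⟩ := disc π Q hV
    (P := fun b => ‖b.1‖ ≤ L ∧ ‖b.2‖ ≤ L) hb
  set y : ι → EuclideanSpace ℝ (Fin d) := fun k => (p k).1 with hy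
  set z : ι → EuclideanSpace ℝ (Fin d) := fun k => (p k).2 with hz
  have hyL : ∀ k, ‖y k‖ ≤ L := fun k => (hpb k).1
  have hzL : ∀ k, ‖z k‖ ≤ L := fun k => (hpb k).2
  have hw : ∑ k, w k = ∫ x in K, (1 : ℝ) := by
    have := hlaw (fun _ => 1)
    simpa using this
  obtain ⟨-, a1, -, β1, -, τ1, -, h1, -⟩ := exists_pair hK hKc hR hKR hL y hyL w hw0 hw hζ hζ0 s hs
  obtain ⟨a0, -, β0, -, τ0, -, h0, -, -⟩ := exists_pair hK hKc hR hKR hL z hzL w hw0 hw hζ hζ0 s hs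
  have hest := potential_est hK hKc hR hKR y z w hw0 hw hζ hζ0 hs0 hs h1 h0
  have hsum : ∑ k, w k * ‖z k - y k‖ ^ 2 = (∫ x in K, (1 : ℝ)) * ∫ a, ‖q a.2 - q a.1‖ ^ 2 ∂π :=
    hlaw (fun b => ‖b.2 - b.1‖ ^ 2)
  rw [hsum] at hest
  have cy := phi_cont y a1
  have cz := phi_cont z a0
  refine ⟨fun x => phi y a1 x - phi y a1 0, fun x => phi z a0 x - phi z a0 0, τ1, τ0,
    ?_, by simp, ?_, by simp, h1.mea, h0.mea, ?_, ?_, ?_, ?_, ?_⟩
  · intro x x'
    have := phi_lip hyL a1 x x'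
    simpa using this
  · intro x x'
    have := phi_lip hzL a0 x x'
    simpa using this
  · filter_upwards [h1.sel] with x hx
    obtain ⟨k, hk, hc⟩ := hx
    rw [hk]
    refine ⟨hyL k, fun x' => ?_⟩
    have := phi_sub hc x'
    linarith
  · filter_upwards [h0.sel] with x hx
    obtain ⟨k, hk, hc⟩ := hx
    rw [hk]
    refine ⟨hzL k, fun x' => ?_⟩
    have := phi_sub hc x'
    linarith
  · intro F hF
    rw [h1.law F hF]
    exact hlaw (fun b => F b.1)
  · intro F hF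
    rw [h0.law F hF]
    exact hlaw (fun b => F b.2)
  · have e1 : ∫ x in K, (phi y a1 x - phi y a1 0) * ζ x = ∫ x in K, phi y a1 x * ζ x := by
      simp_rw [sub_mul]
      rw [integral_sub (intOn hK subset_rfl (by fun_prop)) (intOn hK subset_rfl (by fun_prop)),
        integral_const_mul, hζ0]; ring
    have e2 : ∫ x in K, (phi z a0 x - phi z a0 0) * ζ x = ∫ x in K, phi z a0 x * ζ x := by
      simp_rw [sub_mul]
      rw [integral_sub (intOn hK subset_rfl (by fun_prop)) (intOn hK subset_rfl (by fun_prop)),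
        integral_const_mul, hζ0]; ring
    rw [e1, e2]
    exact hest

end Vale.Agent.P074
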