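import Vale.Agent.P074.LM
import Vale.Agent.P074.LJ
import Vale.Agent.P074.LK

open scoped ENNReal NNReal
open MeasureTheory Set Filter Topology

namespace Vale.Agent.P074

variable {d : ℕ}

theorem ae_bound_of_map {K : Set (EuclideanSpace ℝ (Fin d))} (hK : IsCompact K)
    {μ : Measure (EuclideanSpace ℝ (Fin d))}
    {T : EuclideanSpace ℝ (Fin d) → EuclideanSpace ℝ (Fin d)} (hT : Measurable T)
    (hmap : (unif K).map T = μ) {RY : ℝ} (hμ : ∀ᵐ y ∂μ, ‖y‖ ≤ RY) :
    ∀ᵐ x ∂(volume.restrict K), ‖T x‖ ≤ RY := by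
  rw [← hmap] at hμ
  have h1 := ae_of_ae_map hT.aemeasurable hμ
  unfold unif at h1
  rw [Measure.ae_ennreal_smul_measure_iff (ENNReal.inv_ne_zero.2 hK.measure_lt_top.ne)] at h1
  exact h1

theorem lip_cont {L : ℝ} (hL : 0 ≤ L) {Φ : EuclideanSpace ℝ (Fin d) → ℝ}
    (h : ∀ x y, |Φ x - Φ y| ≤ L * ‖x - y‖) : Continuous Φ := by
  have : LipschitzWith (Real.toNNReal L) Φ := by
    apply LipschitzWith.of_dist_le_mul
    intro x y
    rw [Real.dist_eq, dist_eq_norm, Real.coe_toNNReal _ hL]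
    exact h x y
  exact this.continuous

/-- Explicit Lipschitz bound for the limit potentials. -/
noncomputable def LB (d : ℕ) (RY : ℝ) : ℝ :=
  2 * RY + ‖TopologicalSpace.denseSeq (EuclideanSpace ℝ (Fin d)) 0‖

theorem limit_pair {K : Set (EuclideanSpace ℝ (Fin d))} (hK : IsCompact K) (hKc : Convex ℝ K)
    (hKne : K.Nonempty) {R : ℝ} (hR : 0 < R) (hKR : ∀ x ∈ K, ‖x‖ ≤ R)
    (hV : 0 < ∫ x in K, (1 : ℝ)) {RY : ℝ} (hRY : 0 ≤ RY)
    {μ ν : Measure (EuclideanSpace ℝ (Fin d))} [IsProbabilityMeasure μ] [IsProbabilityMeasure ν]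
    (hμ : ∀ᵐ y ∂μ, ‖y‖ ≤ RY) (hν : ∀ᵐ y ∂ν, ‖y‖ ≤ RY)
    {T S : EuclideanSpace ℝ (Fin d) → EuclideanSpace ℝ (Fin d)}
    (hT : IsOptimalMap (unif K) μ T) (hS : IsOptimalMap (unif K) ν S)
    {π : Measure (EuclideanSpace ℝ (Fin d) × EuclideanSpace ℝ (Fin d))}
    (hπ1 : π.map Prod.fst = μ) (hπ2 : π.map Prod.snd = ν)
    {ζ : EuclideanSpace ℝ (Fin d) → ℝ} (hζ : Continuous ζ) (hζ0 : ∫ x in K, ζ x = 0) :
    ∃ (Φ Ψ : EuclideanSpace ℝ (Fin d) → ℝ),
      (∀ x y, |Φ x - Φ y| ≤ LB d RY * ‖x - y‖) ∧ (∀ x y, |Ψ x - Ψ y| ≤ LB d RY * ‖x - y‖) ∧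
      (∀ᵐ x ∂(volume.restrict K), ∀ x' ∈ K, Φ x + inner ℝ (T x) (x' - x) ≤ Φ x') ∧
      (∀ᵐ x ∂(volume.restrict K), ∀ x' ∈ K, Ψ x + inner ℝ (S x) (x' - x) ≤ Ψ x') ∧
      ∫ x in K, Φ x * ζ x ≤ (∫ x in K, Ψ x * ζ x) +
        Real.sqrt (d * 591364) * R * Real.sqrt (∫ x in K, ζ x ^ 2) *
        Real.sqrt ((∫ x in K, (1 : ℝ)) * ∫ a, ‖a.2 - a.1‖ ^ 2 ∂π) := by
  have hπp : IsProbabilityMeasure π := by
    refine ⟨?_⟩
    have : μ univ = 1 := measure_univ
    rw [← hπ1, Measure.map_apply measurable_fst MeasurableSet.univ] at this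
    simpa using this
  set e := TopologicalSpace.denseSeq (EuclideanSpace ℝ (Fin d)) with he
  set L := 2 * RY + ‖e 0‖ with hL
  have hL0 : 0 ≤ L := by positivity
  have hRL : RY ≤ L := by have := norm_nonneg (e 0); linarith
  set q : ℕ → SimpleFunc (EuclideanSpace ℝ (Fin d)) (EuclideanSpace ℝ (Fin d)) :=
    fun n => SimpleFunc.nearestPt e n with hq
  have hqb : ∀ n y, ‖y‖ ≤ RY → ‖q n y‖ ≤ L := by
    intro n y hy
    have h1 := SimpleFunc.edist_nearestPt_le e y (Nat.zero_le n)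
    rw [edist_dist, edist_dist, ENNReal.ofReal_le_ofReal_iff dist_nonneg, dist_eq_norm,
      dist_eq_norm] at h1
    have h2 : ‖q n y‖ ≤ ‖q n y - y‖ + ‖y‖ := by
      have := norm_add_le (q n y - y) y
      rwa [sub_add_cancel] at this
    have h3 := norm_sub_le (e 0) y
    have h4 : ‖q n y - y‖ ≤ ‖e 0 - y‖ := h1
    linarith
  have hqlim : ∀ y, Tendsto (fun n => q n y) atTop (𝓝 y) := by
    intro y
    apply SimpleFunc.tendsto_nearestPt
    exact (TopologicalSpace.denseRange_denseSeq _) y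
  have hae1 : ∀ᵐ a ∂π, ‖a.1‖ ≤ RY := by
    rw [← hπ1] at hμ; exact ae_of_ae_map measurable_fst.aemeasurable hμ
  have hae2 : ∀ᵐ a ∂π, ‖a.2‖ ≤ RY := by
    rw [← hπ2] at hν; exact ae_of_ae_map measurable_snd.aemeasurable hν
  obtain ⟨B, hB⟩ := hK.exists_bound_of_continuousOn hζ.continuousOn
  have hB0 : 0 ≤ B := by
    obtain ⟨x, hx⟩ := hKne
    exact (norm_nonneg _).trans (hB x hx)
  set s : ℕ → ℝ := fun n => 1 / (2 * (B + 1) * ((n:ℝ) + 1)) with hs
  have hs0 : ∀ n, 0 < s n := fun n => by positivity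
  have hsB : ∀ n, ∀ x ∈ K, |s n * ζ x| ≤ 1 / 2 := by
    intro n x hx
    have h1 := hB x hx
    rw [Real.norm_eq_abs] at h1
    rw [abs_mul, abs_of_pos (hs0 n)]
    have h2 : s n ≤ 1 / (2 * (B + 1)) := by
      simp only [hs]
      apply one_div_le_one_div_of_le (by positivity)
      have : (0:ℝ) ≤ n := Nat.cast_nonneg n
      nlinarith
    calc s n * |ζ x| ≤ 1 / (2 * (B + 1)) * (B + 1) := by
          apply mul_le_mul h2 (by linarith) (abs_nonneg _) (by positivity)
      _ = 1 / 2 := by field_simp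
  have hslim : Tendsto s atTop (𝓝 0) := by
    have := (tendsto_const_nhds (x := 1 / (2 * (B + 1)))).mul tendsto_one_div_add_atTop_nhds_zero_nat
    rw [mul_zero] at this
    refine this.congr fun n => ?_
    simp only [hs]
    field_simp
  have hap := fun n => approx hK hKc hR hKR hV hζ hζ0 (hs0 n) (hsB n) π (q n) hL0 (by
    filter_upwards [hae1, hae2] with a h1 h2 using ⟨hqb n _ h1, hqb n _ h2⟩)
  choose Φ Ψ τ τ' hΦl hΦ0 hΨl hΨ0 hτm hτm' hτ hτ' hlaw hlaw' hest using hap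
  obtain ⟨σ, hσ, Φ', hΦ'l, hΦ'⟩ := lip_compact hL0 hΦl hΦ0
  obtain ⟨σ', hσ', Ψ', hΨ'l, hΨ'⟩ := lip_compact hL0 (Φ := fun n => Ψ (σ n))
    (fun n => hΨl (σ n)) (fun n => hΨ0 (σ n))
  set θ : ℕ → ℕ := fun n => σ (σ' n) with hθ
  have hθt : Tendsto θ atTop atTop := hσ.tendsto_atTop.comp hσ'.tendsto_atTop
  have hΦlim : ∀ x, Tendsto (fun n => Φ (θ n) x) atTop (𝓝 (Φ' x)) := fun x =>
    (hΦ' x).comp hσ'.tendsto_atTop
  have hΨlim : ∀ x, Tendsto (fun n => Ψ (θ n) x) atTop (𝓝 (Ψ' x)) := hΨ'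
  have hFlim : ∀ F : EuclideanSpace ℝ (Fin d) → ℝ, Continuous F →
      Tendsto (fun n => ∫ a, F (q n a.1) ∂π) atTop (𝓝 (∫ a, F a.1 ∂π)) ∧
      Tendsto (fun n => ∫ a, F (q n a.2) ∂π) atTop (𝓝 (∫ a, F a.2 ∂π)) := by
    intro F hF
    obtain ⟨M, hM⟩ := (isCompact_closedBall (0 : EuclideanSpace ℝ (Fin d)) L).exists_bound_of_continuousOn
      hF.continuousOn
    have hM' : ∀ v : EuclideanSpace ℝ (Fin d), ‖v‖ ≤ L → ‖F v‖ ≤ M := fun v hv =>
      hM v (by simpa using hv)
    constructor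
    · apply tendsto_integral_of_dominated_convergence (fun _ => M)
      · intro n
        exact (hF.measurable.comp ((q n).measurable.comp measurable_fst)).aestronglyMeasurable
      · exact integrable_const _
      · intro n
        filter_upwards [hae1] with a ha using hM' _ (hqb n _ ha)
      · exact Eventually.of_forall fun a => (hF.tendsto _).comp (hqlim a.1)
    · apply tendsto_integral_of_dominated_convergence (fun _ => M)
      · intro n
        exact (hF.measurable.comp ((q n).measurable.comp measurable_snd)).aestronglyMeasurable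
      · exact integrable_const _
      · intro n
        filter_upwards [hae2] with a ha using hM' _ (hqb n _ ha)
      · exact Eventually.of_forall fun a => (hF.tendsto _).comp (hqlim a.2)
  have hTb := ae_bound_of_map hK hT.1 hT.2.1 hμ
  have hSb := ae_bound_of_map hK hS.1 hS.2.1 hν
  refine ⟨Φ', Ψ', hΦ'l, hΨ'l, ?_, ?_, ?_⟩
  · refine limit_opt hK hKne hKR hR.le hL0 hV hT (hTb.mono fun x hx => hx.trans hRL) hΦlim hΦ'l
      (fun n => hτm (θ n)) (fun n => hτ (θ n)) (g := fun n x => 1 + s (θ n) * ζ x)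
      (fun n => by fun_prop) ?_ ?_ ?_
    · intro n x hx
      rw [add_sub_cancel_left]; exact hsB (θ n) x hx
    · intro x _
      have := ((hslim.comp hθt).mul_const (ζ x)).const_add 1
      simpa using this
    · intro F hF
      have h1 := ((hFlim F hF).1.comp hθt).const_mul (∫ x in K, (1 : ℝ))
      have h2 : ∫ a, F a.1 ∂π = ∫ y, F y ∂μ := by
        rw [← hπ1, integral_map measurable_fst.aemeasurable hF.aestronglyMeasurable]
      rw [h2] at h1
      refine h1.congr fun n => ?_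
      exact (hlaw (θ n) F hF).symm
  · refine limit_opt hK hKne hKR hR.le hL0 hV hS (hSb.mono fun x hx => hx.trans hRL) hΨlim hΨ'l
      (fun n => hτm' (θ n)) (fun n => hτ' (θ n)) (g := fun n x => 1)
      (fun n => continuous_const) ?_ ?_ ?_
    · intro n x hx
      norm_num
    · intro x _
      exact tendsto_const_nhds
    · intro F hF
      have h1 := ((hFlim F hF).2.comp hθt).const_mul (∫ x in K, (1 : ℝ))
      have h2 : ∫ a, F a.2 ∂π = ∫ y, F y ∂ν := by
        rw [← hπ2, integral_map measurable_snd.aemeasurable hF.aestronglyMeasurable]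
      rw [h2] at h1
      refine h1.congr fun n => ?_
      exact (hlaw' (θ n) F hF).symm
  · have hdom : ∀ (Ξ : ℕ → EuclideanSpace ℝ (Fin d) → ℝ) (Ξ' : EuclideanSpace ℝ (Fin d) → ℝ),
        (∀ n x y, |Ξ n x - Ξ n y| ≤ L * ‖x - y‖) → (∀ n, Ξ n 0 = 0) →
        (∀ x, Tendsto (fun n => Ξ n x) atTop (𝓝 (Ξ' x))) →
        Tendsto (fun n => ∫ x in K, Ξ n x * ζ x) atTop (𝓝 (∫ x in K, Ξ' x * ζ x)) := by
      intro Ξ Ξ' hl h0 hlim
      apply tendsto_integral_of_dominated_convergence (fun _ => L * R * B)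
      · intro n
        exact ((lip_cont hL0 (hl n)).mul hζ).aestronglyMeasurable
      · exact continuous_const.continuousOn.integrableOn_compact hK
      · intro n
        filter_upwards [ae_restrict_mem hK.measurableSet] with x hx
        rw [norm_mul]
        have h1 := hl n x 0
        rw [h0, sub_zero, sub_zero] at h1
        apply mul_le_mul _ (hB x hx) (norm_nonneg _) (by positivity)
        rw [Real.norm_eq_abs]
        exact h1.trans (mul_le_mul_of_nonneg_left (hKR x hx) hL0)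
      · exact Eventually.of_forall fun x => (hlim x).mul_const _
    have l1 := hdom (fun n => Φ (θ n)) Φ' (fun n => hΦl _) (fun n => hΦ0 _) hΦlim
    have l2 := hdom (fun n => Ψ (θ n)) Ψ' (fun n => hΨl _) (fun n => hΨ0 _) hΨlim
    have l3 : Tendsto (fun n => ∫ a, ‖q n a.2 - q n a.1‖ ^ 2 ∂π) atTop
        (𝓝 (∫ a, ‖a.2 - a.1‖ ^ 2 ∂π)) := by
      apply tendsto_integral_of_dominated_convergence (fun _ => (2 * L) ^ 2)
      · intro n
        have m1 : Measurable fun a : EuclideanSpace ℝ (Fin d) × EuclideanSpace ℝ (Fin d) => q n a.2 :=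
          (q n).measurable.comp measurable_snd
        have m2 : Measurable fun a : EuclideanSpace ℝ (Fin d) × EuclideanSpace ℝ (Fin d) => q n a.1 :=
          (q n).measurable.comp measurable_fst
        exact ((m1.sub m2).norm.pow_const 2).aestronglyMeasurable
      · exact integrable_const _
      · intro n
        filter_upwards [hae1, hae2] with a h1 h2
        rw [Real.norm_of_nonneg (by positivity)]
        have g1 := hqb n _ h1
        have g2 := hqb n _ h2
        have g3 := norm_sub_le (q n a.2) (q n a.1)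
        gcongr
        linarith
      · refine Eventually.of_forall fun a => ?_
        exact (((hqlim a.2).sub (hqlim a.1)).norm).pow 2
    have l4 := ((l3.comp hθt).const_mul (∫ x in K, (1 : ℝ))).sqrt
    have l5 := l4.const_mul (Real.sqrt (d * 591364) * R * Real.sqrt (∫ x in K, ζ x ^ 2))
    exact le_of_tendsto_of_tendsto l1 (l2.add l5) (Eventually.of_forall fun n => hest (θ n))

end Vale.Agent.P074
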