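import Vale.Agent.P074.LN
import Vale.Agent.P074.LL

open scoped ENNReal NNReal
open MeasureTheory Set Filter Topology

namespace Vale.Agent.P074

variable {d : ℕ}

/-- Lipschitz stability of the potentials. -/
theorem potB {K : Set (EuclideanSpace ℝ (Fin d))} (hK : IsCompact K) (hKc : Convex ℝ K)
    (hKi : (interior K).Nonempty) {R : ℝ} (hR : 0 < R) (hKR : ∀ x ∈ K, ‖x‖ ≤ R)
    (hV : 0 < ∫ x in K, (1 : ℝ)) {RY : ℝ} (hRY : 0 ≤ RY)
    {μ ν : Measure (EuclideanSpace ℝ (Fin d))} [IsProbabilityMeasure μ] [IsProbabilityMeasure ν]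
    (hμ : ∀ᵐ y ∂μ, ‖y‖ ≤ RY) (hν : ∀ᵐ y ∂ν, ‖y‖ ≤ RY)
    {T S : EuclideanSpace ℝ (Fin d) → EuclideanSpace ℝ (Fin d)}
    (hT : IsOptimalMap (unif K) μ T) (hS : IsOptimalMap (unif K) ν S)
    {π : Measure (EuclideanSpace ℝ (Fin d) × EuclideanSpace ℝ (Fin d))}
    (hπ1 : π.map Prod.fst = μ) (hπ2 : π.map Prod.snd = ν) :
    ∃ (φ ψ : EuclideanSpace ℝ (Fin d) → ℝ) (c : ℝ),
      (∀ x y, |φ x - φ y| ≤ LB d RY * ‖x - y‖) ∧ (∀ x y, |ψ x - ψ y| ≤ LB d RY * ‖x - y‖) ∧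
      (∀ᵐ x ∂(volume.restrict K), ∀ x' ∈ K, φ x + inner ℝ (T x) (x' - x) ≤ φ x') ∧
      (∀ᵐ x ∂(volume.restrict K), ∀ x' ∈ K, ψ x + inner ℝ (S x) (x' - x) ≤ ψ x') ∧
      ∫ x in K, (φ x - ψ x - c) ^ 2 ≤
        (d * 591364) * R ^ 2 * ((∫ x in K, (1 : ℝ)) * ∫ a, ‖a.2 - a.1‖ ^ 2 ∂π) := by
  have hKne : K.Nonempty := hKi.mono interior_subset
  have hL0 : 0 ≤ LB d RY := by unfold LB; positivity
  obtain ⟨φ, ψ, hφl, hψl, hφs, hψs, -⟩ := limit_pair hK hKc hKne hR hKR hV hRY hμ hν hT hS hπ1 hπ2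
    (ζ := fun _ => 0) continuous_const (by simp)
  have hφc := lip_cont hL0 hφl
  have hψc := lip_cont hL0 hψl
  set V := ∫ x in K, (1 : ℝ) with hVdef
  set c := (∫ x in K, (φ x - ψ x)) / V with hc
  set ζ : EuclideanSpace ℝ (Fin d) → ℝ := fun x => φ x - ψ x - c with hζ
  have hζc : Continuous ζ := by fun_prop
  have hζ0 : ∫ x in K, ζ x = 0 := by
    simp only [hζ]
    rw [integral_sub (intOn hK subset_rfl (by fun_prop)) (intOn hK subset_rfl continuous_const)]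
    have : ∫ x in K, c = c * V := by rw [hVdef, ← integral_const_mul]; simp
    rw [this, hc]; field_simp; ring
  obtain ⟨Φ, Ψ, hΦl, hΨl, hΦs, hΨs, hest⟩ := limit_pair hK hKc hKne hR hKR hV hRY hμ hν hT hS
    hπ1 hπ2 hζc hζ0
  have hΦc := lip_cont hL0 hΦl
  have hΨc := lip_cont hL0 hΨl
  have hTb := ae_bound_of_map hK hT.1 hT.2.1 hμ
  have hSb := ae_bound_of_map hK hS.1 hS.2.1 hν
  obtain ⟨c1, hc1⟩ := pot_unique hK hKc hKi hTb hΦc hφc hΦs hφs
  obtain ⟨c2, hc2⟩ := pot_unique hK hKc hKi hSb hΨc hψc hΨs hψs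
  have e1 : ∫ x in K, Φ x * ζ x = ∫ x in K, φ x * ζ x := by
    have : ∫ x in K, Φ x * ζ x = ∫ x in K, (φ x * ζ x + c1 * ζ x) := by
      apply setIntegral_congr_fun hK.measurableSet
      intro x hx
      have := hc1 x hx
      simp only
      have : Φ x = φ x + c1 := by linarith
      rw [this]; ring
    rw [this, integral_add (intOn hK subset_rfl (by fun_prop)) (intOn hK subset_rfl (by fun_prop)),
      integral_const_mul, hζ0]; ring
  have e2 : ∫ x in K, Ψ x * ζ x = ∫ x in K, ψ x * ζ x := by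
    have : ∫ x in K, Ψ x * ζ x = ∫ x in K, (ψ x * ζ x + c2 * ζ x) := by
      apply setIntegral_congr_fun hK.measurableSet
      intro x hx
      have := hc2 x hx
      simp only
      have : Ψ x = ψ x + c2 := by linarith
      rw [this]; ring
    rw [this, integral_add (intOn hK subset_rfl (by fun_prop)) (intOn hK subset_rfl (by fun_prop)),
      integral_const_mul, hζ0]; ring
  have e3 : ∫ x in K, ζ x ^ 2 = (∫ x in K, φ x * ζ x) - ∫ x in K, ψ x * ζ x := by
    have : ∀ x, ζ x ^ 2 = φ x * ζ x - ψ x * ζ x - c * ζ x := by intro x; simp only [hζ]; ring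
    simp_rw [this]
    rw [integral_sub (intOn hK subset_rfl (by fun_prop)) (intOn hK subset_rfl (by fun_prop)),
      integral_sub (intOn hK subset_rfl (by fun_prop)) (intOn hK subset_rfl (by fun_prop)),
      integral_const_mul, hζ0]; ring
  refine ⟨φ, ψ, c, hφl, hψl, hφs, hψs, ?_⟩
  change ∫ x in K, ζ x ^ 2 ≤ _
  rw [e1, e2] at hest
  set Z := ∫ x in K, ζ x ^ 2 with hZ
  have hZ0 : 0 ≤ Z := integral_nonneg fun x => sq_nonneg _
  set W := V * ∫ a, ‖a.2 - a.1‖ ^ 2 ∂π with hW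
  have hW0 : 0 ≤ W := mul_nonneg hV.le (integral_nonneg fun a => by positivity)
  have h1 : Z ≤ Real.sqrt (d * 591364) * R * Real.sqrt Z * Real.sqrt W := by linarith
  by_cases hz : Z = 0
  · rw [hz]; positivity
  · have hzp : 0 < Z := lt_of_le_of_ne hZ0 (Ne.symm hz)
    have hsz : 0 < Real.sqrt Z := Real.sqrt_pos.2 hzp
    have h2 : Real.sqrt Z ≤ Real.sqrt (d * 591364) * R * Real.sqrt W := by
      have : Real.sqrt Z * Real.sqrt Z ≤ Real.sqrt Z * (Real.sqrt (d * 591364) * R * Real.sqrt W) := by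
        rw [Real.mul_self_sqrt hZ0]
        linarith
      exact le_of_mul_le_mul_left this hsz
    calc Z = Real.sqrt Z ^ 2 := (Real.sq_sqrt hZ0).symm
      _ ≤ (Real.sqrt (d * 591364) * R * Real.sqrt W) ^ 2 := by gcongr
      _ = _ := by
          rw [mul_pow, mul_pow, Real.sq_sqrt (by positivity), Real.sq_sqrt hW0]

/-- The main estimate in real form, for one coupling. -/
theorem main_real {K : Set (EuclideanSpace ℝ (Fin d))} (hK : IsCompact K) (hKc : Convex ℝ K)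
    (hKi : (interior K).Nonempty) {R : ℝ} (hR : 0 < R) (hKR : ∀ x ∈ K, ‖x‖ ≤ R)
    (hV : 0 < ∫ x in K, (1 : ℝ)) {RY : ℝ} (hRY : 0 ≤ RY)
    {x₀ : EuclideanSpace ℝ (Fin d)} {r : ℝ} (hr : 0 < r) (hball : Metric.closedBall x₀ r ⊆ K) :
    ∃ C : ℝ, 0 ≤ C ∧ ∀ (μ ν : Measure (EuclideanSpace ℝ (Fin d))), IsProbabilityMeasure μ →
      IsProbabilityMeasure ν → (∀ᵐ y ∂μ, ‖y‖ ≤ RY) → (∀ᵐ y ∂ν, ‖y‖ ≤ RY) →
      ∀ (T S : EuclideanSpace ℝ (Fin d) → EuclideanSpace ℝ (Fin d)),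
      IsOptimalMap (unif K) μ T → IsOptimalMap (unif K) ν S →
      ∀ (π : Measure (EuclideanSpace ℝ (Fin d) × EuclideanSpace ℝ (Fin d))),
      π.map Prod.fst = μ → π.map Prod.snd = ν →
      ∫ x in K, ‖T x - S x‖ ^ 2 ≤ C * (∫ a, ‖a.2 - a.1‖ ^ 2 ∂π) ^ (1 / 3 : ℝ) := by
  set L := LB d RY with hL
  have hL0 : 0 ≤ L := by rw [hL]; unfold LB; positivity
  have hRL : RY ≤ L := by
    rw [hL]; unfold LB
    have := norm_nonneg (TopologicalSpace.denseSeq (EuclideanSpace ℝ (Fin d)) 0)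
    linarith
  set V := ∫ x in K, (1 : ℝ) with hVdef
  set A := (d:ℝ) * (12 / r ^ 2 * ((d * 591364) * R ^ 2 * V)) with hA
  set B := (d:ℝ) * (20 * L ^ 2 * (d * V)) with hB
  have hA0 : 0 ≤ A := by positivity
  have hB0 : 0 ≤ B := by positivity
  refine ⟨A + B + 4 * L ^ 2 * V, by positivity, ?_⟩
  intro μ ν hμp hνp hμ hν T S hT hS π hπ1 hπ2
  obtain ⟨φ, ψ, c, hφl, hψl, hφs, hψs, hest⟩ := potB hK hKc hKi hR hKR hV hRY hμ hν hT hS hπ1 hπ2
  have hφc := lip_cont hL0 hφl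
  have hψc := lip_cont hL0 hψl
  have hTb := (ae_bound_of_map hK hT.1 hT.2.1 hμ).mono fun x hx => hx.trans hRL
  have hSb := (ae_bound_of_map hK hS.1 hS.2.1 hν).mono fun x hx => hx.trans hRL
  set I := ∫ a, ‖a.2 - a.1‖ ^ 2 ∂π with hI
  have hI0 : 0 ≤ I := integral_nonneg fun a => by positivity
  set X := ∫ x in K, ‖T x - S x‖ ^ 2 with hX
  have hδ : ∀ δ : ℝ, 0 < δ → δ < 1 → X ≤ A * I / δ ^ 2 + B * δ := by
    intro δ h0 h1
    have := interp hK hKc hr hball hL0 hφc hψc hψl hT.1 hS.1 hTb hSb hφs hψs c h0 h1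
    refine this.trans ?_
    calc d * (12 / (δ * r) ^ 2 * (∫ x in K, (φ x - ψ x - c) ^ 2) + 20 * L ^ 2 * (d * δ * V))
        ≤ d * (12 / (δ * r) ^ 2 * ((d * 591364) * R ^ 2 * (V * I)) + 20 * L ^ 2 * (d * δ * V)) := by
          gcongr
      _ = _ := by rw [hA, hB]; field_simp
  have htriv : X ≤ 4 * L ^ 2 * V := by
    have i1 : IntegrableOn (fun x => ‖T x - S x‖ ^ 2) K := by
      refine bdd_int hK (M := 4 * L ^ 2) (((hT.1.sub hS.1).norm).pow_const 2).aestronglyMeasurable ?_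
      filter_upwards [hTb, hSb] with x a b
      rw [abs_of_nonneg (by positivity)]
      have := norm_sub_le (T x) (S x)
      calc ‖T x - S x‖ ^ 2 ≤ (2 * L) ^ 2 := by gcongr; linarith
        _ = _ := by ring
    have i2 : IntegrableOn (fun _ : EuclideanSpace ℝ (Fin d) => 4 * L ^ 2 * (1:ℝ)) K :=
      continuous_const.continuousOn.integrableOn_compact hK
    calc X ≤ ∫ x in K, 4 * L ^ 2 * (1:ℝ) := by
          apply integral_mono_ae i1 i2
          filter_upwards [hTb, hSb] with x a b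
          have := norm_sub_le (T x) (S x)
          calc ‖T x - S x‖ ^ 2 ≤ (2 * L) ^ 2 := by gcongr; linarith
            _ = _ := by ring
      _ = _ := by rw [integral_const_mul]
  set t := I ^ (1 / 3 : ℝ) with ht
  have ht0 : 0 ≤ t := Real.rpow_nonneg hI0 _
  have ht3 : t ^ 3 = I := by
    rw [ht, ← Real.rpow_natCast, ← Real.rpow_mul hI0]; norm_num
  by_cases hI' : t = 0
  · have hIz : I = 0 := by rw [← ht3, hI']; norm_num
    rw [hI', mul_zero]
    have h1 : ∀ δ : ℝ, 0 < δ → δ < 1 → X ≤ B * δ := by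
      intro δ h0 h1
      have := hδ δ h0 h1
      rw [hIz] at this
      simpa using this
    by_contra hneg
    push Not at hneg
    have hBp : 0 < B + 1 := by linarith
    set δ := min (1/2) (X / (2 * (B + 1))) with hδd
    have d0 : 0 < δ := lt_min (by norm_num) (by positivity)
    have d1 : δ < 1 := lt_of_le_of_lt (min_le_left _ _) (by norm_num)
    have h2 := h1 δ d0 d1
    have h3 : δ ≤ X / (2 * (B + 1)) := min_le_right _ _
    have h4 : B * δ ≤ (B + 1) * (X / (2 * (B + 1))) := by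
      apply mul_le_mul (by linarith) h3 d0.le hBp.le
    have h5 : (B + 1) * (X / (2 * (B + 1))) = X / 2 := by field_simp
    linarith
  · have htp : 0 < t := lt_of_le_of_ne ht0 (Ne.symm hI')
    by_cases ht1 : t < 1
    · have := hδ t htp ht1
      have e : A * I / t ^ 2 = A * t := by rw [← ht3]; field_simp
      rw [e] at this
      have : 0 ≤ 4 * L ^ 2 * V * t := by positivity
      nlinarith
    · push Not at ht1
      have h1 : 4 * L ^ 2 * V ≤ 4 * L ^ 2 * V * t := by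
        have : 0 ≤ 4 * L ^ 2 * V := by positivity
        nlinarith
      have h2 : 0 ≤ (A + B) * t := by positivity
      nlinarith

end Vale.Agent.P074
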