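import Vale.Agent.P074.LO

open scoped ENNReal NNReal
open MeasureTheory Set Filter Topology

namespace Vale.Agent.P074

variable {d : ℕ}

theorem stability {K Y : Set (EuclideanSpace ℝ (Fin d))} (hKc : Convex ℝ K) (hK : IsCompact K)
    (hKi : (interior K).Nonempty) (hY : IsCompact Y) {α : ℝ} (h0 : 0 < α) (h1 : α ≤ 1 / 3) :
    StabilityBound K Y α := by
  obtain ⟨R, hR, hKR⟩ := hK.isBounded.exists_pos_norm_le
  obtain ⟨RY, hRY, hYR⟩ := hY.isBounded.exists_pos_norm_le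
  have hV : 0 < ∫ x in K, (1 : ℝ) := by
    rw [volReal]
    exact ENNReal.toReal_pos (Measure.measure_pos_of_nonempty_interior _ hKi).ne'
      hK.measure_lt_top.ne
  obtain ⟨x₀, hx₀⟩ := hKi
  obtain ⟨r, hr, hball⟩ := Metric.nhds_basis_closedBall.mem_iff.1 (mem_interior_iff_mem_nhds.1 hx₀)
  obtain ⟨C, hC0, hC⟩ := main_real hK hKc ⟨x₀, hx₀⟩ hR hKR hV hRY.le hr hball
  set V := ∫ x in K, (1 : ℝ) with hVdef
  set M : ℝ := (2 * RY) ^ 2 with hM
  have hM0 : 0 < M := by positivity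
  set K1 : ℝ := V⁻¹ * C * M ^ (1 / 3 - α) + 1 with hK1
  have hK1' : 0 < K1 := by positivity
  refine ⟨Real.toNNReal (K1 ^ (1 / 2 : ℝ)), ?_⟩
  intro μ ν hμp hνp hμY hνY T S hT hS
  have hμ : ∀ᵐ y ∂μ, ‖y‖ ≤ RY := by
    have : ∀ᵐ y ∂μ, y ∈ Y := hμY
    filter_upwards [this] with y hy using hYR y hy
  have hν : ∀ᵐ y ∂ν, ‖y‖ ≤ RY := by
    have : ∀ᵐ y ∂ν, y ∈ Y := hνY
    filter_upwards [this] with y hy using hYR y hy
  have hTb := ae_bound_of_map hK hT.1 hT.2.1 hμ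
  have hSb := ae_bound_of_map hK hS.1 hS.2.1 hν
  have hvK : volume K ≠ 0 := by
    intro h; rw [hVdef, volReal, h] at hV; simp at hV
  have hvK' : volume K ≠ ∞ := hK.measure_lt_top.ne
  have hiX : IntegrableOn (fun x => ‖T x - S x‖ ^ 2) K := by
    refine bdd_int hK (M := 4 * RY ^ 2) (((hT.1.sub hS.1).norm).pow_const 2).aestronglyMeasurable ?_
    filter_upwards [hTb, hSb] with x a b
    rw [abs_of_nonneg (by positivity)]
    have := norm_sub_le (T x) (S x)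
    calc ‖T x - S x‖ ^ 2 ≤ (2 * RY) ^ 2 := by gcongr; linarith
      _ = _ := by ring
  have hJ : ∫⁻ x, edist (T x) (S x) ^ 2 ∂(unif K) =
      ENNReal.ofReal (V⁻¹ * ∫ x in K, ‖T x - S x‖ ^ 2) := by
    unfold unif
    rw [lintegral_smul_measure, smul_eq_mul, ENNReal.ofReal_mul (inv_nonneg.2 hV.le),
      ENNReal.ofReal_inv_of_pos hV, hVdef, volReal, ENNReal.ofReal_toReal hvK',
      ofReal_integral_eq_lintegral_ofReal hiX (Eventually.of_forall fun x => by positivity)]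
    congr 1
    apply lintegral_congr
    intro x
    rw [edist_dist, dist_eq_norm, ENNReal.ofReal_pow (norm_nonneg _)]
  set J := ∫⁻ x, edist (T x) (S x) ^ 2 ∂(unif K) with hJdef
  set k := ENNReal.ofReal K1 with hk
  have hk0 : k ≠ 0 := by rw [hk]; simpa using hK1'
  have hkt : k ≠ ∞ := ENNReal.ofReal_ne_top
  have hmain : ∀ π : {π : Measure (EuclideanSpace ℝ (Fin d) × EuclideanSpace ℝ (Fin d)) //
      π.map Prod.fst = μ ∧ π.map Prod.snd = ν},
      (J / k) ^ α⁻¹ ≤ ∫⁻ p, edist p.1 p.2 ^ 2 ∂π.1 := by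
    rintro ⟨π, hπ1, hπ2⟩
    simp only
    have hπp : IsProbabilityMeasure π := by
      refine ⟨?_⟩
      have : μ univ = 1 := measure_univ
      rw [← hπ1, Measure.map_apply measurable_fst MeasurableSet.univ] at this
      simpa using this
    have hae1 : ∀ᵐ a ∂π, ‖a.1‖ ≤ RY := by
      rw [← hπ1] at hμ; exact ae_of_ae_map measurable_fst.aemeasurable hμ
    have hae2 : ∀ᵐ a ∂π, ‖a.2‖ ≤ RY := by
      rw [← hπ2] at hν; exact ae_of_ae_map measurable_snd.aemeasurable hν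
    have hbd : ∀ᵐ a ∂π, ‖a.2 - a.1‖ ^ 2 ≤ M := by
      filter_upwards [hae1, hae2] with a g1 g2
      have := norm_sub_le a.2 a.1
      rw [hM]
      gcongr
      linarith
    have hmeas : Measurable fun a : EuclideanSpace ℝ (Fin d) × EuclideanSpace ℝ (Fin d) =>
        ‖a.2 - a.1‖ ^ 2 := by fun_prop
    have hiI : Integrable (fun a : EuclideanSpace ℝ (Fin d) × EuclideanSpace ℝ (Fin d) =>
        ‖a.2 - a.1‖ ^ 2) π := by
      apply Integrable.of_bound hmeas.aestronglyMeasurable M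
      filter_upwards [hbd] with a ha
      rw [Real.norm_of_nonneg (by positivity)]; exact ha
    set I := ∫ a, ‖a.2 - a.1‖ ^ 2 ∂π with hI
    have hI0 : 0 ≤ I := integral_nonneg fun a => by positivity
    have hIM : I ≤ M := by
      calc I ≤ ∫ a, M ∂π := integral_mono_ae hiI (integrable_const _) hbd
        _ = M := by simp
    have hcost : ∫⁻ p, edist p.1 p.2 ^ 2 ∂π = ENNReal.ofReal I := by
      rw [hI, ofReal_integral_eq_lintegral_ofReal hiI (Eventually.of_forall fun x => by positivity)]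
      apply lintegral_congr
      intro a
      rw [edist_comm, edist_dist, dist_eq_norm, ENNReal.ofReal_pow (norm_nonneg _)]
    have hX := hC μ ν hμp hνp hμ hν T S hT hS π hπ1 hπ2
    rw [← hI] at hX
    have hpow : I ^ (1 / 3 : ℝ) ≤ M ^ (1 / 3 - α) * I ^ α := by
      rcases eq_or_lt_of_le hI0 with h | h
      · rw [← h, Real.zero_rpow (by norm_num), Real.zero_rpow h0.ne', mul_zero]
      · calc I ^ (1 / 3 : ℝ) = I ^ (1 / 3 - α) * I ^ α := by
              rw [← Real.rpow_add h]; congr 1; ring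
          _ ≤ M ^ (1 / 3 - α) * I ^ α := by
              apply mul_le_mul_of_nonneg_right _ (Real.rpow_nonneg hI0 _)
              exact Real.rpow_le_rpow hI0 hIM (by linarith)
    have hreal : V⁻¹ * ∫ x in K, ‖T x - S x‖ ^ 2 ≤ K1 * I ^ α := by
      have hIα : 0 ≤ I ^ α := Real.rpow_nonneg hI0 _
      calc V⁻¹ * ∫ x in K, ‖T x - S x‖ ^ 2 ≤ V⁻¹ * (C * I ^ (1 / 3 : ℝ)) := by gcongr
        _ ≤ V⁻¹ * (C * (M ^ (1 / 3 - α) * I ^ α)) := by gcongr
        _ = (V⁻¹ * C * M ^ (1 / 3 - α)) * I ^ α := by ring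
        _ ≤ K1 * I ^ α := by gcongr; rw [hK1]; linarith
    rw [hcost, ENNReal.rpow_inv_le_iff h0, ENNReal.div_le_iff hk0 hkt, hJ, hk,
      ENNReal.ofReal_rpow_of_nonneg hI0 h0.le, ← ENNReal.ofReal_mul (Real.rpow_nonneg hI0 _),
      mul_comm (I ^ α) K1]
    exact ENNReal.ofReal_le_ofReal hreal
  have hinf := le_iInf hmain
  rw [ENNReal.rpow_inv_le_iff h0, ENNReal.div_le_iff hk0 hkt] at hinf
  unfold L2dist W2
  rw [← hJdef]
  set Inf := ⨅ π : {π : Measure (EuclideanSpace ℝ (Fin d) × EuclideanSpace ℝ (Fin d)) //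
      π.map Prod.fst = μ ∧ π.map Prod.snd = ν}, ∫⁻ p, edist p.1 p.2 ^ 2 ∂π.1
  calc J ^ (1 / 2 : ℝ) ≤ (Inf ^ α * k) ^ (1 / 2 : ℝ) := ENNReal.rpow_le_rpow hinf (by norm_num)
    _ = (Inf ^ α) ^ (1 / 2 : ℝ) * k ^ (1 / 2 : ℝ) := ENNReal.mul_rpow_of_nonneg _ _ (by norm_num)
    _ = k ^ (1 / 2 : ℝ) * (Inf ^ (1 / 2 : ℝ)) ^ α := by
        rw [mul_comm, ← ENNReal.rpow_mul, ← ENNReal.rpow_mul, mul_comm α]
    _ = _ := by
        congr 1
        rw [hk, ENNReal.ofReal_rpow_of_pos hK1']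
        rfl

theorem admissible_of_le {α : ℝ} (h0 : 0 < α) (h1 : α ≤ 1 / 3) : Admissible d α :=
  ⟨h0, by linarith, fun _ _ hKc hK hKi hY _ => stability hKc hK hKi hY h0 h1⟩

end Vale.Agent.P074
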