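import Mathlib

open scoped ENNReal NNReal
open MeasureTheory Set

namespace Vale.Agent.P074

theorem vol_half (c : ℝ) (s : Set ℝ) :
    volume {w : ℝ | 2 * w - c ∈ s} = ENNReal.ofReal (1/2) * volume s := by
  have h1 : {w : ℝ | 2 * w - c ∈ s} = (fun w => 2 * w) ⁻¹' ((fun x => x + (-c)) ⁻¹' s) := by
    ext w; simp [sub_eq_add_neg]
  rw [h1, Real.volume_preimage_mul_left (by norm_num), measure_preimage_add_right]
  norm_num

theorem bm1_compact {A B C : Set ℝ} (hA : IsCompact A) (hB : IsCompact B)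
    (hAne : A.Nonempty) (hBne : B.Nonempty) (h : ∀ a ∈ A, ∀ b ∈ B, (a + b) / 2 ∈ C) :
    volume A + volume B ≤ 2 * volume C := by
  have ha := hA.sSup_mem hAne
  have hb := hB.sInf_mem hBne
  set a := sSup A
  set b := sInf B
  set D1 : Set ℝ := {w : ℝ | 2 * w - b ∈ A}
  set D2 : Set ℝ := {w : ℝ | 2 * w - a ∈ B}
  have hD1 : D1 ⊆ C := by
    intro w hw
    have := h _ hw _ hb
    have e : (2 * w - b + b) / 2 = w := by ring
    rwa [e] at this
  have hD2 : D2 ⊆ C := by
    intro w hw
    have := h _ ha _ hw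
    have e : (a + (2 * w - a)) / 2 = w := by ring
    rwa [e] at this
  have hmD2 : MeasurableSet D2 := by
    have : Measurable (fun w : ℝ => 2 * w - a) := by fun_prop
    exact this hB.measurableSet
  have hdisj : AEDisjoint volume D1 D2 := by
    have : D1 ∩ D2 ⊆ {(a + b) / 2} := by
      rintro w ⟨h1, h2⟩
      have g1 : 2 * w - b ≤ a := le_csSup hA.bddAbove h1
      have g2 : b ≤ 2 * w - a := csInf_le hB.bddBelow h2
      simp only [mem_singleton_iff]; linarith
    exact measure_mono_null this (by simp)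
  have hu : volume (D1 ∪ D2) = volume D1 + volume D2 :=
    measure_union₀ hmD2.nullMeasurableSet hdisj
  have h1 : volume D1 = ENNReal.ofReal (1/2) * volume A := vol_half b A
  have h2 : volume D2 = ENNReal.ofReal (1/2) * volume B := vol_half a B
  have h3 : volume (D1 ∪ D2) ≤ volume C := measure_mono (union_subset hD1 hD2)
  rw [hu, h1, h2, ← mul_add] at h3
  calc volume A + volume B = 2 * (ENNReal.ofReal (1/2) * (volume A + volume B)) := by
        rw [← mul_assoc]
        have : (2 : ℝ≥0∞) * ENNReal.ofReal (1/2) = 1 := by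
          rw [show (2 : ℝ≥0∞) = ENNReal.ofReal 2 by simp, ← ENNReal.ofReal_mul (by norm_num)]
          norm_num
        rw [this, one_mul]
    _ ≤ 2 * volume C := by gcongr

theorem bm1 {A B C : Set ℝ} (hA : MeasurableSet A) (hB : MeasurableSet B)
    (hAne : A.Nonempty) (hBne : B.Nonempty) (h : ∀ a ∈ A, ∀ b ∈ B, (a + b) / 2 ∈ C) :
    volume A + volume B ≤ 2 * volume C := by
  obtain ⟨a0, ha0⟩ := hAne
  obtain ⟨b0, hb0⟩ := hBne
  set M := 2 * volume C
  have key : ∀ K₁ K₂ : Set ℝ, K₁ ⊆ A → IsCompact K₁ → K₂ ⊆ B → IsCompact K₂ →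
      volume K₁ + volume K₂ ≤ M := by
    intro K₁ K₂ h1 h1c h2 h2c
    have := bm1_compact (A := insert a0 K₁) (B := insert b0 K₂) (C := C) (h1c.insert a0)
      (h2c.insert b0) (insert_nonempty _ _) (insert_nonempty _ _) (by
        rintro a (rfl | ha) b (rfl | hb)
        · exact h _ ha0 _ hb0
        · exact h _ ha0 _ (h2 hb)
        · exact h _ (h1 ha) _ hb0
        · exact h _ (h1 ha) _ (h2 hb))
    refine le_trans ?_ this
    gcongr <;> exact subset_insert _ _
  have step1 : ∀ K₂ : Set ℝ, K₂ ⊆ B → IsCompact K₂ → volume A + volume K₂ ≤ M := by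
    intro K₂ h2 h2c
    have hf : volume K₂ ≠ ∞ := h2c.measure_lt_top.ne
    have hle : volume A ≤ M - volume K₂ := by
      rw [hA.measure_eq_iSup_isCompact]
      refine iSup_le fun K => iSup_le fun hK => iSup_le fun hKc => ?_
      exact ENNReal.le_sub_of_add_le_right hf (key K K₂ hK hKc h2 h2c)
    have hKM : volume K₂ ≤ M := by
      have := key ∅ K₂ (empty_subset _) isCompact_empty h2 h2c
      simpa using this
    calc volume A + volume K₂ ≤ M - volume K₂ + volume K₂ := by gcongr
      _ = M := tsub_add_cancel_of_le hKM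
  by_cases hAf : volume A = ∞
  · have := step1 ∅ (empty_subset _) isCompact_empty
    rw [hAf] at this
    have hM : M = ∞ := by simpa using this
    rw [hM]; exact le_top
  · have hle : volume B ≤ M - volume A := by
      rw [hB.measure_eq_iSup_isCompact]
      refine iSup_le fun K => iSup_le fun hK => iSup_le fun hKc => ?_
      apply ENNReal.le_sub_of_add_le_right hAf
      rw [add_comm]; exact step1 K hK hKc
    have hAM : volume A ≤ M := by
      have := step1 ∅ (empty_subset _) isCompact_empty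
      simpa using this
    calc volume A + volume B ≤ volume A + (M - volume A) := by gcongr
      _ = M := add_tsub_cancel_of_le hAM

/-- Layer cake upper bound for a function bounded by one. -/
theorem layer_le {f : ℝ → ℝ≥0∞} (hf : Measurable f) (h1 : ∀ x, f x ≤ 1) :
    ∫⁻ x, f x = ∫⁻ t in Ioo (0:ℝ) 1, volume {x | ENNReal.ofReal t < f x} := by
  have e1 : ∀ x, f x = ENNReal.ofReal ((f x).toReal) := fun x =>
    (ENNReal.ofReal_toReal (ne_top_of_le_ne_top ENNReal.one_ne_top (h1 x))).symm
  have e2 : ∫⁻ x, f x = ∫⁻ x, ENNReal.ofReal ((f x).toReal) := lintegral_congr e1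
  rw [e2, lintegral_eq_lintegral_meas_lt volume (Filter.Eventually.of_forall fun x => by
    simp) hf.ennreal_toReal.aemeasurable]
  have hset : ∀ t : ℝ, 0 ≤ t → {a | t < (f a).toReal} = {x | ENNReal.ofReal t < f x} := by
    intro t ht
    ext x
    simp only [mem_ofPred_eq]
    rw [ENNReal.ofReal_lt_iff_lt_toReal ht (ne_top_of_le_ne_top ENNReal.one_ne_top (h1 x))]
  rw [setLIntegral_congr_fun measurableSet_Ioi (fun t ht => by rw [hset t (le_of_lt ht)] :
    EqOn _ (fun t => volume {x | ENNReal.ofReal t < f x}) (Ioi 0))]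
  rw [← Ioo_union_Ici_eq_Ioi (show (0:ℝ) < 1 by norm_num), lintegral_union measurableSet_Ici
    (by
      rw [Set.disjoint_left]; intro t h1 h2; exact absurd h1.2 (not_lt.2 h2))]
  have h0 : ∫⁻ t in Ici (1:ℝ), volume {x | ENNReal.ofReal t < f x} = 0 := by
    rw [setLIntegral_congr_fun measurableSet_Ici (g := fun _ => 0)]
    · simp
    · intro t ht
      have : {x | ENNReal.ofReal t < f x} = ∅ := by
        ext x
        simp only [mem_ofPred_eq, mem_empty_iff_false, iff_false, not_lt]
        calc f x ≤ 1 := h1 x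
          _ ≤ ENNReal.ofReal t := by rw [ENNReal.one_le_ofReal]; exact ht
      simp [this]
  rw [h0, add_zero]

theorem measurable_lev (f : ℝ → ℝ≥0∞) :
    Measurable (fun t : ℝ => volume {x | ENNReal.ofReal t < f x}) := by
  apply Antitone.measurable
  intro s t hst
  apply measure_mono
  intro x hx
  exact lt_of_le_of_lt (ENNReal.ofReal_le_ofReal hst) hx

/-- One-dimensional midpoint Prekopa-Leindler, normalized. -/
theorem pl1_norm {f g h : ℝ → ℝ≥0∞} (hf : Measurable f) (hg : Measurable g) (hh : Measurable h)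
    (f1 : ⨆ x, f x = 1) (g1 : ⨆ x, g x = 1) (H : ∀ x y, f x * g y ≤ h ((x + y) / 2) ^ 2) :
    (∫⁻ x, f x) + (∫⁻ x, g x) ≤ 2 * ∫⁻ x, h x := by
  have hf1 : ∀ x, f x ≤ 1 := fun x => by rw [← f1]; exact le_iSup f x
  have hg1 : ∀ x, g x ≤ 1 := fun x => by rw [← g1]; exact le_iSup g x
  rw [layer_le hf hf1, layer_le hg hg1]
  have hh1 : ∫⁻ x, min (h x) 1 ≤ ∫⁻ x, h x := lintegral_mono fun x => min_le_left _ _
  refine le_trans ?_ (mul_le_mul_right hh1 2)
  rw [layer_le (hh.min measurable_const) (fun x => min_le_right _ _)]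
  rw [← lintegral_add_left (measurable_lev f), ← lintegral_const_mul _
    (measurable_lev (fun x => min (h x) 1))]
  apply setLIntegral_mono' measurableSet_Ioo
  intro t ht
  have ht1 : ENNReal.ofReal t < 1 := by
    rw [← ENNReal.ofReal_one]; exact (ENNReal.ofReal_lt_ofReal_iff (by norm_num)).2 ht.2
  apply bm1 (measurableSet_lt measurable_const hf) (measurableSet_lt measurable_const hg)
  · rw [← f1] at ht1
    obtain ⟨x, hx⟩ := lt_iSup_iff.1 ht1
    exact ⟨x, hx⟩
  · rw [← g1] at ht1
    obtain ⟨x, hx⟩ := lt_iSup_iff.1 ht1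
    exact ⟨x, hx⟩
  · intro a ha b hb
    simp only [mem_ofPred_eq] at ha hb ⊢
    rw [lt_min_iff]
    refine ⟨?_, ht1⟩
    by_contra hc
    rw [not_lt] at hc
    have h2 : ENNReal.ofReal t ^ 2 < f a * g b := by
      rw [sq]
      exact ENNReal.mul_lt_mul ha hb
    have h3 : h ((a + b) / 2) ^ 2 ≤ ENNReal.ofReal t ^ 2 := by gcongr
    exact absurd (H a b) (not_le.2 (lt_of_le_of_lt h3 h2))

end Vale.Agent.P074
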