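import Vale.Agent.P074.PL1

open scoped ENNReal NNReal
open MeasureTheory Set

namespace Vale.Agent.P074

/-- The midpoint Prekopa-Leindler property of a space. -/
def PLProp (X : Type) [AddCommGroup X] [Module ℝ X] [MeasureSpace X] : Prop :=
  ∀ f g h : X → ℝ≥0∞, Measurable f → Measurable g → Measurable h →
    (∀ x y, f x * g y ≤ h ((1/2 : ℝ) • (x + y)) ^ 2) → (∫⁻ x, f x) * (∫⁻ x, g x) ≤ (∫⁻ x, h x) ^ 2

theorem amgm (a b : ℝ≥0∞) : 4 * (a * b) ≤ (a + b) ^ 2 := by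
  by_cases ha : a = ∞
  · subst ha; simp
  by_cases hb : b = ∞
  · subst hb; simp
  lift a to ℝ≥0 using ha
  lift b to ℝ≥0 using hb
  norm_cast
  rw [← NNReal.coe_le_coe]
  push_cast
  nlinarith [sq_nonneg ((a:ℝ) - b)]

/-- Bounded case in dimension one. -/
theorem pl1_bdd {f g h : ℝ → ℝ≥0∞} (hf : Measurable f) (hg : Measurable g) (hh : Measurable h)
    (N : ℝ≥0) (hfN : ∀ x, f x ≤ N) (hgN : ∀ x, g x ≤ N)
    (H : ∀ x y, f x * g y ≤ h ((x + y) / 2) ^ 2) :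
    (∫⁻ x, f x) * (∫⁻ x, g x) ≤ (∫⁻ x, h x) ^ 2 := by
  set F := ⨆ x, f x with hF
  set G := ⨆ x, g x with hG
  have hFN : F ≤ N := iSup_le hfN
  have hGN : G ≤ N := iSup_le hgN
  have hFt : F ≠ ∞ := ne_top_of_le_ne_top ENNReal.coe_ne_top hFN
  have hGt : G ≠ ∞ := ne_top_of_le_ne_top ENNReal.coe_ne_top hGN
  by_cases hF0 : F = 0
  · have : ∀ x, f x = 0 := fun x => le_antisymm (hF0 ▸ le_iSup f x) zero_le
    simp [this]
  by_cases hG0 : G = 0
  · have : ∀ x, g x = 0 := fun x => le_antisymm (hG0 ▸ le_iSup g x) zero_le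
    simp [this]
  lift F to ℝ≥0 using hFt with F' hF'
  lift G to ℝ≥0 using hGt with G' hG'
  have hF0' : F' ≠ 0 := by simpa using hF0
  have hG0' : G' ≠ 0 := by simpa using hG0
  set c : ℝ≥0 := NNReal.sqrt (F' * G') with hc
  have hc2 : c ^ 2 = F' * G' := NNReal.sq_sqrt _
  have hc0 : c ≠ 0 := by
    intro h0; rw [h0] at hc2
    have : F' * G' = 0 := by rw [← hc2]; simp
    rcases mul_eq_zero.1 this with h | h
    · exact hF0' h
    · exact hG0' h
  have hcinv : ((c : ℝ≥0∞)⁻¹) ^ 2 = (F' : ℝ≥0∞)⁻¹ * (G' : ℝ≥0∞)⁻¹ := by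
    rw [← ENNReal.coe_inv hc0, ← ENNReal.coe_inv hF0', ← ENNReal.coe_inv hG0', ← ENNReal.coe_pow,
      ← ENNReal.coe_mul, inv_pow, hc2, mul_inv]
  have key := pl1_norm (f := fun x => (F' : ℝ≥0∞)⁻¹ * f x) (g := fun x => (G' : ℝ≥0∞)⁻¹ * g x)
    (h := fun x => (c : ℝ≥0∞)⁻¹ * h x) (hf.const_mul _) (hg.const_mul _) (hh.const_mul _)
    (by rw [← ENNReal.mul_iSup, ← hF]
        exact ENNReal.inv_mul_cancel (by simpa using hF0') ENNReal.coe_ne_top)
    (by rw [← ENNReal.mul_iSup, ← hG]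
        exact ENNReal.inv_mul_cancel (by simpa using hG0') ENNReal.coe_ne_top)
    (by
      intro x y
      rw [mul_pow, hcinv]
      calc (F' : ℝ≥0∞)⁻¹ * f x * ((G' : ℝ≥0∞)⁻¹ * g y)
          = (F' : ℝ≥0∞)⁻¹ * (G' : ℝ≥0∞)⁻¹ * (f x * g y) := by ring
        _ ≤ _ := by gcongr; exact H x y)
  rw [lintegral_const_mul _ hf, lintegral_const_mul _ hg, lintegral_const_mul _ hh] at key
  set If := ∫⁻ x, f x
  set Ig := ∫⁻ x, g x
  set Ih := ∫⁻ x, h x
  have h1 := amgm ((F' : ℝ≥0∞)⁻¹ * If) ((G' : ℝ≥0∞)⁻¹ * Ig)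
  have h2 : ((F' : ℝ≥0∞)⁻¹ * If + (G' : ℝ≥0∞)⁻¹ * Ig) ^ 2 ≤ (2 * ((c : ℝ≥0∞)⁻¹ * Ih)) ^ 2 := by
    gcongr
  have h3 := h1.trans h2
  have h4 : 4 * ((c : ℝ≥0∞)⁻¹ ^ 2 * (If * Ig)) ≤ 4 * ((c : ℝ≥0∞)⁻¹ ^ 2 * Ih ^ 2) := by
    calc 4 * ((c : ℝ≥0∞)⁻¹ ^ 2 * (If * Ig))
        = 4 * ((F' : ℝ≥0∞)⁻¹ * If * ((G' : ℝ≥0∞)⁻¹ * Ig)) := by rw [hcinv]; ring
      _ ≤ _ := h3
      _ = _ := by ring
  have h5 : (c : ℝ≥0∞)⁻¹ ^ 2 * (If * Ig) ≤ (c : ℝ≥0∞)⁻¹ ^ 2 * Ih ^ 2 :=
    (ENNReal.mul_le_mul_iff_right (by norm_num) (by norm_num)).1 h4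
  refine (ENNReal.mul_le_mul_iff_right (a := (c : ℝ≥0∞)⁻¹ ^ 2) ?_ ?_).1 h5
  · simp
  · simp [hc0]

theorem pl1 : PLProp ℝ := by
  intro f g h hf hg hh H
  have hmono : ∀ u : ℝ → ℝ≥0∞, Measurable u →
      ∫⁻ x, u x = ⨆ n : ℕ, ∫⁻ x, min (u x) n := by
    intro u hu
    rw [← lintegral_iSup (fun n => hu.min measurable_const)]
    · apply lintegral_congr
      intro x
      have : ⨆ n : ℕ, min (u x) (n : ℝ≥0∞) = min (u x) (⨆ n : ℕ, (n : ℝ≥0∞)) :=
        (inf_iSup_eq (u x) (fun n : ℕ => (n : ℝ≥0∞))).symm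
      rw [this, ENNReal.iSup_natCast]
      simp
    · intro n m hnm x
      exact min_le_min le_rfl (by exact_mod_cast hnm)
  rw [hmono f hf, hmono g hg, ENNReal.iSup_mul]
  refine iSup_le fun n => ?_
  rw [ENNReal.mul_iSup]
  refine iSup_le fun m => ?_
  apply pl1_bdd (hf.min measurable_const) (hg.min measurable_const) hh ((max n m : ℕ) : ℝ≥0)
  · intro x
    refine (min_le_right _ _).trans ?_
    push_cast
    exact le_max_left _ _
  · intro x
    refine (min_le_right _ _).trans ?_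
    push_cast
    exact le_max_right _ _
  · intro x y
    calc min (f x) n * min (g y) m ≤ f x * g y := by gcongr <;> exact min_le_left _ _
      _ ≤ _ := by
        have := H x y
        rwa [smul_eq_mul, show (1/2 : ℝ) * (x + y) = (x + y) / 2 by ring] at this

theorem pl_prod {X Y : Type} [AddCommGroup X] [Module ℝ X] [MeasureSpace X]
    [AddCommGroup Y] [Module ℝ Y] [MeasureSpace Y]
    [SFinite (volume : Measure X)] [SFinite (volume : Measure Y)]
    (hX : PLProp X) (hY : PLProp Y) : PLProp (X × Y) := by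
  intro f g h hf hg hh H
  have e : ∀ u : X × Y → ℝ≥0∞, Measurable u → ∫⁻ z, u z = ∫⁻ x, ∫⁻ y, u (x, y) := by
    intro u hu
    rw [Measure.volume_eq_prod, lintegral_prod _ hu.aemeasurable]
  rw [e f hf, e g hg, e h hh]
  apply hX _ _ _ hf.lintegral_prod_right' hg.lintegral_prod_right' hh.lintegral_prod_right'
  intro x x'
  apply hY _ _ _ (hf.comp measurable_prodMk_left) (hg.comp measurable_prodMk_left)
    (hh.comp measurable_prodMk_left)
  intro y y'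
  exact H (x, y) (x', y')

theorem pl_transfer {X Y : Type} [AddCommGroup X] [Module ℝ X] [MeasureSpace X]
    [AddCommGroup Y] [Module ℝ Y] [MeasureSpace Y] (e : X ≃ᵐ Y)
    (he : MeasurePreserving e volume volume)
    (hlin : ∀ x y, e ((1/2 : ℝ) • (x + y)) = (1/2 : ℝ) • (e x + e y)) (hX : PLProp X) :
    PLProp Y := by
  intro f g h hf hg hh H
  rw [← he.lintegral_comp hf, ← he.lintegral_comp hg, ← he.lintegral_comp hh]
  apply hX _ _ _ (hf.comp e.measurable) (hg.comp e.measurable) (hh.comp e.measurable)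
  intro x y
  simp only [Function.comp]
  rw [hlin]
  exact H (e x) (e y)

theorem pl_fin : ∀ n : ℕ, PLProp (Fin n → ℝ)
  | 0 => by
    intro f g h hf hg hh H
    have e : ∀ u : (Fin 0 → ℝ) → ℝ≥0∞, ∫⁻ x, u x = u 0 := by
      intro u
      rw [lintegral_unique]
      have : (volume : Measure (Fin 0 → ℝ)) univ = 1 := by
        rw [volume_pi, Measure.pi_of_empty]
        simp
      rw [this, mul_one]
      exact congrArg u (Subsingleton.elim _ _)
    rw [e f, e g, e h]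
    have := H 0 0
    simpa using this
  | n + 1 => by
    have h1 := pl_prod pl1 (pl_fin n)
    have hmp := (volume_preserving_piFinSuccAbove (fun _ : Fin (n+1) => ℝ) 0)
    refine pl_transfer (MeasurableEquiv.piFinSuccAbove (fun _ : Fin (n+1) => ℝ) 0).symm
      (hmp.symm _) ?_ h1
    intro x y
    apply (MeasurableEquiv.piFinSuccAbove (fun _ : Fin (n+1) => ℝ) 0).injective
    rw [MeasurableEquiv.apply_symm_apply]
    rfl

theorem pl_euclidean (d : ℕ) : PLProp (EuclideanSpace ℝ (Fin d)) := by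
  refine pl_transfer (MeasurableEquiv.toLp 2 (Fin d → ℝ))
    (EuclideanSpace.volume_preserving_symm_measurableEquiv_toLp (Fin d)).symm ?_ (pl_fin d)
  intro x y
  rfl

end Vale.Agent.P074
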