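import Vale.Agent.P074.Defs

open scoped ENNReal NNReal
open MeasureTheory Set

namespace Vale.Agent.P074

/-- Optimality from a dual certificate. -/
theorem isOptimalMap_of_cert {d : ℕ} {ρ : Measure (EuclideanSpace ℝ (Fin d))} [IsFiniteMeasure ρ]
    {K Y0 : Set (EuclideanSpace ℝ (Fin d))}
    (hK : ∀ᵐ x ∂ρ, x ∈ K) {T : EuclideanSpace ℝ (Fin d) → EuclideanSpace ℝ (Fin d)}
    (hT : Measurable T) (hY0 : MeasurableSet Y0) (hTY : ∀ x, T x ∈ Y0)
    {h : EuclideanSpace ℝ (Fin d) → ℝ≥0∞} (hh : Measurable h)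
    (hfin : ∫⁻ y, h y ∂(ρ.map T) ≠ ∞)
    (hcert : ∀ x ∈ K, ∀ y ∈ Y0, edist x (T x) ^ 2 + h (T x) ≤ edist x y ^ 2 + h y) :
    IsOptimalMap ρ (ρ.map T) T := by
  refine ⟨hT, rfl, ?_⟩
  intro S hS hSm
  have hmemS : ∀ᵐ x ∂ρ, S x ∈ Y0 := by
    have h1 : (ρ.map T) Y0ᶜ = 0 := by
      rw [Measure.map_apply hT hY0.compl]
      have : T ⁻¹' Y0ᶜ = ∅ := by
        ext x; simp [hTY x]
      rw [this]; simp
    rw [← hSm, Measure.map_apply hS hY0.compl] at h1
    exact h1
  have h2 : ∫⁻ x, (edist x (T x) ^ 2 + h (T x)) ∂ρ ≤ ∫⁻ x, (edist x (S x) ^ 2 + h (S x)) ∂ρ := by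
    apply lintegral_mono_ae
    filter_upwards [hK, hmemS] with x hx hxS
    exact hcert x hx (S x) hxS
  rw [lintegral_add_right _ (show Measurable (fun x => h (T x)) from hh.comp hT),
    lintegral_add_right _ (show Measurable (fun x => h (S x)) from hh.comp hS)] at h2
  have e1 : ∫⁻ x, h (T x) ∂ρ = ∫⁻ y, h y ∂(ρ.map T) := (lintegral_map hh hT).symm
  have e2 : ∫⁻ x, h (S x) ∂ρ = ∫⁻ y, h y ∂(ρ.map T) := by
    rw [← hSm]; exact (lintegral_map hh hS).symm
  rw [e1, e2] at h2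
  exact (ENNReal.add_le_add_iff_right hfin).1 h2

/-- The law of a three-valued map. -/
theorem map_three {X : Type*} {E : Type*} [MeasurableSpace X] [MeasurableSpace E] (ρ : Measure X)
    {A B : Set X}
    [DecidablePred (· ∈ A)] [DecidablePred (· ∈ B)]
    (hA : MeasurableSet A) (hB : MeasurableSet B) (a b c : E) :
    ρ.map (fun x => if x ∈ A then a else if x ∈ B then b else c) =
      ρ A • Measure.dirac a + ρ (B \ A) • Measure.dirac b + ρ (A ∪ B)ᶜ • Measure.dirac c := by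
  have hf : Measurable (fun x => if x ∈ A then a else if x ∈ B then b else c) :=
    Measurable.ite hA measurable_const (Measurable.ite hB measurable_const measurable_const)
  ext s hs
  rw [Measure.map_apply hf hs]
  simp only [Measure.add_apply, Measure.smul_apply, Measure.dirac_apply' _ hs, smul_eq_mul]
  set f : X → E := (fun x => if x ∈ A then a else if x ∈ B then b else c) with hfdef
  have hs' : MeasurableSet (f ⁻¹' s) := hf hs
  have h1 : ρ (f ⁻¹' s) = ρ (f ⁻¹' s ∩ A) + ρ (f ⁻¹' s \ A) := (measure_inter_add_sdiff _ hA).symm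
  have h2 : ρ (f ⁻¹' s \ A) = ρ ((f ⁻¹' s \ A) ∩ B) + ρ ((f ⁻¹' s \ A) \ B) :=
    (measure_inter_add_sdiff _ hB).symm
  have e1 : ρ (f ⁻¹' s ∩ A) = ρ A * s.indicator 1 a := by
    by_cases ha : a ∈ s
    · have : f ⁻¹' s ∩ A = A := by
        ext x; simp only [mem_inter_iff, mem_preimage, and_iff_right_iff_imp]
        intro hx; simp [hfdef, hx, ha]
      rw [this]; simp [ha]
    · have : f ⁻¹' s ∩ A = ∅ := by
        ext x; simp only [mem_inter_iff, mem_preimage, mem_empty_iff_false, iff_false, not_and]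
        intro hx hxA; apply ha; simpa [hfdef, hxA] using hx
      rw [this]; simp [ha]
  have e2 : ρ ((f ⁻¹' s \ A) ∩ B) = ρ (B \ A) * s.indicator 1 b := by
    by_cases ha : b ∈ s
    · have : (f ⁻¹' s \ A) ∩ B = B \ A := by
        ext x; simp only [mem_inter_iff, mem_preimage, mem_sdiff]
        constructor
        · rintro ⟨⟨_, h⟩, h'⟩; exact ⟨h', h⟩
        · rintro ⟨h, h'⟩; exact ⟨⟨by simp [hfdef, h, h', ha], h'⟩, h⟩
      rw [this]; simp [ha]
    · have : (f ⁻¹' s \ A) ∩ B = ∅ := by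
        ext x; simp only [mem_inter_iff, mem_preimage, mem_sdiff, mem_empty_iff_false, iff_false]
        rintro ⟨⟨h, h'⟩, h''⟩; apply ha; simpa [hfdef, h', h''] using h
      rw [this]; simp [ha]
  have e3 : ρ ((f ⁻¹' s \ A) \ B) = ρ (A ∪ B)ᶜ * s.indicator 1 c := by
    by_cases ha : c ∈ s
    · have : (f ⁻¹' s \ A) \ B = (A ∪ B)ᶜ := by
        ext x; simp only [mem_preimage, mem_sdiff, mem_compl_iff, mem_union, not_or]
        constructor
        · rintro ⟨⟨_, h⟩, h'⟩; exact ⟨h, h'⟩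
        · rintro ⟨h, h'⟩; exact ⟨⟨by simp [hfdef, h, h', ha], h⟩, h'⟩
      rw [this]; simp [ha]
    · have : (f ⁻¹' s \ A) \ B = ∅ := by
        ext x; simp only [mem_preimage, mem_sdiff, mem_empty_iff_false, iff_false]
        rintro ⟨⟨h, h'⟩, h''⟩; apply ha; simpa [hfdef, h', h''] using h
      rw [this]; simp [ha]
  rw [h1, h2, e1, e2, e3, add_assoc]

/-- Volume of a coordinate box. -/
theorem volume_box {d : ℕ} (a b : Fin d → ℝ) :
    volume {x : EuclideanSpace ℝ (Fin d) | ∀ i, x i ∈ Icc (a i) (b i)} =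
      ∏ i, ENNReal.ofReal (b i - a i) := by
  have hmp := EuclideanSpace.volume_preserving_symm_measurableEquiv_toLp (Fin d)
  have h1 : {x : EuclideanSpace ℝ (Fin d) | ∀ i, x i ∈ Icc (a i) (b i)} =
      (MeasurableEquiv.toLp 2 (Fin d → ℝ)).symm ⁻¹' (Icc a b) := by
    ext x
    simp only [mem_ofPred_eq, mem_preimage, mem_Icc, Pi.le_def, MeasurableEquiv.coe_toLp_symm]
    exact ⟨fun h => ⟨fun i => (h i).1, fun i => (h i).2⟩, fun h i => ⟨h.1 i, h.2 i⟩⟩
  rw [h1, hmp.measure_preimage measurableSet_Icc.nullMeasurableSet, Real.volume_Icc_pi]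

end Vale.Agent.P074
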