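import Vale.Agent.P074.UA

open scoped ENNReal NNReal
open MeasureTheory Set

namespace Vale.Agent.P074

variable {n : ℕ}

/-- Shorthand for the space. -/
abbrev Eu (n : ℕ) := EuclideanSpace ℝ (Fin (n + 2))

theorem cube_eq (d : ℕ) : cube d = {x : EuclideanSpace ℝ (Fin d) | ∀ i, x i ∈ Icc (-(1/2) : ℝ) (1/2)} := by
  ext x
  simp [cube, abs_le]

theorem volume_cube (d : ℕ) : volume (cube d) = 1 := by
  rw [cube_eq, volume_box]
  norm_num

theorem measurable_coord {d : ℕ} (i : Fin d) : Measurable (fun x : EuclideanSpace ℝ (Fin d) => x i) := by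
  fun_prop

theorem measurableSet_cube (d : ℕ) : MeasurableSet (cube d) := by
  have : cube d = ⋂ i, {x : EuclideanSpace ℝ (Fin d) | |x i| ≤ 1/2} := by
    ext x; simp [cube]
  rw [this]
  refine MeasurableSet.iInter fun i => ?_
  exact measurableSet_le (by fun_prop) measurable_const

theorem unif_cube (d : ℕ) : unif (cube d) = volume.restrict (cube d) := by
  rw [unif, volume_cube]; simp

instance (d : ℕ) : IsProbabilityMeasure (unif (cube d)) := by
  rw [unif_cube]
  exact ⟨by simp [volume_cube]⟩

/-- Flip the sign of the coordinates in a finite set. -/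
noncomputable def flip {d : ℕ} (s : Finset (Fin d)) :
    EuclideanSpace ℝ (Fin d) ≃ₗᵢ[ℝ] EuclideanSpace ℝ (Fin d) :=
  LinearIsometryEquiv.piLpCongrRight 2
    (fun i => if i ∈ s then LinearIsometryEquiv.neg ℝ else LinearIsometryEquiv.refl ℝ ℝ)

theorem flip_apply {d : ℕ} (s : Finset (Fin d)) (x : EuclideanSpace ℝ (Fin d)) (i : Fin d) :
    flip s x i = if i ∈ s then - x i else x i := by
  simp only [flip, LinearIsometryEquiv.piLpCongrRight_apply]
  by_cases h : i ∈ s <;> simp [h]

theorem flip_mp {d : ℕ} (s : Finset (Fin d)) : MeasurePreserving (flip s) volume volume :=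
  (flip s).measurePreserving

/-- A coordinate hyperplane type level set is null. -/
theorem null_level {d : ℕ} (f : EuclideanSpace ℝ (Fin d) →ₗ[ℝ] ℝ) (hf : f ≠ 0) (c : ℝ) :
    volume {x : EuclideanSpace ℝ (Fin d) | f x = c} = 0 := by
  obtain ⟨v, hv⟩ : ∃ v, f v ≠ 0 := by
    by_contra h; push Not at h; exact hf (LinearMap.ext h)
  set p := (c / f v) • v with hp
  have hfp : f p = c := by simp [hp, hv]
  have h1 : {x : EuclideanSpace ℝ (Fin d) | f x = c} = (fun x => x + (-p)) ⁻¹' (LinearMap.ker f : Set _) := by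
    ext x
    simp only [mem_ofPred_eq, mem_preimage, SetLike.mem_coe, LinearMap.mem_ker, map_add, map_neg, hfp]
    constructor
    · intro h; rw [h]; ring
    · intro h; linarith
  rw [h1, measure_preimage_add_right]
  apply Measure.addHaar_submodule
  intro h
  rw [LinearMap.ker_eq_top] at h
  exact hf h

end Vale.Agent.P074
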