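import Vale.Agent.P074.UB

open scoped ENNReal NNReal
open MeasureTheory Set

namespace Vale.Agent.P074

variable {n : ℕ}

/-- First coordinate vector. -/
noncomputable def e0 (n : ℕ) : Eu n := EuclideanSpace.single 0 1
/-- Second coordinate vector. -/
noncomputable def e1 (n : ℕ) : Eu n := EuclideanSpace.single 1 1

def L1 (n : ℕ) (m : ℝ) : Set (Eu n) := {x | x 0 < - (m/2)}
def R1 (n : ℕ) (m : ℝ) : Set (Eu n) := {x | m/2 < x 0}
def L2 (n : ℕ) (m : ℝ) : Set (Eu n) := {x | x 0 + m * x 1 < - (m/2)}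
def R2 (n : ℕ) (m : ℝ) : Set (Eu n) := {x | m/2 < x 0 - m * x 1}

theorem meas_L1 (m : ℝ) : MeasurableSet (L1 n m) :=
  measurableSet_lt (by fun_prop) measurable_const
theorem meas_R1 (m : ℝ) : MeasurableSet (R1 n m) :=
  measurableSet_lt measurable_const (by fun_prop)
theorem meas_L2 (m : ℝ) : MeasurableSet (L2 n m) :=
  measurableSet_lt (by fun_prop) measurable_const
theorem meas_R2 (m : ℝ) : MeasurableSet (R2 n m) :=
  measurableSet_lt measurable_const (by fun_prop)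

theorem e0_coord (i : Fin (n+2)) : (e0 n) i = if i = 0 then 1 else 0 := by
  simp [e0]
theorem e1_coord (i : Fin (n+2)) : (e1 n) i = if i = 1 then 1 else 0 := by
  simp [e1]

theorem null_a (m c : ℝ) : volume {x : Eu n | x 0 + m * x 1 = c} = 0 := by
  have := null_level (d := n+2)
    ((EuclideanSpace.proj (0 : Fin (n+2)) : Eu n →L[ℝ] ℝ).toLinearMap +
      m • (EuclideanSpace.proj (1 : Fin (n+2)) : Eu n →L[ℝ] ℝ).toLinearMap) ?_ c
  · simpa using this
  · intro h
    have := LinearMap.congr_fun h (e0 n)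
    simp [e0_coord] at this

/-- The point reflection exchanging the two thin wedges. -/
noncomputable def refl1 (m : ℝ) (x : Eu n) : Eu n := flip {0, 1} x + (-m) • e0 n

theorem refl1_mp (m : ℝ) : MeasurePreserving (refl1 (n := n) m) volume volume :=
  (measurePreserving_add_right volume ((-m) • e0 n)).comp (flip_mp {0, 1})

theorem refl1_zero (m : ℝ) (x : Eu n) : refl1 m x 0 = - m - x 0 := by
  simp [refl1, flip_apply, e0_coord]; ring
theorem refl1_one (m : ℝ) (x : Eu n) : refl1 m x 1 = - x 1 := by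
  simp [refl1, flip_apply, e0_coord]
theorem refl1_other (m : ℝ) (x : Eu n) (i : Fin (n+2)) (h0 : i ≠ 0) (h1 : i ≠ 1) :
    refl1 m x i = x i := by
  simp [refl1, flip_apply, e0_coord, h0, h1]

theorem mem_cube_iff (x : Eu n) : x ∈ cube (n+2) ↔ |x 0| ≤ 1/2 ∧ |x 1| ≤ 1/2 ∧
    ∀ i, i ≠ 0 → i ≠ 1 → |x i| ≤ 1/2 := by
  constructor
  · intro h; exact ⟨h 0, h 1, fun i _ _ => h i⟩
  · rintro ⟨h0, h1, h2⟩ i
    by_cases e0 : i = 0
    · subst e0; exact h0
    · by_cases e1 : i = 1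
      · subst e1; exact h1
      · exact h2 i e0 e1

theorem wedge_eq {m : ℝ} (hm : 0 < m) (hm2 : m ≤ 1/2) :
    volume ((cube (n+2) ∩ L1 n m) \ L2 n m) = volume ((cube (n+2) ∩ L2 n m) \ L1 n m) := by
  have hmeas : MeasurableSet ((cube (n+2) ∩ L1 n m) \ L2 n m) :=
    ((measurableSet_cube _).inter (meas_L1 m)).diff (meas_L2 m)
  rw [← (refl1_mp (n := n) m).measure_preimage hmeas.nullMeasurableSet]
  apply measure_congr
  have n1 : ∀ᵐ x : Eu n, ¬ (x 0 + m * x 1 = - (m/2)) := by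
    rw [ae_iff]; simpa using null_a (n := n) m (-(m/2))
  have n2 : ∀ᵐ x : Eu n, ¬ (x 0 = - (m/2)) := by
    rw [ae_iff]; simpa using null_a (n := n) 0 (-(m/2))
  filter_upwards [n1, n2] with x h1 h2
  have key : x ∈ refl1 m ⁻¹' ((cube (n+2) ∩ L1 n m) \ L2 n m) ↔
      x ∈ ((cube (n+2) ∩ L2 n m) \ L1 n m) := by
    simp only [mem_preimage, mem_sdiff, mem_inter_iff, L1, L2, mem_ofPred_eq, mem_cube_iff,
      refl1_zero, refl1_one, not_lt, abs_le]
    constructor
    · rintro ⟨⟨⟨⟨a1, a2⟩, ⟨a3, a4⟩, a5⟩, a6⟩, a7⟩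
      have b : m * x 1 ≤ m * (1/2) := mul_le_mul_of_nonneg_left (by linarith) hm.le
      have b' : -(m * (1/2)) ≤ m * x 1 := by nlinarith
      have a7' : x 0 + m * x 1 < -(m/2) := lt_of_le_of_ne (by linarith) h1
      refine ⟨⟨⟨⟨by linarith, by linarith⟩, ⟨by linarith, by linarith⟩, ?_⟩, a7'⟩, by linarith⟩
      intro i hi0 hi1
      have := a5 i hi0 hi1
      rwa [refl1_other m x i hi0 hi1] at this
    · rintro ⟨⟨⟨⟨a1, a2⟩, ⟨a3, a4⟩, a5⟩, a6⟩, a7⟩
      have b : m * x 1 ≤ m * (1/2) := mul_le_mul_of_nonneg_left (by linarith) hm.le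
      have b' : -(m * (1/2)) ≤ m * x 1 := by nlinarith
      have a7' : - (m/2) < x 0 := lt_of_le_of_ne a7 (Ne.symm h2)
      refine ⟨⟨⟨⟨by linarith, by linarith⟩, ⟨by linarith, by linarith⟩, ?_⟩, by linarith⟩, by linarith⟩
      intro i hi0 hi1
      rw [refl1_other m x i hi0 hi1]
      exact a5 i hi0 hi1
  exact propext key

theorem left_eq {m : ℝ} (hm : 0 < m) (hm2 : m ≤ 1/2) :
    volume (cube (n+2) ∩ L1 n m) = volume (cube (n+2) ∩ L2 n m) := by
  rw [← measure_inter_add_sdiff (cube (n+2) ∩ L1 n m) (meas_L2 m),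
    ← measure_inter_add_sdiff (cube (n+2) ∩ L2 n m) (meas_L1 m), wedge_eq hm hm2]
  congr 2
  ext x; simp only [mem_inter_iff]; tauto

theorem right_eq_left1 (m : ℝ) :
    volume (cube (n+2) ∩ R1 n m) = volume (cube (n+2) ∩ L1 n m) := by
  have hmeas : MeasurableSet (cube (n+2) ∩ L1 n m) := (measurableSet_cube _).inter (meas_L1 m)
  rw [← (flip_mp (d := n+2) {0}).measure_preimage hmeas.nullMeasurableSet]
  congr 1
  ext x
  simp only [mem_preimage, mem_inter_iff, L1, R1, mem_ofPred_eq, mem_cube_iff, flip_apply,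
    Finset.mem_singleton]
  simp only [if_true, abs_neg, Fin.one_eq_zero_iff, Nat.add_eq_right]
  constructor
  · rintro ⟨⟨h1, h2, h3⟩, h4⟩
    refine ⟨⟨h1, by simpa using h2, fun i hi hi' => by simpa [hi] using h3 i hi hi'⟩, by linarith⟩
  · rintro ⟨⟨h1, h2, h3⟩, h4⟩
    refine ⟨⟨h1, by simpa using h2, fun i hi hi' => by simpa [hi] using h3 i hi hi'⟩, by linarith⟩

theorem right_eq_left2 (m : ℝ) :
    volume (cube (n+2) ∩ R2 n m) = volume (cube (n+2) ∩ L2 n m) := by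
  have hmeas : MeasurableSet (cube (n+2) ∩ L2 n m) := (measurableSet_cube _).inter (meas_L2 m)
  rw [← (flip_mp (d := n+2) {0}).measure_preimage hmeas.nullMeasurableSet]
  congr 1
  ext x
  simp only [mem_preimage, mem_inter_iff, L2, R2, mem_ofPred_eq, mem_cube_iff, flip_apply,
    Finset.mem_singleton]
  simp only [if_true, abs_neg]
  constructor
  · rintro ⟨⟨h1, h2, h3⟩, h4⟩
    refine ⟨⟨h1, by simpa using h2, fun i hi hi' => by simpa [hi] using h3 i hi hi'⟩, ?_⟩
    simp; linarith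
  · rintro ⟨⟨h1, h2, h3⟩, h4⟩
    refine ⟨⟨h1, by simpa using h2, fun i hi hi' => by simpa [hi] using h3 i hi hi'⟩, ?_⟩
    simp at h4; linarith

end Vale.Agent.P074
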