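import Vale.Agent.P074.UC

open scoped ENNReal NNReal
open MeasureTheory Set

namespace Vale.Agent.P074

variable {n : ℕ}

theorem norm_e0 : ‖e0 n‖ = 1 := by simp [e0]
theorem norm_e1 : ‖e1 n‖ = 1 := by simp [e1]

theorem inner_e0 (x : Eu n) : inner ℝ x (e0 n) = x 0 := by
  simp [e0, EuclideanSpace.inner_single_right]
theorem inner_e1 (x : Eu n) : inner ℝ x (e1 n) = x 1 := by
  simp [e1, EuclideanSpace.inner_single_right]

theorem nsq_e0 (x : Eu n) : ‖x - e0 n‖ ^ 2 = ‖x‖ ^ 2 - 2 * x 0 + 1 := by
  rw [norm_sub_sq_real, inner_e0, norm_e0]; ring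
theorem nsq_ne0 (x : Eu n) : ‖x - (- e0 n)‖ ^ 2 = ‖x‖ ^ 2 + 2 * x 0 + 1 := by
  rw [norm_sub_sq_real, inner_neg_right, inner_e0, norm_neg, norm_e0]; ring
theorem nsq_e1 (m : ℝ) (x : Eu n) : ‖x - m • e1 n‖ ^ 2 = ‖x‖ ^ 2 - 2 * (m * x 1) + m ^ 2 := by
  rw [norm_sub_sq_real, inner_smul_right, inner_e1, norm_smul, norm_e1, mul_one,
    Real.norm_eq_abs, sq_abs]

theorem edist_sq (x y : Eu n) : edist x y ^ 2 = ENNReal.ofReal (‖x - y‖ ^ 2) := by
  rw [edist_dist, dist_eq_norm, ENNReal.ofReal_pow (norm_nonneg _)]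

/-- The dual potential. -/
noncomputable def hfun (p : Eu n) (c : ℝ) (y : Eu n) : ℝ≥0∞ :=
  open scoped Classical in if y = p then ENNReal.ofReal c else 0

theorem measurable_hfun (p : Eu n) (c : ℝ) : Measurable (hfun p c) := by
  classical
  exact Measurable.ite (measurableSet_eq) measurable_const measurable_const

theorem cert_ineq {a b c d : ℝ} (ha : 0 ≤ a) (hb : 0 ≤ b) (hc : 0 ≤ c) (hd : 0 ≤ d)
    (h : a + b ≤ c + d) :
    ENNReal.ofReal a + ENNReal.ofReal b ≤ ENNReal.ofReal c + ENNReal.ofReal d := by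
  rw [← ENNReal.ofReal_add ha hb, ← ENNReal.ofReal_add hc hd]
  exact ENNReal.ofReal_le_ofReal h

open scoped Classical in
noncomputable def Tm (n : ℕ) (m : ℝ) (x : Eu n) : Eu n :=
  if x ∈ L1 n m then - e0 n else if x ∈ R1 n m then e0 n else 0

open scoped Classical in
noncomputable def Sm (n : ℕ) (m : ℝ) (x : Eu n) : Eu n :=
  if x ∈ L2 n m then - e0 n else if x ∈ R2 n m then e0 n else m • e1 n

theorem measurable_Tm (m : ℝ) : Measurable (Tm n m) :=
  Measurable.ite (meas_L1 m) measurable_const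
    (Measurable.ite (meas_R1 m) measurable_const measurable_const)

theorem measurable_Sm (m : ℝ) : Measurable (Sm n m) :=
  Measurable.ite (meas_L2 m) measurable_const
    (Measurable.ite (meas_R2 m) measurable_const measurable_const)

theorem e0_ne_zero : e0 n ≠ 0 := by
  intro h; have := congrArg norm h; simp [norm_e0] at this

theorem e0_ne_e1 (m : ℝ) : e0 n ≠ m • e1 n := by
  intro h; have := congrArg (fun v : Eu n => v 0) h; simp [e0_coord, e1_coord] at this
theorem ne0_ne_e1 (m : ℝ) : - e0 n ≠ m • e1 n := by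
  intro h; have := congrArg (fun v : Eu n => v 0) h; simp [e0_coord, e1_coord] at this

theorem hfun_self (p : Eu n) (c : ℝ) : hfun p c p = ENNReal.ofReal c := by simp [hfun]
theorem hfun_ne (p : Eu n) (c : ℝ) {y : Eu n} (h : y ≠ p) : hfun p c y = ENNReal.ofReal 0 := by
  simp [hfun, h]

theorem lintegral_hfun_ne_top {ρ : Measure (Eu n)} [IsFiniteMeasure ρ] (p : Eu n) (c : ℝ)
    (T : Eu n → Eu n) : ∫⁻ y, hfun p c y ∂(ρ.map T) ≠ ∞ := by
  have h1 : ∫⁻ y, hfun p c y ∂(ρ.map T) ≤ ∫⁻ y, ENNReal.ofReal c ∂(ρ.map T) := by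
    apply lintegral_mono
    intro y
    unfold hfun
    split_ifs
    · exact le_rfl
    · exact zero_le
  refine ne_top_of_le_ne_top ?_ h1
  rw [lintegral_const]
  exact ENNReal.mul_ne_top ENNReal.ofReal_ne_top (measure_ne_top _ _)

theorem opt_T {m : ℝ} (hm : 0 < m) (hm2 : m ≤ 1/2) :
    IsOptimalMap (unif (cube (n+2))) ((unif (cube (n+2))).map (Tm n m)) (Tm n m) := by
  refine isOptimalMap_of_cert (K := cube (n+2)) (Y0 := {- e0 n, e0 n, 0})
    (h := hfun (0 : Eu n) (1 - m)) ?_ (measurable_Tm m) ?_ ?_ (measurable_hfun _ _)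
    (lintegral_hfun_ne_top _ _ _) ?_
  · rw [unif_cube]; exact ae_restrict_mem (measurableSet_cube _)
  · exact (Set.toFinite _).measurableSet
  · intro x; unfold Tm; split_ifs <;> simp
  · intro x hx y hy
    have g0 : e0 n ≠ 0 := e0_ne_zero
    have g1 : - e0 n ≠ 0 := neg_ne_zero.2 g0
    have gm : (0:ℝ) ≤ 1 - m := by linarith
    by_cases hL : x ∈ L1 n m
    · have hT : Tm n m x = - e0 n := by simp [Tm, hL]
      have hL' : x 0 < -(m/2) := hL
      rw [hT]
      rcases hy with rfl | rfl | rfl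
      · exact le_rfl
      · rw [hfun_ne _ _ g0, hfun_ne _ _ g1, edist_sq, edist_sq]
        apply cert_ineq (by positivity) le_rfl (by positivity) le_rfl
        rw [nsq_e0, nsq_ne0]; linarith
      · rw [hfun_self, hfun_ne _ _ g1, edist_sq, edist_sq]
        apply cert_ineq (by positivity) le_rfl (by positivity) gm
        rw [nsq_ne0, sub_zero]; linarith
    · have hL' : -(m/2) ≤ x 0 := not_lt.1 hL
      by_cases hR : x ∈ R1 n m
      · have hT : Tm n m x = e0 n := by simp [Tm, hL, hR]
        have hR' : m/2 < x 0 := hR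
        rw [hT]
        rcases hy with rfl | rfl | rfl
        · rw [hfun_ne _ _ g0, hfun_ne _ _ g1, edist_sq, edist_sq]
          apply cert_ineq (by positivity) le_rfl (by positivity) le_rfl
          rw [nsq_e0, nsq_ne0]; linarith
        · exact le_rfl
        · rw [hfun_self, hfun_ne _ _ g0, edist_sq, edist_sq]
          apply cert_ineq (by positivity) le_rfl (by positivity) gm
          rw [nsq_e0, sub_zero]; linarith
      · have hT : Tm n m x = 0 := by simp [Tm, hL, hR]
        have hR' : x 0 ≤ m/2 := not_lt.1 hR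
        rw [hT]
        rcases hy with rfl | rfl | rfl
        · rw [hfun_self, hfun_ne _ _ g1, edist_sq, edist_sq]
          apply cert_ineq (by positivity) gm (by positivity) le_rfl
          rw [nsq_ne0, sub_zero]; linarith
        · rw [hfun_self, hfun_ne _ _ g0, edist_sq, edist_sq]
          apply cert_ineq (by positivity) gm (by positivity) le_rfl
          rw [nsq_e0, sub_zero]; linarith
        · exact le_rfl

theorem opt_S {m : ℝ} (hm : 0 < m) (hm2 : m ≤ 1/2) :
    IsOptimalMap (unif (cube (n+2))) ((unif (cube (n+2))).map (Sm n m)) (Sm n m) := by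
  refine isOptimalMap_of_cert (K := cube (n+2)) (Y0 := {- e0 n, e0 n, m • e1 n})
    (h := hfun (m • e1 n) (1 - m - m^2)) ?_ (measurable_Sm m) ?_ ?_ (measurable_hfun _ _)
    (lintegral_hfun_ne_top _ _ _) ?_
  · rw [unif_cube]; exact ae_restrict_mem (measurableSet_cube _)
  · exact (Set.toFinite _).measurableSet
  · intro x; unfold Sm; split_ifs <;> simp
  · intro x hx y hy
    have g0 : e0 n ≠ m • e1 n := e0_ne_e1 m
    have g1 : - e0 n ≠ m • e1 n := ne0_ne_e1 m
    have gm : (0:ℝ) ≤ 1 - m - m^2 := by nlinarith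
    have hx1 : |x 1| ≤ 1/2 := hx 1
    rw [abs_le] at hx1
    have b : m * x 1 ≤ m * (1/2) := mul_le_mul_of_nonneg_left (by linarith) hm.le
    have b' : -(m * (1/2)) ≤ m * x 1 := by nlinarith
    by_cases hL : x ∈ L2 n m
    · have hT : Sm n m x = - e0 n := by simp [Sm, hL]
      have hL' : x 0 + m * x 1 < -(m/2) := hL
      rw [hT]
      rcases hy with rfl | rfl | rfl
      · exact le_rfl
      · rw [hfun_ne _ _ g0, hfun_ne _ _ g1, edist_sq, edist_sq]
        apply cert_ineq (by positivity) le_rfl (by positivity) le_rfl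
        rw [nsq_e0, nsq_ne0]; linarith
      · rw [hfun_self, hfun_ne _ _ g1, edist_sq, edist_sq]
        apply cert_ineq (by positivity) le_rfl (by positivity) gm
        rw [nsq_ne0, nsq_e1]; linarith
    · have hL' : -(m/2) ≤ x 0 + m * x 1 := not_lt.1 hL
      by_cases hR : x ∈ R2 n m
      · have hT : Sm n m x = e0 n := by simp [Sm, hL, hR]
        have hR' : m/2 < x 0 - m * x 1 := hR
        rw [hT]
        rcases hy with rfl | rfl | rfl
        · rw [hfun_ne _ _ g0, hfun_ne _ _ g1, edist_sq, edist_sq]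
          apply cert_ineq (by positivity) le_rfl (by positivity) le_rfl
          rw [nsq_e0, nsq_ne0]; linarith
        · exact le_rfl
        · rw [hfun_self, hfun_ne _ _ g0, edist_sq, edist_sq]
          apply cert_ineq (by positivity) le_rfl (by positivity) gm
          rw [nsq_e0, nsq_e1]; linarith
      · have hT : Sm n m x = m • e1 n := by simp [Sm, hL, hR]
        have hR' : x 0 - m * x 1 ≤ m/2 := not_lt.1 hR
        rw [hT]
        rcases hy with rfl | rfl | rfl
        · rw [hfun_self, hfun_ne _ _ g1, edist_sq, edist_sq]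
          apply cert_ineq (by positivity) gm (by positivity) le_rfl
          rw [nsq_ne0, nsq_e1]; linarith
        · rw [hfun_self, hfun_ne _ _ g0, edist_sq, edist_sq]
          apply cert_ineq (by positivity) gm (by positivity) le_rfl
          rw [nsq_e0, nsq_e1]; linarith
        · exact le_rfl

end Vale.Agent.P074
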