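import Vale.Agent.P074.UD

open scoped ENNReal NNReal
open MeasureTheory Set

namespace Vale.Agent.P074

variable {n : ℕ}

theorem cube_L1_R1 {m : ℝ} (hm : 0 < m) : R1 n m \ L1 n m = R1 n m := by
  ext x
  simp only [mem_sdiff, R1, L1, mem_ofPred_eq, and_iff_left_iff_imp, not_lt]
  intro h; linarith

theorem cube_L2_R2 {m : ℝ} (hm : 0 < m) : (R2 n m \ L2 n m) ∩ cube (n+2) = R2 n m ∩ cube (n+2) := by
  ext x
  simp only [mem_inter_iff, mem_sdiff, R2, L2, mem_ofPred_eq, and_congr_left_iff,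
    and_iff_left_iff_imp, not_lt]
  intro hc h
  have hx1 : |x 1| ≤ 1/2 := hc 1
  rw [abs_le] at hx1
  have b' : -(m * (1/2)) ≤ m * x 1 := by nlinarith
  linarith

theorem rho_apply {A : Set (Eu n)} (hA : MeasurableSet A) :
    unif (cube (n+2)) A = volume (cube (n+2) ∩ A) := by
  rw [unif_cube, Measure.restrict_apply hA, inter_comm]

/-- Common mass of the four outer cells. -/
noncomputable def pm (n : ℕ) (m : ℝ) : ℝ≥0∞ := volume (cube (n+2) ∩ L1 n m)

theorem massR1 {m : ℝ} (hm : 0 < m) : unif (cube (n+2)) (R1 n m \ L1 n m) = pm n m := by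
  rw [cube_L1_R1 hm, rho_apply (meas_R1 m), right_eq_left1, pm]
theorem massL1 {m : ℝ} : unif (cube (n+2)) (L1 n m) = pm n m := by
  rw [rho_apply (meas_L1 m), pm]
theorem massL2 {m : ℝ} (hm : 0 < m) (hm2 : m ≤ 1/2) : unif (cube (n+2)) (L2 n m) = pm n m := by
  rw [rho_apply (meas_L2 m), pm, left_eq hm hm2]
theorem massR2 {m : ℝ} (hm : 0 < m) (hm2 : m ≤ 1/2) :
    unif (cube (n+2)) (R2 n m \ L2 n m) = pm n m := by
  rw [unif_cube, Measure.restrict_apply ((meas_R2 m).diff (meas_L2 m)), cube_L2_R2 hm, inter_comm,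
    right_eq_left2, pm, left_eq hm hm2]

theorem mass_sum {A B : Set (Eu n)} (hA : MeasurableSet A) (hB : MeasurableSet B) :
    unif (cube (n+2)) A + unif (cube (n+2)) (B \ A) + unif (cube (n+2)) (A ∪ B)ᶜ = 1 := by
  rw [← measure_univ (μ := unif (cube (n+2))), ← measure_add_measure_compl (hA.union hB)]
  congr 1
  rw [← union_sdiff_self, measure_union disjoint_sdiff_right (hB.diff hA)]

theorem mass_mid {m : ℝ} (hm : 0 < m) (hm2 : m ≤ 1/2) :
    unif (cube (n+2)) (L2 n m ∪ R2 n m)ᶜ = unif (cube (n+2)) (L1 n m ∪ R1 n m)ᶜ := by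
  have h1 := mass_sum (meas_L1 (n := n) m) (meas_R1 m)
  have h2 := mass_sum (meas_L2 (n := n) m) (meas_R2 m)
  rw [massL1, massR1 hm] at h1
  rw [massL2 hm hm2, massR2 hm hm2] at h2
  have hp : pm n m + pm n m ≠ ∞ := by
    have : pm n m ≠ ∞ := by rw [← massL1]; exact measure_ne_top _ _
    exact ENNReal.add_ne_top.2 ⟨this, this⟩
  rw [← h1] at h2
  exact (ENNReal.add_right_inj hp).1 h2

theorem mass_mid_val {m : ℝ} (hm : 0 < m) (hm2 : m ≤ 1/2) :
    unif (cube (n+2)) (L1 n m ∪ R1 n m)ᶜ = ENNReal.ofReal m := by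
  rw [rho_apply ((meas_L1 m).union (meas_R1 m)).compl]
  have h1 : cube (n+2) ∩ (L1 n m ∪ R1 n m)ᶜ =
      {x : Eu n | ∀ i, x i ∈ Icc ((fun i : Fin (n+2) => if i = 0 then -(m/2) else -(1/2:ℝ)) i)
        ((fun i : Fin (n+2) => if i = 0 then (m/2) else (1/2:ℝ)) i)} := by
    ext x
    simp only [mem_inter_iff, mem_compl_iff, mem_union, L1, R1, mem_ofPred_eq, not_or, not_lt,
      mem_Icc, cube, abs_le]
    constructor
    · rintro ⟨h, h0, h0'⟩ i
      by_cases hi : i = 0
      · subst hi; simp; exact ⟨h0, h0'⟩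
      · simp only [hi, if_false]; exact h i
    · intro h
      have h0 := h 0
      simp only [if_true] at h0
      refine ⟨fun i => ?_, h0.1, h0.2⟩
      by_cases hi : i = 0
      · subst hi; constructor <;> linarith [h0.1, h0.2]
      · have := h i; simp only [hi, if_false] at this; exact this
  rw [h1, volume_box, Fin.prod_univ_succ]
  simp only [if_true, Fin.succ_ne_zero, if_false]
  norm_num

theorem law_T {m : ℝ} (hm : 0 < m) :
    (unif (cube (n+2))).map (Tm n m) = pm n m • Measure.dirac (- e0 n) +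
      pm n m • Measure.dirac (e0 n) + unif (cube (n+2)) (L1 n m ∪ R1 n m)ᶜ • Measure.dirac 0 := by
  classical
  have := map_three (unif (cube (n+2))) (meas_L1 (n := n) m) (meas_R1 m) (- e0 n) (e0 n) 0
  rw [massL1, massR1 hm] at this
  rw [← this]
  congr 1

theorem law_S {m : ℝ} (hm : 0 < m) (hm2 : m ≤ 1/2) :
    (unif (cube (n+2))).map (Sm n m) = pm n m • Measure.dirac (- e0 n) +
      pm n m • Measure.dirac (e0 n) + unif (cube (n+2)) (L1 n m ∪ R1 n m)ᶜ •
        Measure.dirac (m • e1 n) := by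
  classical
  have := map_three (unif (cube (n+2))) (meas_L2 (n := n) m) (meas_R2 m) (- e0 n) (e0 n) (m • e1 n)
  rw [massL2 hm hm2, massR2 hm hm2, mass_mid hm hm2] at this
  rw [← this]
  congr 1

theorem W2_le {m : ℝ} (hm : 0 < m) (hm2 : m ≤ 1/2) :
    W2 ((unif (cube (n+2))).map (Tm n m)) ((unif (cube (n+2))).map (Sm n m)) ≤
      (ENNReal.ofReal (m ^ 3)) ^ (1/2 : ℝ) := by
  unfold W2
  apply ENNReal.rpow_le_rpow _ (by norm_num)
  set r := unif (cube (n+2)) (L1 n m ∪ R1 n m)ᶜ with hr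
  set π : Measure (Eu n × Eu n) := pm n m • Measure.dirac (- e0 n, - e0 n) +
      pm n m • Measure.dirac (e0 n, e0 n) + r • Measure.dirac (0, m • e1 n) with hπ
  have h1 : π.map Prod.fst = (unif (cube (n+2))).map (Tm n m) := by
    rw [law_T hm, hπ, Measure.map_add _ _ measurable_fst, Measure.map_add _ _ measurable_fst,
      Measure.map_smul, Measure.map_smul, Measure.map_smul, Measure.map_dirac' measurable_fst,
      Measure.map_dirac' measurable_fst, Measure.map_dirac' measurable_fst]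
  have h2 : π.map Prod.snd = (unif (cube (n+2))).map (Sm n m) := by
    rw [law_S hm hm2, hπ, Measure.map_add _ _ measurable_snd, Measure.map_add _ _ measurable_snd,
      Measure.map_smul, Measure.map_smul, Measure.map_smul, Measure.map_dirac' measurable_snd,
      Measure.map_dirac' measurable_snd, Measure.map_dirac' measurable_snd]
  refine (iInf_le _ ⟨π, h1, h2⟩).trans ?_
  simp only [hπ]
  rw [lintegral_add_measure, lintegral_add_measure, lintegral_smul_measure, lintegral_smul_measure,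
    lintegral_smul_measure, lintegral_dirac, lintegral_dirac, lintegral_dirac]
  simp only [edist_self, smul_eq_mul]
  rw [edist_sq, hr, mass_mid_val hm hm2, zero_sub, norm_neg, norm_smul, norm_e1,
    ← ENNReal.ofReal_mul hm.le]
  simp only [ne_eq, OfNat.ofNat_ne_zero, not_false_eq_true, zero_pow, mul_zero, zero_add, mul_one,
    Real.norm_eq_abs, sq_abs]
  apply ENNReal.ofReal_le_ofReal
  apply le_of_eq; ring

theorem L2_ge {m : ℝ} (hm : 0 < m) (hm2 : m ≤ 1/2) :
    (ENNReal.ofReal (m/32)) ^ (1/2 : ℝ) ≤ L2dist (unif (cube (n+2))) (Tm n m) (Sm n m) := by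
  unfold L2dist
  apply ENNReal.rpow_le_rpow _ (by norm_num)
  set B : Set (Eu n) := {x : Eu n | ∀ i, x i ∈ Icc
      ((fun i : Fin (n+2) => if i = 0 then (5 * m/8) else if i = 1 then 1/4 else -(1/2:ℝ)) i)
        ((fun i : Fin (n+2) => if i = 0 then (3*m/4) else (1/2:ℝ)) i)} with hB
  have hBm : MeasurableSet B := by
    have : B = ⋂ i, {x : Eu n | x i ∈ Icc
      ((fun i : Fin (n+2) => if i = 0 then (5 * m/8) else if i = 1 then 1/4 else -(1/2:ℝ)) i)
        ((fun i : Fin (n+2) => if i = 0 then (3*m/4) else (1/2:ℝ)) i)} := by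
      ext x; simp [hB]
    rw [this]
    exact MeasurableSet.iInter fun i => (measurable_coord i) measurableSet_Icc
  have hBc : B ⊆ cube (n+2) := by
    intro x hx
    rw [mem_cube_iff]
    have h0 := hx 0
    have h1 := hx 1
    simp only [if_true, mem_Icc, one_ne_zero, if_false] at h0 h1
    refine ⟨abs_le.2 ⟨by linarith, by linarith⟩, abs_le.2 ⟨by linarith, by linarith⟩, ?_⟩
    intro i hi hi'
    have := hx i
    simp only [hi, hi', if_false] at this
    exact abs_le.2 this
  have hvol : unif (cube (n+2)) B = ENNReal.ofReal (m/32) := by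
    rw [rho_apply hBm, inter_eq_right.2 hBc, hB, volume_box, Fin.prod_univ_succ,
      Fin.prod_univ_succ]
    simp only [if_true, Fin.succ_ne_zero, if_false]
    have e1 : (Fin.succ (0 : Fin (n+1))) = 1 := rfl
    have e2 : ∀ i : Fin n, (Fin.succ (Fin.succ i)) ≠ (1 : Fin (n+2)) := by
      intro i h
      have := congrArg Fin.val h
      simp at this
    simp only [e1, if_true, e2, if_false]
    have e3 : ENNReal.ofReal ((1/2 : ℝ) - -(1/2)) = 1 := by norm_num
    simp only [e3, Finset.prod_const_one, mul_one]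
    rw [← ENNReal.ofReal_mul (by linarith)]
    congr 1; ring
  rw [← hvol]
  calc unif (cube (n+2)) B = ∫⁻ x in B, 1 ∂(unif (cube (n+2))) := by simp
    _ ≤ ∫⁻ x in B, edist (Tm n m x) (Sm n m x) ^ 2 ∂(unif (cube (n+2))) := by
        apply setLIntegral_mono' hBm
        intro x hx
        have h0 := hx 0
        have h1 := hx 1
        simp only [if_true, mem_Icc, one_ne_zero, if_false] at h0 h1
        have b1 : m * (1/4) ≤ m * x 1 := mul_le_mul_of_nonneg_left h1.1 hm.le
        have n1 : x ∉ L1 n m := by simp only [L1, mem_ofPred_eq, not_lt]; linarith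
        have n2 : x ∈ R1 n m := by simp only [R1, mem_ofPred_eq]; linarith
        have n3 : x ∉ L2 n m := by simp only [L2, mem_ofPred_eq, not_lt]; linarith
        have n4 : x ∉ R2 n m := by simp only [R2, mem_ofPred_eq, not_lt]; linarith
        have hT : Tm n m x = e0 n := by simp [Tm, n1, n2]
        have hS : Sm n m x = m • e1 n := by simp [Sm, n3, n4]
        rw [hT, hS, edist_sq, nsq_e1, norm_e0]
        have : (e0 n) 1 = 0 := by simp [e0_coord]
        rw [this]
        rw [ENNReal.one_le_ofReal]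
        nlinarith
    _ ≤ ∫⁻ x, edist (Tm n m x) (Sm n m x) ^ 2 ∂(unif (cube (n+2))) := setLIntegral_le_lintegral _ _

theorem supp_T (m : ℝ) : ((unif (cube (n+2))).map (Tm n m)) (Metric.closedBall 0 1)ᶜ = 0 := by
  rw [Measure.map_apply (measurable_Tm m) Metric.isClosed_closedBall.measurableSet.compl]
  have : Tm n m ⁻¹' (Metric.closedBall 0 1)ᶜ = ∅ := by
    ext x
    simp only [mem_preimage, mem_compl_iff, mem_empty_iff_false, iff_false, not_not,
      Metric.mem_closedBall, dist_zero_right]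
    unfold Tm; split_ifs <;> simp [norm_e0]
  rw [this]; simp

theorem supp_S {m : ℝ} (hm : 0 < m) (hm2 : m ≤ 1/2) :
    ((unif (cube (n+2))).map (Sm n m)) (Metric.closedBall 0 1)ᶜ = 0 := by
  rw [Measure.map_apply (measurable_Sm m) Metric.isClosed_closedBall.measurableSet.compl]
  have : Sm n m ⁻¹' (Metric.closedBall 0 1)ᶜ = ∅ := by
    ext x
    simp only [mem_preimage, mem_compl_iff, mem_empty_iff_false, iff_false, not_not,
      Metric.mem_closedBall, dist_zero_right]
    unfold Sm; split_ifs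
    · simp [norm_e0]
    · simp [norm_e0]
    · rw [norm_smul, norm_e1, mul_one, Real.norm_eq_abs, abs_of_pos hm]; linarith
  rw [this]; simp

theorem not_stability {α : ℝ} (hα : 1/3 < α) :
    ¬ StabilityBound (cube (n+2)) (Metric.closedBall 0 1) α := by
  rintro ⟨C, hC⟩
  have key : ∀ m : ℝ, 0 < m → m ≤ 1/2 →
      (1/32 : ℝ) ^ (1/2 : ℝ) ≤ C * m ^ ((3 * α - 1) / 2) := by
    intro m hm hm2
    have h1 := hC ((unif (cube (n+2))).map (Tm n m)) ((unif (cube (n+2))).map (Sm n m))
      (Measure.isProbabilityMeasure_map (measurable_Tm m).aemeasurable)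
      (Measure.isProbabilityMeasure_map (measurable_Sm m).aemeasurable)
      (supp_T m) (supp_S hm hm2) _ _ (opt_T hm hm2) (opt_S hm hm2)
    have h2 := (L2_ge (n := n) hm hm2).trans (h1.trans (mul_le_mul_right (ENNReal.rpow_le_rpow
      (W2_le (n := n) hm hm2) (by linarith : (0:ℝ) ≤ α)) (C : ℝ≥0∞)))
    have hm3 : 0 < m ^ 3 := by positivity
    rw [ENNReal.ofReal_rpow_of_pos (by positivity), ENNReal.ofReal_rpow_of_pos hm3,
      ENNReal.ofReal_rpow_of_pos (by positivity), ← ENNReal.ofReal_coe_nnreal,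
      ← ENNReal.ofReal_mul (by positivity), ENNReal.ofReal_le_ofReal_iff (by positivity)] at h2
    have e1 : ((m ^ 3 : ℝ) ^ (1/2 : ℝ)) ^ α = m ^ (1/2 : ℝ) * m ^ ((3 * α - 1) / 2) := by
      rw [← Real.rpow_natCast m 3, ← Real.rpow_mul hm.le, ← Real.rpow_mul hm.le,
        ← Real.rpow_add hm]
      congr 1; push_cast; ring
    have e2 : (m/32 : ℝ) ^ (1/2 : ℝ) = m ^ (1/2 : ℝ) * (1/32 : ℝ) ^ (1/2 : ℝ) := by
      rw [← Real.mul_rpow hm.le (by norm_num)]; congr 1; ring
    rw [e1, e2] at h2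
    have hpos : 0 < m ^ (1/2 : ℝ) := Real.rpow_pos_of_pos hm _
    have h3 : m ^ (1/2 : ℝ) * (1/32 : ℝ) ^ (1/2 : ℝ) ≤
        m ^ (1/2 : ℝ) * (C * m ^ ((3 * α - 1) / 2)) := by
      calc _ ≤ _ := h2
        _ = _ := by ring
    exact le_of_mul_le_mul_left h3 hpos
  have hβ : 0 < (3 * α - 1) / 2 := by linarith
  have ht : Filter.Tendsto (fun m : ℝ => (C : ℝ) * m ^ ((3 * α - 1) / 2))
      (nhdsWithin 0 (Ioi 0)) (nhds (C * 0)) := by
    apply Filter.Tendsto.const_mul
    have := (Real.continuousAt_rpow_const 0 ((3 * α - 1) / 2) (Or.inr hβ.le)).tendsto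
    rw [Real.zero_rpow hβ.ne'] at this
    exact this.mono_left nhdsWithin_le_nhds
  have hle : (1/32 : ℝ) ^ (1/2 : ℝ) ≤ C * 0 := by
    apply ge_of_tendsto ht
    have : Ioc (0:ℝ) (1/2) ∈ nhdsWithin (0:ℝ) (Ioi 0) := Ioc_mem_nhdsGT (by norm_num)
    filter_upwards [this] with m hm
    exact key m hm.1 hm.2
  have : 0 < (1/32 : ℝ) ^ (1/2 : ℝ) := by positivity
  simp at hle
  linarith

theorem convex_cube (d : ℕ) : Convex ℝ (cube d) := by
  intro x hx y hy a b ha hb hab i
  have h1 := hx i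
  have h2 := hy i
  rw [abs_le] at *
  simp only [PiLp.add_apply, PiLp.smul_apply, smul_eq_mul]
  constructor <;> nlinarith

theorem isCompact_cube (d : ℕ) : IsCompact (cube d) := by
  apply Metric.isCompact_of_isClosed_isBounded
  · have : cube d = ⋂ i, {x : EuclideanSpace ℝ (Fin d) | |x i| ≤ 1/2} := by
      ext x; simp [cube]
    rw [this]
    refine isClosed_iInter fun i => isClosed_le (by fun_prop) continuous_const
  · rw [isBounded_iff_forall_norm_le]
    refine ⟨Real.sqrt (∑ i : Fin d, (1/2)^2), ?_⟩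
    intro x hx
    rw [EuclideanSpace.norm_eq]
    apply Real.sqrt_le_sqrt
    apply Finset.sum_le_sum
    intro i _
    have := hx i
    rw [Real.norm_eq_abs]
    gcongr

theorem interior_cube (d : ℕ) : (interior (cube d)).Nonempty := by
  refine ⟨0, ?_⟩
  rw [mem_interior]
  refine ⟨⋂ i, {x : EuclideanSpace ℝ (Fin d) | |x i| < 1/2}, ?_, ?_, ?_⟩
  · intro x hx i; exact (mem_iInter.1 hx i).le
  · exact isOpen_iInter_of_finite fun i => isOpen_lt (by fun_prop) continuous_const
  · simp

theorem admissible_le {α : ℝ} (h : Admissible (n+2) α) : α ≤ 1/3 := by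
  by_contra hα
  push Not at hα
  exact not_stability hα (h.2.2 (cube (n+2)) (Metric.closedBall 0 1) (convex_cube _)
    (isCompact_cube _) (interior_cube _) (isCompact_closedBall _ _)
    ⟨0, by simp⟩)

end Vale.Agent.P074
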